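/-
S0109/S0110 (row 82): definitions shared by all modules of the optimal-transport stability proof.
See the blueprint in `Blueprint.lean` (statements) and the team note 'S0109-blueprint' (mathematics).
-/
import Mathlib
import Crest.Prelude.Def_QuadraticTransport

set_option autoImplicit false

open MeasureTheory Set
open scoped ENNReal NNReal RealInnerProductSpace

namespace Crest.Agent.Lib.OTStab

/-- The Euclidean space we work in. -/
abbrev EE (d : ℕ) := EuclideanSpace ℝ (Fin d)

variable {d : ℕ}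

/-- Standing assumptions on the source domain. -/
structure Body (K : Set (EE d)) : Prop where
  compact : IsCompact K
  convex : Convex ℝ K
  interior_nonempty : (interior K).Nonempty

/-- The uniform probability measure on `K`. -/
noncomputable abbrev rho (K : Set (EE d)) : Measure (EE d) := Crest.AnalysisR.OT.uniformProbOn K

section Atoms

variable {ι : Type*} [Fintype ι]

/-- The affine function `x ↦ ⟪x, y i⟫ - ψ i` attached to the atom `y i`. -/
noncomputable def aff (y : ι → EE d) (ψ : ι → ℝ) (i : ι) (x : EE d) : ℝ := ⟪x, y i⟫ - ψ i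

/-- The polyhedral convex potential `x ↦ max_i (⟪x, y i⟫ - ψ i)`. -/
noncomputable def phi (y : ι → EE d) (ψ : ι → ℝ) (x : EE d) : ℝ := ⨆ i, aff y ψ i x

/-- The (closed) Laguerre cell of the atom `i`, as a subset of the whole space. -/
def cell (y : ι → EE d) (ψ : ι → ℝ) (i : ι) : Set (EE d) := {x | ∀ j, aff y ψ j x ≤ aff y ψ i x}

/-- A density with respect to `rho K`, bounded between 1/2 and 3/2, total mass 1. -/
structure IsDens (K : Set (EE d)) (σ : EE d → ℝ) : Prop where
  meas : Measurable σ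
  lower : ∀ x, 1 / 2 ≤ σ x
  upper : ∀ x, σ x ≤ 3 / 2
  mass : ∫ x, σ x ∂(rho K) = 1

/-- Positive masses with total mass 1. -/
structure Masses (pm : ι → ℝ) : Prop where
  pos : ∀ i, 0 < pm i
  sum : ∑ i, pm i = 1

/-- The Kantorovich functional of the semi-discrete problem. -/
noncomputable def Fn (K : Set (EE d)) (pm : ι → ℝ) (y : ι → EE d) (σ : EE d → ℝ) (ψ : ι → ℝ) : ℝ :=
  ∫ x, phi y ψ x * σ x ∂(rho K) + ∑ i, pm i * ψ i

/-- `ψ` minimises the Kantorovich functional. -/
def IsMinFn (K : Set (EE d)) (pm : ι → ℝ) (y : ι → EE d) (σ : EE d → ℝ) (ψ : ι → ℝ) : Prop :=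
  ∀ ψ', Fn K pm y σ ψ ≤ Fn K pm y σ ψ'

/-- `ψ` solves the semi-discrete transport problem: every cell has the prescribed mass. -/
def Solved (K : Set (EE d)) (pm : ι → ℝ) (y : ι → EE d) (σ : EE d → ℝ) (ψ : ι → ℝ) : Prop :=
  ∀ i, ∫ x in cell y ψ i, σ x ∂(rho K) = pm i

end Atoms

/-- Variance of `f` under `rho K`. -/
noncomputable def varRho (K : Set (EE d)) (f : EE d → ℝ) : ℝ :=
  ∫ x, f x ^ 2 ∂(rho K) - (∫ x, f x ∂(rho K)) ^ 2

end Crest.Agent.Lib.OTStab
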