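/-
S0109 (row 82): an atomless finite measure can be pushed onto any measure of the same mass;
finite partitions of compact sets into small pieces.
-/
import Crest.Agent.Lib.OTStab.Defs

set_option autoImplicit false

open MeasureTheory Set Filter Topology
open scoped ENNReal NNReal RealInnerProductSpace unitInterval

namespace Crest.Agent.Lib.OTStab

section Real

variable (α : Measure ℝ) [IsProbabilityMeasure α] [NullSingletonClass α]

include α in
/-- left-continuity of the distribution function. -/
private lemma measure_Iio_le_of_forall {z : ℝ} {C : ℝ≥0∞} (h : ∀ x, x < z → α (Iic x) ≤ C) :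
    α (Iio z) ≤ C := by
  have hU : Iio z = ⋃ n : ℕ, Iic (z - 1 / ((n : ℝ) + 1)) := by
    ext x
    simp only [mem_Iio, mem_iUnion, mem_Iic]
    constructor
    · intro hx
      obtain ⟨n, hn⟩ := exists_nat_one_div_lt (sub_pos.mpr hx)
      exact ⟨n, by linarith⟩
    · rintro ⟨n, hn⟩
      have : (0 : ℝ) < 1 / ((n : ℝ) + 1) := by positivity
      linarith
  have hmono : Monotone fun n : ℕ => Iic (z - 1 / ((n : ℝ) + 1)) := by
    intro n m hnm
    apply Iic_subset_Iic.mpr
    have h2 : (1 : ℝ) / ((m : ℝ) + 1) ≤ 1 / ((n : ℝ) + 1) := by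
      apply one_div_le_one_div_of_le (by positivity)
      have : (n : ℝ) ≤ m := by exact_mod_cast hnm
      linarith
    linarith
  rw [hU, hmono.measure_iUnion]
  refine iSup_le fun n => h _ ?_
  have : (0 : ℝ) < 1 / ((n : ℝ) + 1) := by positivity
  linarith

/-- right-continuity of the distribution function. -/
private lemma le_measure_Iic_of_forall {z : ℝ} {C : ℝ≥0∞} (h : ∀ x, z < x → C ≤ α (Iic x)) :
    C ≤ α (Iic z) := by
  have hU : Iic z = ⋂ n : ℕ, Iic (z + 1 / ((n : ℝ) + 1)) := by
    ext x
    simp only [mem_iInter, mem_Iic]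
    constructor
    · intro hx n
      have : (0 : ℝ) < 1 / ((n : ℝ) + 1) := by positivity
      linarith
    · intro hx
      refine le_of_forall_pos_le_add fun ε hε => ?_
      obtain ⟨n, hn⟩ := exists_nat_one_div_lt hε
      have := hx n
      linarith
  have hanti : Antitone fun n : ℕ => Iic (z + 1 / ((n : ℝ) + 1)) := by
    intro n m hnm
    apply Iic_subset_Iic.mpr
    have h2 : (1 : ℝ) / ((m : ℝ) + 1) ≤ 1 / ((n : ℝ) + 1) := by
      apply one_div_le_one_div_of_le (by positivity)
      have : (n : ℝ) ≤ m := by exact_mod_cast hnm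
      linarith
    linarith
  rw [hU, hanti.measure_iInter (fun _ => measurableSet_Iic.nullMeasurableSet)
    ⟨0, measure_ne_top _ _⟩]
  refine le_iInf fun n => h _ ?_
  have : (0 : ℝ) < 1 / ((n : ℝ) + 1) := by positivity
  linarith

/-- The distribution function of an atomless probability measure pushes it to the uniform law. -/
theorem measure_setOf_measure_Iic_le (C : ℝ≥0∞) (hC : C ≤ 1) :
    α {x | α (Iic x) ≤ C} = C := by
  set A : Set ℝ := {x | α (Iic x) ≤ C} with hA
  have hmono : ∀ x x', x ≤ x' → α (Iic x) ≤ α (Iic x') :=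
    fun x x' h => measure_mono (Iic_subset_Iic.mpr h)
  by_cases huniv : A = univ
  · -- then `C = 1`
    have h1 : (1 : ℝ≥0∞) ≤ C := by
      have hlim := tendsto_measure_Iic_atTop α
      rw [measure_univ] at hlim
      refine le_of_tendsto' hlim fun x => ?_
      have : x ∈ A := by rw [huniv]; trivial
      exact this
    rw [huniv, measure_univ]
    exact le_antisymm h1 hC
  by_cases hemp : A = ∅
  · have h0 : C ≤ 0 := by
      have hanti : Antitone fun n : ℕ => Iic (-(n : ℝ)) := by
        intro n m hnm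
        apply Iic_subset_Iic.mpr
        have : (n : ℝ) ≤ m := by exact_mod_cast hnm
        linarith
      have hinter : (⋂ n : ℕ, Iic (-(n : ℝ))) = ∅ := by
        ext x
        simp only [mem_iInter, mem_Iic, mem_empty_iff_false, iff_false, not_forall, not_le]
        obtain ⟨n, hn⟩ := exists_nat_gt (-x)
        exact ⟨n, by linarith⟩
      have h1 := hanti.measure_iInter (μ := α) (fun _ => measurableSet_Iic.nullMeasurableSet)
        ⟨0, measure_ne_top _ _⟩
      rw [hinter, measure_empty] at h1
      rw [h1]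
      refine le_iInf fun n => ?_
      have : -(n : ℝ) ∉ A := by rw [hemp]; exact fun h => h
      have h' : ¬ α (Iic (-(n : ℝ))) ≤ C := this
      exact (not_le.mp h').le
    rw [hemp, measure_empty]
    exact (le_antisymm h0 (zero_le)).symm
  obtain ⟨x₁, hx₁⟩ : ∃ x, x ∉ A := by
    by_contra hcon
    push Not at hcon
    exact huniv (eq_univ_of_forall hcon)
  obtain ⟨x₀, hx₀⟩ : A.Nonempty := nonempty_iff_ne_empty.mpr hemp
  have hdown : ∀ x x', x ≤ x' → x' ∈ A → x ∈ A := fun x x' h hx' => (hmono x x' h).trans hx'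
  have hbdd : BddAbove A := ⟨x₁, fun a ha => by
    by_contra hcon
    exact hx₁ (hdown x₁ a (not_le.mp hcon).le ha)⟩
  set z := sSup A with hz
  have hsub1 : A ⊆ Iic z := fun a ha => le_csSup hbdd ha
  have hsub2 : Iio z ⊆ A := by
    intro x hx
    obtain ⟨a, ha, hxa⟩ := exists_lt_of_lt_csSup ⟨x₀, hx₀⟩ hx
    exact hdown x a hxa.le ha
  have heq : α (Iio z) = α (Iic z) := measure_congr Iio_ae_eq_Iic
  have hle1 : α (Iic z) ≤ C := by
    rw [← heq]
    exact measure_Iio_le_of_forall α fun x hx => hsub2 hx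
  have hle2 : C ≤ α (Iic z) := by
    refine le_measure_Iic_of_forall α fun x hx => ?_
    have : x ∉ A := fun hxA => absurd (le_csSup hbdd hxA) (not_le.mpr hx)
    exact (not_le.mp this).le
  have hval : α (Iic z) = C := le_antisymm hle1 hle2
  apply le_antisymm
  · exact (measure_mono hsub1).trans hle1
  · rw [← hval, ← heq]
    exact measure_mono hsub2

/-- The distribution transform. -/
theorem exists_map_eq_volume_unitInterval :
    ∃ U : ℝ → I, Measurable U ∧ α.map U = volume := by
  let F : ℝ → ℝ := fun x => α.real (Iic x)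
  have hF01 : ∀ x, F x ∈ Icc (0 : ℝ) 1 := fun x => ⟨measureReal_nonneg, measureReal_le_one⟩
  have hFmono : Monotone F := fun x x' h => measureReal_mono (Iic_subset_Iic.mpr h)
  let U : ℝ → I := fun x => ⟨F x, hF01 x⟩
  have hU : Measurable U := hFmono.measurable.subtype_mk
  refine ⟨U, hU, Measure.ext_of_Iic _ _ fun c => ?_⟩
  rw [Measure.map_apply hU measurableSet_Iic, unitInterval.volume_Iic]
  have hset : U ⁻¹' Iic c = {x | α (Iic x) ≤ ENNReal.ofReal c} := by
    ext x
    simp only [mem_preimage, mem_Iic, mem_ofPred_eq]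
    rw [ENNReal.le_ofReal_iff_toReal_le (measure_ne_top _ _) c.2.1]
    rfl
  rw [hset]
  apply measure_setOf_measure_Iic_le
  rw [ENNReal.ofReal_le_one]
  exact c.2.2

end Real

variable {d : ℕ}

/-- Noble-type lemma: an atomless finite measure can be pushed to any measure with the same mass. -/
theorem exists_map_eq_of_noAtoms (α β : Measure (EE d)) [IsFiniteMeasure α] [IsFiniteMeasure β]
    [NullSingletonClass α] (h : α Set.univ = β Set.univ) :
    ∃ S : EE d → EE d, Measurable S ∧ α.map S = β := by
  by_cases h0 : α univ = 0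
  · refine ⟨id, measurable_id, ?_⟩
    have h1 : α = 0 := Measure.measure_univ_eq_zero.mp h0
    have h2 : β = 0 := Measure.measure_univ_eq_zero.mp (by rw [← h]; exact h0)
    simp [h1, h2]
  set m := α univ with hm
  have hmtop : m ≠ ∞ := measure_ne_top _ _
  let α₁ : Measure (EE d) := m⁻¹ • α
  let β₁ : Measure (EE d) := m⁻¹ • β
  have hα₁ : IsProbabilityMeasure α₁ := ⟨by
    simp only [α₁, Measure.smul_apply, smul_eq_mul]
    exact ENNReal.inv_mul_cancel h0 hmtop⟩
  have hβ₁ : IsProbabilityMeasure β₁ := ⟨by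
    simp only [β₁, Measure.smul_apply, smul_eq_mul, ← h]
    exact ENNReal.inv_mul_cancel h0 hmtop⟩
  let e := embeddingReal (EE d)
  have he : MeasurableEmbedding e := measurableEmbedding_embeddingReal _
  let α₂ : Measure ℝ := α₁.map e
  have hα₂ : IsProbabilityMeasure α₂ := Measure.isProbabilityMeasure_map he.measurable.aemeasurable
  have hα₂s : NullSingletonClass α₂ := ⟨fun t => by
    simp only [α₂, α₁]
    rw [Measure.map_apply he.measurable (measurableSet_singleton t), Measure.smul_apply, smul_eq_mul]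
    have hsub : (e ⁻¹' {t}).Subsingleton := by
      intro a ha b hb
      exact he.injective (ha.trans hb.symm)
    rw [hsub.measure_zero α, mul_zero]⟩
  obtain ⟨U, hU, hUmap⟩ := exists_map_eq_volume_unitInterval α₂
  obtain ⟨f, hf, hfmap⟩ := Measure.exists_measurable_map_eq β₁
  refine ⟨f ∘ U ∘ e, hf.comp (hU.comp he.measurable), ?_⟩
  have h1 : α₁.map (f ∘ U ∘ e) = β₁ := by
    rw [← hfmap, ← hUmap, Measure.map_map hf hU,
      Measure.map_map (hf.comp hU) he.measurable]
    rfl
  have h2 : α = m • α₁ := by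
    simp only [α₁, smul_smul]
    rw [ENNReal.mul_inv_cancel h0 hmtop, one_smul]
  have h3 : β = m • β₁ := by
    simp only [β₁, smul_smul]
    rw [ENNReal.mul_inv_cancel h0 hmtop, one_smul]
  rw [h2, h3, Measure.map_smul, h1]

/-- finite partition of a compact set into pieces of small radius around points of the set -/
theorem exists_partition {Y : Set (EE d)} (hY : IsCompact Y) {η : ℝ} (hη : 0 < η) :
    ∃ (n : ℕ) (A : Fin n → Set (EE d)) (a : Fin n → EE d),
      (∀ j, MeasurableSet (A j)) ∧ Pairwise (Function.onFun Disjoint A) ∧ Y ⊆ ⋃ j, A j ∧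
      (∀ j, a j ∈ A j ∧ a j ∈ Y) ∧ (∀ j, ∀ y ∈ A j, ‖y - a j‖ ≤ η) := by
  classical
  -- finite cover by balls of radius `η/2`
  obtain ⟨t, -, htfin, hcov⟩ := hY.finite_cover_balls (half_pos hη)
  have : Fintype t := htfin.fintype
  let e₀ : t ≃ Fin (Fintype.card t) := Fintype.equivFin t
  let m := Fintype.card t
  let c : Fin m → EE d := fun k => (e₀.symm k).1
  let B₀ : Fin m → Set (EE d) := fun k => Metric.ball (c k) (η / 2) ∩ Y
  let B : Fin m → Set (EE d) := disjointed B₀
  have hB₀m : ∀ k, MeasurableSet (B₀ k) := fun k =>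
    Metric.isOpen_ball.measurableSet.inter hY.isClosed.measurableSet
  have hBm : ∀ k, MeasurableSet (B k) := fun k =>
    disjointedRec (f := B₀) (p := MeasurableSet) (fun _ _ ht => ht.diff (hB₀m _)) (hB₀m k)
  have hBd : Pairwise (Function.onFun Disjoint B) := disjoint_disjointed B₀
  have hBU : (⋃ k, B k) = ⋃ k, B₀ k := iUnion_disjointed
  have hBs : ∀ k, B k ⊆ B₀ k := disjointed_subset B₀
  let J := {k : Fin m // (B k).Nonempty}
  let e : J ≃ Fin (Fintype.card J) := Fintype.equivFin J
  have hJne : ∀ j : J, ∃ p, p ∈ B j.1 := fun j => j.2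
  choose p hp using hJne
  refine ⟨Fintype.card J, fun j => B (e.symm j).1, fun j => p (e.symm j), fun j => hBm _, ?_, ?_, ?_, ?_⟩
  · intro i j hij
    apply hBd
    intro h
    exact hij (e.symm.injective (Subtype.ext h))
  · intro y hy
    have h1 : y ∈ ⋃ x ∈ t, Metric.ball x (η / 2) := hcov hy
    simp only [mem_iUnion, exists_prop] at h1
    obtain ⟨x, hx, hyx⟩ := h1
    have h2 : y ∈ ⋃ k, B₀ k := by
      refine mem_iUnion.mpr ⟨e₀ ⟨x, hx⟩, ?_, hy⟩
      simpa [c] using hyx
    rw [← hBU] at h2
    obtain ⟨k, hk⟩ := mem_iUnion.mp h2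
    refine mem_iUnion.mpr ⟨e ⟨k, ⟨y, hk⟩⟩, ?_⟩
    simpa using hk
  · intro j
    exact ⟨hp _, (hBs _ (hp (e.symm j))).2⟩
  · intro j y hy
    have h1 := (hBs _ hy).1
    have h2 := (hBs _ (hp (e.symm j))).1
    have h3 : dist y (p (e.symm j)) < η := by
      have := dist_triangle_right y (p (e.symm j)) (c (e.symm j).1)
      have h1' := Metric.mem_ball.mp h1
      have h2' := Metric.mem_ball.mp h2
      linarith
    rw [dist_eq_norm] at h3
    exact h3.le

end Crest.Agent.Lib.OTStab
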