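/-
S0109 (row 82): basic API of the uniform probability measure on a convex body.
-/
import Crest.Agent.Lib.OTStab.Defs

set_option autoImplicit false

open MeasureTheory Set
open scoped ENNReal NNReal RealInnerProductSpace

namespace Crest.Agent.Lib.OTStab

variable {d : ℕ} {K : Set (EE d)}

theorem Body.measurableSet (hK : Body K) : MeasurableSet K := hK.compact.isClosed.measurableSet

theorem Body.volume_ne_top (hK : Body K) : volume K ≠ ∞ := hK.compact.measure_lt_top.ne

theorem Body.volume_pos (hK : Body K) : 0 < volume K :=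
  lt_of_lt_of_le (isOpen_interior.measure_pos volume hK.interior_nonempty)
    (measure_mono interior_subset)

theorem Body.volume_ne_zero (hK : Body K) : volume K ≠ 0 := hK.volume_pos.ne'

theorem rho_apply (hK : Body K) (A : Set (EE d)) (hA : MeasurableSet A) :
    rho K A = (volume K)⁻¹ * volume (A ∩ K) := by
  simp [rho, Crest.AnalysisR.OT.uniformProbOn, Measure.restrict_apply hA]

theorem rho_isProb (hK : Body K) : IsProbabilityMeasure (rho K) := by
  refine ⟨?_⟩
  rw [rho_apply hK _ MeasurableSet.univ, univ_inter]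
  exact ENNReal.inv_mul_cancel hK.volume_ne_zero hK.volume_ne_top

theorem rho_absCont (hK : Body K) : rho K ≪ volume := by
  refine Measure.AbsolutelyContinuous.mk fun A hA h0 => ?_
  rw [rho_apply hK A hA]
  have : volume (A ∩ K) = 0 := measure_mono_null inter_subset_left h0
  simp [this]

theorem ae_mem_rho (hK : Body K) : ∀ᵐ x ∂(rho K), x ∈ K := by
  have h : rho K Kᶜ = 0 := by
    rw [rho_apply hK _ hK.measurableSet.compl]
    simp
  exact measure_eq_zero_iff_ae_notMem.mp h |>.mono fun x hx => by simpa using hx

/-- bounded on `K` and a.e.-measurable implies integrable. -/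
theorem integrable_of_bound_on (hK : Body K) {f : EE d → ℝ} (hm : AEStronglyMeasurable f (rho K))
    (C : ℝ) (hC : ∀ x ∈ K, |f x| ≤ C) : Integrable f (rho K) := by
  haveI := rho_isProb hK
  refine Integrable.of_bound hm C ?_
  filter_upwards [ae_mem_rho hK] with x hx
  simpa using hC x hx

theorem isDens_one (hK : Body K) : IsDens K (fun _ => 1) := by
  haveI := rho_isProb hK
  refine ⟨measurable_const, fun _ => by norm_num, fun _ => by norm_num, ?_⟩
  simp

theorem IsDens.integrable (hK : Body K) {σ : EE d → ℝ} (hσ : IsDens K σ) :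
    Integrable σ (rho K) :=
  integrable_of_bound_on hK hσ.meas.aestronglyMeasurable (3 / 2) fun x _ => by
    rw [abs_of_nonneg (by linarith [hσ.lower x])]; exact hσ.upper x

theorem IsDens.nonneg {σ : EE d → ℝ} (hσ : IsDens K σ) (x : EE d) : 0 ≤ σ x := by
  linarith [hσ.lower x]

theorem IsDens.abs_le {σ : EE d → ℝ} (hσ : IsDens K σ) (x : EE d) : |σ x| ≤ 3 / 2 := by
  rw [abs_of_nonneg (hσ.nonneg x)]; exact hσ.upper x

/-- continuous times density is integrable -/
theorem integrable_continuous_mul (hK : Body K) {f : EE d → ℝ} (hf : Continuous f)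
    {σ : EE d → ℝ} (hσ : Measurable σ) {B : ℝ} (hB : ∀ x, |σ x| ≤ B) :
    Integrable (fun x => f x * σ x) (rho K) := by
  obtain ⟨C, hC⟩ := hK.compact.exists_bound_of_continuousOn hf.continuousOn
  refine integrable_of_bound_on hK
    (hf.aestronglyMeasurable.mul hσ.aestronglyMeasurable) (C * B) fun x hx => ?_
  rw [abs_mul]
  have h1 : |f x| ≤ C := by simpa using hC x hx
  have h2 := hB x
  exact mul_le_mul h1 h2 (abs_nonneg _) ((abs_nonneg _).trans h1)

end Crest.Agent.Lib.OTStab
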