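/-
S0109 (row 82), task T5: difference-quotient estimates for convex functions on `K`.
-/
import Crest.Agent.Lib.OTStab.Basic

set_option autoImplicit false

open MeasureTheory Set
open scoped ENNReal NNReal RealInnerProductSpace

namespace Crest.Agent.Lib.OTStab

variable {d : ℕ}

/-- Subgradient selection of `f` on `K`. -/
def IsSubgradOn (K : Set (EE d)) (f : EE d → ℝ) (T : EE d → EE d) : Prop :=
  ∀ x ∈ K, ∀ x' ∈ K, f x + ⟪x' - x, T x⟫ ≤ f x'

namespace GN

variable {K : Set (EE d)}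

/-- The points `x` such that `x ± τ ∈ K`. -/
def shr (K : Set (EE d)) (τ : EE d) : Set (EE d) := {x | x + τ ∈ K ∧ x - τ ∈ K}

theorem shr_neg (τ : EE d) : shr K (-τ) = shr K τ := by
  ext x
  constructor
  · rintro ⟨h1, h2⟩
    refine ⟨?_, ?_⟩
    · simpa using h2
    · simpa [sub_eq_add_neg] using h1
  · rintro ⟨h1, h2⟩
    refine ⟨?_, ?_⟩
    · simpa [sub_eq_add_neg] using h2
    · simpa using h1

theorem shr_subset (hK : Convex ℝ K) (τ : EE d) : shr K τ ⊆ K := by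
  rintro x ⟨h1, h2⟩
  have := hK h1 h2 (a := 1 / 2) (b := 1 / 2) (by norm_num) (by norm_num) (by norm_num)
  have e : (1 / 2 : ℝ) • (x + τ) + (1 / 2 : ℝ) • (x - τ) = x := by
    rw [smul_add, smul_sub]
    have : (1 / 2 : ℝ) • x + (1 / 2 : ℝ) • x = x := by
      rw [← add_smul]; norm_num
    calc _ = (1 / 2 : ℝ) • x + (1 / 2 : ℝ) • x := by abel
      _ = x := this
  rwa [e] at this

theorem isClosed_shr (hK : IsClosed K) (τ : EE d) : IsClosed (shr K τ) := by
  have h1 : IsClosed ((fun x => x + τ) ⁻¹' K) := hK.preimage (by fun_prop)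
  have h2 : IsClosed ((fun x => x - τ) ⁻¹' K) := hK.preimage (by fun_prop)
  exact h1.inter h2

theorem measurableSet_shr (hK : Body K) (τ : EE d) : MeasurableSet (shr K τ) :=
  (isClosed_shr hK.compact.isClosed τ).measurableSet

/-- the homothety of `K` lands in the shrunken set. -/
theorem homothety_mem {c₀ : EE d} {r : ℝ} (hK : Convex ℝ K)
    (hball : Metric.closedBall c₀ r ⊆ K) {σ : EE d} (hσ0 : 0 < ‖σ‖) (hσ : ‖σ‖ ≤ r)
    {z : EE d} (hz : z ∈ K) : AffineMap.homothety c₀ (1 - ‖σ‖ / r) z + σ ∈ K := by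
  have hr : 0 < r := lt_of_lt_of_le hσ0 hσ
  set t := ‖σ‖ / r with ht
  have ht0 : 0 ≤ t := by positivity
  have ht1 : t ≤ 1 := by rw [ht, div_le_one hr]; exact hσ
  set c₁ := c₀ + (r / ‖σ‖) • σ with hc₁
  have hc₁K : c₁ ∈ K := by
    apply hball
    rw [Metric.mem_closedBall, dist_eq_norm, hc₁, add_sub_cancel_left, norm_smul, Real.norm_eq_abs,
      abs_of_pos (by positivity)]
    field_simp
    exact le_rfl
  have := hK hz hc₁K (a := 1 - t) (b := t) (by linarith) ht0 (by ring)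
  have e : (1 - t) • z + t • c₁ = AffineMap.homothety c₀ (1 - t) z + σ := by
    have h1 : t • ((r / ‖σ‖) • σ) = σ := by
      rw [smul_smul, ht]
      have : ‖σ‖ / r * (r / ‖σ‖) = 1 := by field_simp
      rw [this, one_smul]
    rw [hc₁, smul_add, h1, AffineMap.homothety_apply]
    simp only [vsub_eq_sub, vadd_eq_add, smul_sub, sub_smul, one_smul]
    abel
  rwa [e] at this

theorem volume_shr_ge {c₀ : EE d} {r : ℝ} (hK : Body K)
    (hball : Metric.closedBall c₀ r ⊆ K) {τ : EE d} (hτ0 : 0 < ‖τ‖) (hτ : ‖τ‖ ≤ r) :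
    (volume K).toReal - (volume (shr K τ)).toReal ≤ d * (‖τ‖ / r) * (volume K).toReal := by
  have hr : 0 < r := lt_of_lt_of_le hτ0 hτ
  set t := ‖τ‖ / r with ht
  have ht0 : 0 ≤ t := by positivity
  have ht1 : t ≤ 1 := by rw [ht, div_le_one hr]; exact hτ
  have hsub : AffineMap.homothety c₀ (1 - t) '' K ⊆ shr K τ := by
    rintro _ ⟨z, hz, rfl⟩
    refine ⟨homothety_mem hK.convex hball hτ0 hτ hz, ?_⟩
    have := homothety_mem hK.convex hball (σ := -τ) (by simpa using hτ0) (by simpa using hτ) hz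
    rw [norm_neg] at this
    simpa [sub_eq_add_neg] using this
  have hvol : ENNReal.ofReal |(1 - t) ^ d| * volume K ≤ volume (shr K τ) := by
    have := measure_mono (μ := (volume : Measure (EE d))) hsub
    rw [Measure.addHaar_image_homothety] at this
    simpa using this
  have hS : volume (shr K τ) ≠ ∞ :=
    ne_top_of_le_ne_top hK.volume_ne_top (measure_mono (shr_subset hK.convex τ))
  have hreal : (1 - t) ^ d * (volume K).toReal ≤ (volume (shr K τ)).toReal := by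
    have h1 := ENNReal.toReal_mono hS hvol
    rwa [ENNReal.toReal_mul, ENNReal.toReal_ofReal (abs_nonneg _),
      abs_of_nonneg (pow_nonneg (by linarith) _)] at h1
  have hB : 1 + (d : ℝ) * (-t) ≤ (1 + (-t)) ^ d :=
    one_add_mul_le_pow (by linarith) d
  have hv : 0 ≤ (volume K).toReal := ENNReal.toReal_nonneg
  have hB' : 1 - d * t ≤ (1 - t) ^ d := by
    have e : (1 : ℝ) + -t = 1 - t := by ring
    rw [e] at hB
    linarith
  have := mul_le_mul_of_nonneg_right hB' hv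
  nlinarith

/-- translation: the integral of a nonnegative function over the translate of the shrunken set is
at most that over `K`. -/
theorem setIntegral_translate_le (hK : Body K) (τ : EE d) {G : EE d → ℝ}
    (hG : IntegrableOn G K) (hG0 : ∀ x ∈ K, 0 ≤ G x) :
    ∫ x in shr K τ, G (x + τ) ≤ ∫ x in K, G x := by
  set S : Set (EE d) := (fun y => y + -τ) ⁻¹' shr K τ with hS
  have hSm : MeasurableSet S := (measurable_add_const (-τ)) (measurableSet_shr hK τ)
  have hSK : S ⊆ K := by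
    intro y hy
    have h := hy.1
    simpa using h
  have hpre : (fun x => x + τ) ⁻¹' S = shr K τ := by
    ext x
    simp [hS]
  have key := (measurePreserving_add_right (volume : Measure (EE d)) τ).setIntegral_preimage_emb
    (measurableEmbedding_addRight τ) G S
  rw [hpre] at key
  rw [key]
  refine setIntegral_mono_set hG ?_ (Filter.Eventually.of_forall hSK)
  filter_upwards [ae_restrict_mem hK.measurableSet] with x hx using hG0 x hx

theorem volume_shr_ne_top (hK : Body K) (τ : EE d) : volume (shr K τ) ≠ ∞ :=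
  ne_top_of_le_ne_top hK.volume_ne_top (measure_mono (shr_subset hK.convex τ))

/-- the difference of volumes is the volume of the difference. -/
theorem measureReal_diff_shr (hK : Body K) (τ : EE d) :
    (volume (K \ shr K τ)).toReal = (volume K).toReal - (volume (shr K τ)).toReal := by
  rw [measure_sdiff (shr_subset hK.convex τ) (measurableSet_shr hK τ).nullMeasurableSet
    (volume_shr_ne_top hK τ), ENNReal.toReal_sub_of_le (measure_mono (shr_subset hK.convex τ))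
    hK.volume_ne_top]

theorem volume_diff_nonneg (hK : Body K) (τ : EE d) :
    0 ≤ (volume K).toReal - (volume (shr K τ)).toReal := by
  rw [← measureReal_diff_shr hK τ]; exact ENNReal.toReal_nonneg

/-- a measurable function bounded on a set of finite volume is integrable there. -/
theorem intOn {S : Set (EE d)} (hS : volume S ≠ ∞) (hSm : MeasurableSet S) {F : EE d → ℝ}
    (hF : Measurable F) (C : ℝ) (h : ∀ x ∈ S, |F x| ≤ C) : IntegrableOn F S := by
  refine Measure.integrableOn_of_bounded (M := C) hS hF.aestronglyMeasurable ?_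
  filter_upwards [ae_restrict_mem hSm] with x hx using h x hx

theorem measurable_inner_left (τ : EE d) {T : EE d → EE d} (hT : Measurable T) :
    Measurable fun x => ⟪τ, T x⟫ :=
  hT.const_inner

/-- the integral of the monotonicity defect. -/
theorem integral_R_le (hK : Body K) {T : EE d → EE d} (hT : Measurable T) {L : ℝ} (hL : 0 ≤ L)
    (hTL : ∀ x ∈ K, ‖T x‖ ≤ L) (τ : EE d) :
    ∫ x in shr K τ, ⟪τ, T (x + τ) - T x⟫ ≤
      2 * (‖τ‖ * L) * ((volume K).toReal - (volume (shr K τ)).toReal) := by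
  set c := ‖τ‖ * L with hc
  set F : EE d → ℝ := fun x => ⟪τ, T x⟫ + c with hF
  have hc0 : 0 ≤ c := by positivity
  have hFm : Measurable F := (measurable_inner_left τ hT).add_const c
  have habs : ∀ x ∈ K, |⟪τ, T x⟫| ≤ c := fun x hx => by
    refine (abs_real_inner_le_norm _ _).trans ?_
    exact mul_le_mul_of_nonneg_left (hTL x hx) (norm_nonneg _)
  have hF0 : ∀ x ∈ K, 0 ≤ F x := fun x hx => by
    have := abs_le.mp (habs x hx)
    simp only [hF]; linarith [this.1]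
  have hF2 : ∀ x ∈ K, F x ≤ 2 * c := fun x hx => by
    have := abs_le.mp (habs x hx)
    simp only [hF]; linarith [this.2]
  have hFabs : ∀ x ∈ K, |F x| ≤ 2 * c := fun x hx => by
    rw [abs_of_nonneg (hF0 x hx)]; exact hF2 x hx
  have hFi : IntegrableOn F K := intOn hK.volume_ne_top hK.measurableSet hFm _ hFabs
  have hSK := shr_subset hK.convex τ
  have hSm := measurableSet_shr hK τ
  have hSv := volume_shr_ne_top hK τ
  have hFi' : IntegrableOn F (shr K τ) := hFi.mono_set hSK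
  have hFτm : Measurable fun x => F (x + τ) := hFm.comp (measurable_add_const τ)
  have hFτi : IntegrableOn (fun x => F (x + τ)) (shr K τ) :=
    intOn hSv hSm hFτm (2 * c) fun x hx => hFabs _ hx.1
  have h1 : ∫ x in shr K τ, ⟪τ, T (x + τ) - T x⟫ =
      (∫ x in shr K τ, F (x + τ)) - ∫ x in shr K τ, F x := by
    rw [← integral_sub hFτi hFi']
    refine setIntegral_congr_fun hSm fun x _ => ?_
    simp only [hF, inner_sub_right]
    ring
  have h2 := setIntegral_translate_le hK τ hFi hF0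
  have h3 : (∫ x in K, F x) - ∫ x in shr K τ, F x = ∫ x in K \ shr K τ, F x :=
    (setIntegral_sdiff hSm hFi hSK).symm
  have h4 : ∫ x in K \ shr K τ, F x ≤ 2 * c * (volume (K \ shr K τ)).toReal := by
    have hdf : volume (K \ shr K τ) < ∞ :=
      lt_of_le_of_lt (measure_mono sdiff_subset) hK.volume_ne_top.lt_top
    have := norm_setIntegral_le_of_norm_le_const (μ := (volume : Measure (EE d))) (f := F)
      (C := 2 * c) hdf fun x hx => by
        simpa using hFabs x hx.1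
    exact (le_abs_self _).trans this
  rw [h1]
  rw [measureReal_diff_shr hK τ] at h4
  linarith

/-- monotonicity of a subgradient selection. -/
theorem R_nonneg {f : EE d → ℝ} {T : EE d → EE d} (hf : IsSubgradOn K f T) {τ x : EE d}
    (hx : x ∈ K) (hxτ : x + τ ∈ K) : 0 ≤ ⟪τ, T (x + τ) - T x⟫ := by
  have h1 := hf x hx _ hxτ
  have h2 := hf _ hxτ x hx
  rw [add_sub_cancel_left] at h1
  have e : x - (x + τ) = -τ := by abel
  rw [e, inner_neg_left] at h2
  rw [inner_sub_right]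
  linarith

/-- the one-sided pointwise inequality for the difference of two subgradient selections. -/
theorem step_gn {f g : EE d → ℝ} {Tf Tg : EE d → EE d} (hf : IsSubgradOn K f Tf)
    (hg : IsSubgradOn K g Tg) {τ x : EE d} (hx : x ∈ K) (hxτ : x + τ ∈ K) :
    ⟪τ, Tg x - Tf x⟫ ≤ (g (x + τ) - f (x + τ)) - (g x - f x) + ⟪τ, Tf (x + τ) - Tf x⟫ := by
  have h1 := hg x hx _ hxτ
  have h2 := hf _ hxτ x hx
  rw [add_sub_cancel_left] at h1
  have e : x - (x + τ) = -τ := by abel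
  rw [e, inner_neg_left] at h2
  rw [inner_sub_right, inner_sub_right]
  linarith

/-- the one-sided pointwise inequality for an almost subgradient. -/
theorem step_gap {f : EE d → ℝ} {Tf a : EE d → EE d} {e : EE d → ℝ} (hf : IsSubgradOn K f Tf)
    (ha : ∀ x ∈ K, ∀ x' ∈ K, f x + ⟪x' - x, a x⟫ - e x ≤ f x') {τ x : EE d} (hx : x ∈ K)
    (hxτ : x + τ ∈ K) :
    ⟪τ, a x - Tf x⟫ ≤ e x + ⟪τ, Tf (x + τ) - Tf x⟫ := by
  have h1 := ha x hx _ hxτ
  have h2 := hf _ hxτ x hx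
  rw [add_sub_cancel_left] at h1
  have e' : x - (x + τ) = -τ := by abel
  rw [e', inner_neg_left] at h2
  rw [inner_sub_right, inner_sub_right]
  linarith

theorem sq_le_of_abs_le {a M : ℝ} (h : |a| ≤ M) : a ^ 2 ≤ M ^ 2 := by
  have := abs_nonneg a
  nlinarith [sq_abs a]

/-- splitting the integral of a square at the shrunken set. -/
theorem integral_sq_split (hK : Body K) {τ : EE d} {a : EE d → ℝ} (ha : Measurable a) {M : ℝ}
    (haM : ∀ x ∈ K, |a x| ≤ M) {B : ℝ} (h : ∫ x in shr K τ, a x ^ 2 ≤ B) :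
    ∫ x in K, a x ^ 2 ≤ B + M ^ 2 * ((volume K).toReal - (volume (shr K τ)).toReal) := by
  have hSK := shr_subset hK.convex τ
  have hSm := measurableSet_shr hK τ
  have hai : IntegrableOn (fun x => a x ^ 2) K :=
    intOn hK.volume_ne_top hK.measurableSet (ha.pow_const 2) (M ^ 2) fun x hx => by
      rw [abs_of_nonneg (sq_nonneg _)]
      exact sq_le_of_abs_le (haM x hx)
  have h3 := setIntegral_sdiff hSm hai hSK
  have h4 : ∫ x in K \ shr K τ, a x ^ 2 ≤ M ^ 2 * (volume (K \ shr K τ)).toReal := by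
    have hdf : volume (K \ shr K τ) < ∞ :=
      lt_of_le_of_lt (measure_mono sdiff_subset) hK.volume_ne_top.lt_top
    have := norm_setIntegral_le_of_norm_le_const (μ := (volume : Measure (EE d)))
      (f := fun x => a x ^ 2) (C := M ^ 2) hdf fun x hx => by
        rw [Real.norm_eq_abs, abs_of_nonneg (sq_nonneg _)]
        exact sq_le_of_abs_le (haM x hx.1)
    exact (le_abs_self _).trans this
  rw [measureReal_diff_shr hK τ] at h4
  linarith

theorem real_bound_gn {a Q R δ M : ℝ} (hδ : 0 < δ) (hM : |a| ≤ M) (h : δ * |a| ≤ Q + R) (hR : 0 ≤ R)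
 : a ^ 2 ≤ Q ^ 2 / δ ^ 2 + 2 * M / δ * R := by
  have ha0 := abs_nonneg a
  have e : a ^ 2 = |a| ^ 2 := (sq_abs a).symm
  have h1 : δ * |a| ^ 2 ≤ Q * |a| + R * M := by
    have h2 : δ * |a| * |a| ≤ (Q + R) * |a| := mul_le_mul_of_nonneg_right h ha0
    have h3 : R * |a| ≤ R * M := mul_le_mul_of_nonneg_left hM hR
    nlinarith
  have h2 : Q * |a| ≤ δ * |a| ^ 2 / 2 + Q ^ 2 / (2 * δ) := by
    have : 0 ≤ (δ * |a| - Q) ^ 2 / (2 * δ) := by positivity
    have e2 : (δ * |a| - Q) ^ 2 / (2 * δ) = δ * |a| ^ 2 / 2 + Q ^ 2 / (2 * δ) - Q * |a| := by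
      field_simp
      ring
    linarith
  have h3 : δ * |a| ^ 2 ≤ Q ^ 2 / δ + 2 * R * M := by
    have e3 : Q ^ 2 / (2 * δ) = Q ^ 2 / δ / 2 := by field_simp
    rw [e3] at h2
    linarith
  rw [e]
  have e4 : Q ^ 2 / δ ^ 2 + 2 * M / δ * R = (Q ^ 2 / δ + 2 * R * M) / δ := by
    field_simp
  rw [e4, le_div_iff₀ hδ]
  linarith

theorem real_bound_gap {a Q δ M : ℝ} (hδ : 0 < δ) (hM : |a| ≤ M) (h : δ * |a| ≤ Q) :
    a ^ 2 ≤ M / δ * Q := by
  have ha0 := abs_nonneg a
  have e : a ^ 2 = |a| ^ 2 := (sq_abs a).symm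
  have h1 : δ * |a| ^ 2 ≤ M * Q := by
    have hM0 : 0 ≤ M := ha0.trans hM
    have h2 : |a| * (δ * |a|) ≤ M * Q := mul_le_mul hM h (by positivity) hM0
    nlinarith
  rw [e]
  have e4 : M / δ * Q = (M * Q) / δ := by ring
  rw [e4, le_div_iff₀ hδ]
  linarith

/-- the two-sided defect: integrability and bound. -/
theorem R_integrableOn (hK : Body K) {T : EE d → EE d} (hT : Measurable T) {L : ℝ}
    (hTL : ∀ x ∈ K, ‖T x‖ ≤ L) (τ : EE d) :
    IntegrableOn (fun x => ⟪τ, T (x + τ) - T x⟫) (shr K τ) := by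
  have hm : Measurable fun x => ⟪τ, T (x + τ) - T x⟫ :=
    ((hT.comp (measurable_add_const τ)).sub hT).const_inner
  refine intOn (volume_shr_ne_top hK τ) (measurableSet_shr hK τ) hm (‖τ‖ * (2 * L)) fun x hx => ?_
  have hxK := shr_subset hK.convex τ hx
  refine (abs_real_inner_le_norm _ _).trans (mul_le_mul_of_nonneg_left ?_ (norm_nonneg _))
  calc ‖T (x + τ) - T x‖ ≤ ‖T (x + τ)‖ + ‖T x‖ := norm_sub_le _ _
    _ ≤ L + L := add_le_add (hTL _ hx.1) (hTL _ hxK)
    _ = 2 * L := by ring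

theorem Rm_integrableOn (hK : Body K) {T : EE d → EE d} (hT : Measurable T) {L : ℝ}
    (hTL : ∀ x ∈ K, ‖T x‖ ≤ L) (τ : EE d) :
    IntegrableOn (fun x => ⟪-τ, T (x + -τ) - T x⟫) (shr K τ) := by
  have := R_integrableOn hK hT hTL (-τ)
  rwa [shr_neg] at this

theorem integral_Rm_le (hK : Body K) {T : EE d → EE d} (hT : Measurable T) {L : ℝ} (hL : 0 ≤ L)
    (hTL : ∀ x ∈ K, ‖T x‖ ≤ L) (τ : EE d) :
    ∫ x in shr K τ, ⟪-τ, T (x + -τ) - T x⟫ ≤
      2 * (‖τ‖ * L) * ((volume K).toReal - (volume (shr K τ)).toReal) := by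
  have := integral_R_le hK hT hL hTL (-τ)
  rwa [shr_neg, norm_neg] at this

theorem norm_single (k : Fin d) {δ : ℝ} (hδ : 0 < δ) :
    ‖(EuclideanSpace.single k δ : EE d)‖ = δ := by
  simp [abs_of_pos hδ]

theorem inner_single (k : Fin d) (δ : ℝ) (A : EE d) :
    ⟪(EuclideanSpace.single k δ : EE d), A⟫ = δ * A k := by
  rw [EuclideanSpace.inner_single_left]
  simp

theorem measurable_coord (k : Fin d) {F : EE d → EE d} (hF : Measurable F) :
    Measurable fun x => F x k :=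
  ((EuclideanSpace.proj k : EE d →L[ℝ] ℝ).continuous.measurable).comp hF

theorem abs_coord_le (k : Fin d) (A : EE d) : |A k| ≤ ‖A‖ := by
  have := PiLp.norm_apply_le A k
  simpa [Real.norm_eq_abs] using this

theorem lin3 {S : Set (EE d)} {f₁ f₂ f₃ : EE d → ℝ} (h₁ : IntegrableOn f₁ S) (h₂ : IntegrableOn f₂ S)
    (h₃ : IntegrableOn f₃ S) (c₁ c₂ c₃ : ℝ) :
    IntegrableOn (fun x => c₁ * f₁ x + c₂ * f₂ x + c₃ * f₃ x) S ∧
    ∫ x in S, (c₁ * f₁ x + c₂ * f₂ x + c₃ * f₃ x) =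
      c₁ * (∫ x in S, f₁ x) + c₂ * (∫ x in S, f₂ x) + c₃ * (∫ x in S, f₃ x) := by
  have a₁ : IntegrableOn (fun x => c₁ * f₁ x) S := h₁.const_mul c₁
  have a₂ : IntegrableOn (fun x => c₂ * f₂ x) S := h₂.const_mul c₂
  have a₃ : IntegrableOn (fun x => c₃ * f₃ x) S := h₃.const_mul c₃
  have b₂ : IntegrableOn (fun x => c₁ * f₁ x + c₂ * f₂ x) S := a₁.add a₂
  refine ⟨b₂.add a₃, ?_⟩
  rw [integral_add b₂ a₃, integral_add a₁ a₂, integral_const_mul, integral_const_mul,
    integral_const_mul]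

theorem lin5 {S : Set (EE d)} {f₁ f₂ f₃ f₄ f₅ : EE d → ℝ} (h₁ : IntegrableOn f₁ S)
    (h₂ : IntegrableOn f₂ S) (h₃ : IntegrableOn f₃ S) (h₄ : IntegrableOn f₄ S)
    (h₅ : IntegrableOn f₅ S) (c₁ c₂ c₃ c₄ c₅ : ℝ) :
    IntegrableOn (fun x => c₁ * f₁ x + c₂ * f₂ x + c₃ * f₃ x + c₄ * f₄ x + c₅ * f₅ x) S ∧
    ∫ x in S, (c₁ * f₁ x + c₂ * f₂ x + c₃ * f₃ x + c₄ * f₄ x + c₅ * f₅ x) =
      c₁ * (∫ x in S, f₁ x) + c₂ * (∫ x in S, f₂ x) + c₃ * (∫ x in S, f₃ x) +
        c₄ * (∫ x in S, f₄ x) + c₅ * (∫ x in S, f₅ x) := by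
  have a₁ : IntegrableOn (fun x => c₁ * f₁ x) S := h₁.const_mul c₁
  have a₂ : IntegrableOn (fun x => c₂ * f₂ x) S := h₂.const_mul c₂
  have a₃ : IntegrableOn (fun x => c₃ * f₃ x) S := h₃.const_mul c₃
  have a₄ : IntegrableOn (fun x => c₄ * f₄ x) S := h₄.const_mul c₄
  have a₅ : IntegrableOn (fun x => c₅ * f₅ x) S := h₅.const_mul c₅
  have b₂ : IntegrableOn (fun x => c₁ * f₁ x + c₂ * f₂ x) S := a₁.add a₂
  have b₃ : IntegrableOn (fun x => c₁ * f₁ x + c₂ * f₂ x + c₃ * f₃ x) S := b₂.add a₃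
  have b₄ : IntegrableOn (fun x => c₁ * f₁ x + c₂ * f₂ x + c₃ * f₃ x + c₄ * f₄ x) S := b₃.add a₄
  refine ⟨b₄.add a₅, ?_⟩
  rw [integral_add b₄ a₅, integral_add b₃ a₄, integral_add b₂ a₃, integral_add a₁ a₂,
    integral_const_mul, integral_const_mul, integral_const_mul, integral_const_mul,
    integral_const_mul]

theorem aux_e7 {L δ W : ℝ} (hδ : 0 < δ) : 4 * L / δ * (2 * (δ * L) * W) = 8 * L ^ 2 * W := by
  field_simp
  ring

theorem aux_e7' {L δ W : ℝ} (hδ : 0 < δ) : 2 * L / δ * (2 * (δ * L) * W) = 4 * L ^ 2 * W := by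
  field_simp
  ring

/-- the pointwise inequality for two subgradient selections. -/
theorem pointwise_gn {f g : EE d → ℝ} {Tf Tg : EE d → EE d} (hf : IsSubgradOn K f Tf)
    (hg : IsSubgradOn K g Tg) {δ L m : ℝ} (hδ : 0 < δ) {τ : EE d} {a : ℝ} {x : EE d}
    (hτa : ⟪τ, Tg x - Tf x⟫ = δ * a) (haM : |a| ≤ 2 * L) (hxK : x ∈ K) (hx1 : x + τ ∈ K)
    (hx2 : x + -τ ∈ K) :
    a ^ 2 ≤ 4 / δ ^ 2 * (g (x + τ) - f (x + τ) - m) ^ 2 +
        4 / δ ^ 2 * (g (x + -τ) - f (x + -τ) - m) ^ 2 + 8 / δ ^ 2 * (g x - f x - m) ^ 2 +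
        4 * L / δ * ⟪τ, Tf (x + τ) - Tf x⟫ + 4 * L / δ * ⟪-τ, Tf (x + -τ) - Tf x⟫ := by
  have s1 := step_gn hf hg hxK hx1
  have s2 := step_gn hf hg hxK hx2
  have R1 := R_nonneg hf hxK hx1
  have R2 := R_nonneg hf hxK hx2
  have e2 : ⟪-τ, Tg x - Tf x⟫ = -(δ * a) := by rw [inner_neg_left, hτa]
  rw [hτa] at s1
  rw [e2] at s2
  generalize ⟪τ, Tf (x + τ) - Tf x⟫ = R₁ at *
  generalize ⟪-τ, Tf (x + -τ) - Tf x⟫ = R₂ at *
  obtain ⟨A, hA⟩ : ∃ A, A = g (x + τ) - f (x + τ) - m := ⟨_, rfl⟩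
  obtain ⟨B, hB⟩ : ∃ B, B = g (x + -τ) - f (x + -τ) - m := ⟨_, rfl⟩
  obtain ⟨C, hC⟩ : ∃ C, C = g x - f x - m := ⟨_, rfl⟩
  have eA : g (x + τ) - f (x + τ) = A + m := by rw [hA]; ring
  have eB : g (x + -τ) - f (x + -τ) = B + m := by rw [hB]; ring
  have eC : g x - f x = C + m := by rw [hC]; ring
  rw [← hA, ← hB, ← hC]
  rw [eA, eC] at s1
  rw [eB, eC] at s2
  have hbound : δ * |a| ≤ (|A| + |B| + 2 * |C|) + (R₁ + R₂) := by
    have hAa := le_abs_self A
    have hBa := le_abs_self B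
    have hCa := neg_abs_le C
    have hAa0 := abs_nonneg A
    have hBa0 := abs_nonneg B
    have hCa0 := abs_nonneg C
    rcases abs_cases a with ⟨h, _⟩ | ⟨h, _⟩ <;> rw [h] <;> linarith
  have h1 := real_bound_gn hδ haM hbound (add_nonneg R1 R2)
  have h2 : (|A| + |B| + 2 * |C|) ^ 2 ≤ 4 * (A ^ 2 + B ^ 2 + 2 * C ^ 2) := by
    have := sq_abs A; have := sq_abs B; have := sq_abs C
    nlinarith [sq_nonneg (|A| - |B|), sq_nonneg (|A| - |C|), sq_nonneg (|B| - |C|)]
  have h3 : (|A| + |B| + 2 * |C|) ^ 2 / δ ^ 2 ≤ 4 * (A ^ 2 + B ^ 2 + 2 * C ^ 2) / δ ^ 2 :=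
    div_le_div_of_nonneg_right h2 (by positivity)
  have e3 : 4 / δ ^ 2 * A ^ 2 + 4 / δ ^ 2 * B ^ 2 + 8 / δ ^ 2 * C ^ 2 +
      4 * L / δ * R₁ + 4 * L / δ * R₂ =
      4 * (A ^ 2 + B ^ 2 + 2 * C ^ 2) / δ ^ 2 + 2 * (2 * L) / δ * (R₁ + R₂) := by
    ring
  rw [e3]
  linarith

/-- the pointwise inequality for an almost subgradient. -/
theorem pointwise_gap {f : EE d → ℝ} {Tf A : EE d → EE d} {e : EE d → ℝ} (hf : IsSubgradOn K f Tf)
    (hgap : ∀ x ∈ K, ∀ x' ∈ K, f x + ⟪x' - x, A x⟫ - e x ≤ f x') {δ L : ℝ} (hδ : 0 < δ) {τ : EE d}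
    {b : ℝ} {x : EE d} (hτb : ⟪τ, A x - Tf x⟫ = δ * b) (hbM : |b| ≤ 2 * L) (hxK : x ∈ K)
    (hx1 : x + τ ∈ K) (hx2 : x + -τ ∈ K) :
    b ^ 2 ≤ 2 * L / δ * e x + 2 * L / δ * ⟪τ, Tf (x + τ) - Tf x⟫ +
        2 * L / δ * ⟪-τ, Tf (x + -τ) - Tf x⟫ := by
  have s1 := step_gap hf hgap hxK hx1
  have s2 := step_gap hf hgap hxK hx2
  have R1 := R_nonneg hf hxK hx1
  have R2 := R_nonneg hf hxK hx2
  have e2 : ⟪-τ, A x - Tf x⟫ = -(δ * b) := by rw [inner_neg_left, hτb]
  rw [hτb] at s1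
  rw [e2] at s2
  generalize ⟪τ, Tf (x + τ) - Tf x⟫ = R₁ at *
  generalize ⟪-τ, Tf (x + -τ) - Tf x⟫ = R₂ at *
  have hbound : δ * |b| ≤ e x + R₁ + R₂ := by
    rcases abs_cases b with ⟨h, _⟩ | ⟨h, _⟩ <;> rw [h] <;> linarith
  have h1 := real_bound_gap hδ hbM hbound
  have e3 : 2 * L / δ * e x + 2 * L / δ * R₁ + 2 * L / δ * R₂ =
      2 * L / δ * (e x + R₁ + R₂) := by ring
  rw [e3]
  exact h1

/-- the estimate for one coordinate, for two subgradient selections. -/
theorem coord_gn (hK : Body K) {c₀ : EE d} {r : ℝ} (hball : Metric.closedBall c₀ r ⊆ K) {L : ℝ}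
    (hL : 0 ≤ L) {f g : EE d → ℝ} {Tf Tg : EE d → EE d} (hfc : Continuous f) (hgc : Continuous g)
    (hTf : Measurable Tf) (hTg : Measurable Tg) (hf : IsSubgradOn K f Tf) (hg : IsSubgradOn K g Tg)
    (hTfL : ∀ x ∈ K, ‖Tf x‖ ≤ L) (hTgL : ∀ x ∈ K, ‖Tg x‖ ≤ L) (k : Fin d) {δ : ℝ} (hδ : 0 < δ)
    (hδr : δ ≤ r) (m : ℝ) :
    ∫ x in K, (Tg x - Tf x) k ^ 2 ≤
      16 * (∫ x in K, (g x - f x - m) ^ 2) / δ ^ 2 +
        20 * L ^ 2 * (d * (δ / r) * (volume K).toReal) := by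
  obtain ⟨τ, hτdef⟩ : ∃ τ : EE d, τ = EuclideanSpace.single k δ := ⟨_, rfl⟩
  have hτn : ‖τ‖ = δ := by rw [hτdef]; exact norm_single k hδ
  have hτi : ∀ A : EE d, ⟪τ, A⟫ = δ * A k := fun A => by rw [hτdef]; exact inner_single k δ A
  clear hτdef
  have hSK : shr K τ ⊆ K := shr_subset hK.convex τ
  have hSm : MeasurableSet (shr K τ) := measurableSet_shr hK τ
  have hSv : volume (shr K τ) ≠ ∞ := volume_shr_ne_top hK τ
  have ham : Measurable fun x => (Tg x - Tf x) k := measurable_coord k (hTg.sub hTf)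
  have haM : ∀ x ∈ K, |(Tg x - Tf x) k| ≤ 2 * L := fun x hx => by
    refine (abs_coord_le k _).trans ?_
    calc ‖Tg x - Tf x‖ ≤ ‖Tg x‖ + ‖Tf x‖ := norm_sub_le _ _
      _ ≤ L + L := add_le_add (hTgL x hx) (hTfL x hx)
      _ = 2 * L := by ring
  obtain ⟨G, hGdef⟩ : ∃ G : EE d → ℝ, G = fun x => (g x - f x - m) ^ 2 := ⟨_, rfl⟩
  have hGc : Continuous G := by rw [hGdef]; exact ((hgc.sub hfc).sub continuous_const).pow 2
  have hG0 : ∀ x ∈ K, 0 ≤ G x := fun x _ => by rw [hGdef]; exact sq_nonneg _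
  have hGi : IntegrableOn G K := hGc.continuousOn.integrableOn_compact hK.compact
  have hGS : ∫ x in shr K τ, G x ≤ ∫ x in K, G x :=
    setIntegral_mono_set hGi (by
      filter_upwards [ae_restrict_mem hK.measurableSet] with x hx using hG0 x hx)
      (Filter.Eventually.of_forall hSK)
  have hG1 : ∫ x in shr K τ, G (x + τ) ≤ ∫ x in K, G x := setIntegral_translate_le hK τ hGi hG0
  have hG2 : ∫ x in shr K τ, G (x + -τ) ≤ ∫ x in K, G x := by
    have := setIntegral_translate_le hK (-τ) hGi hG0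
    rwa [shr_neg] at this
  have hGb : ∀ x ∈ K, |G x| ≤ (sSup (G '' K)) := fun x hx => by
    rw [abs_of_nonneg (hG0 x hx)]
    exact le_csSup (hK.compact.image_of_continuousOn hGc.continuousOn).bddAbove ⟨x, hx, rfl⟩
  have hGSi : IntegrableOn G (shr K τ) := hGi.mono_set hSK
  have hG1i : IntegrableOn (fun x => G (x + τ)) (shr K τ) :=
    intOn hSv hSm (hGc.measurable.comp (measurable_add_const τ)) _ fun x hx => hGb _ hx.1
  have hG2i : IntegrableOn (fun x => G (x + -τ)) (shr K τ) :=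
    intOn hSv hSm (hGc.measurable.comp (measurable_add_const (-τ))) _ fun x hx => hGb _ (by
      rw [← sub_eq_add_neg]; exact hx.2)
  have hR1i := R_integrableOn hK hTf hTfL τ
  have hR2i := Rm_integrableOn hK hTf hTfL τ
  have hR1 := integral_R_le hK hTf hL hTfL τ
  have hR2 := integral_Rm_le hK hTf hL hTfL τ
  rw [hτn] at hR1 hR2
  have hvb := volume_shr_ge hK hball (τ := τ) (by rw [hτn]; exact hδ) (by rw [hτn]; exact hδr)
  rw [hτn] at hvb
  -- the pointwise bound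
  have hpt : ∀ x ∈ shr K τ, (Tg x - Tf x) k ^ 2 ≤
      4 / δ ^ 2 * G (x + τ) + 4 / δ ^ 2 * G (x + -τ) + 8 / δ ^ 2 * G x +
        4 * L / δ * ⟪τ, Tf (x + τ) - Tf x⟫ + 4 * L / δ * ⟪-τ, Tf (x + -τ) - Tf x⟫ := by
    intro x hx
    have hxK : x ∈ K := hSK hx
    have hx2 : x + -τ ∈ K := by rw [← sub_eq_add_neg]; exact hx.2
    rw [hGdef]
    exact pointwise_gn hf hg hδ (hτi _) (haM x hxK) hxK hx.1 hx2
  have hint : ∫ x in shr K τ, (Tg x - Tf x) k ^ 2 ≤ 16 * (∫ x in K, G x) / δ ^ 2 +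
      16 * L ^ 2 * ((volume K).toReal - (volume (shr K τ)).toReal) := by
    obtain ⟨hci, e⟩ := lin5 hG1i hG2i hGSi hR1i hR2i (4 / δ ^ 2) (4 / δ ^ 2) (8 / δ ^ 2)
      (4 * L / δ) (4 * L / δ)
    have hmono := setIntegral_mono_on
      (intOn hSv hSm (ham.pow_const 2) ((2 * L) ^ 2) fun x hx => by
        rw [abs_of_nonneg (sq_nonneg _)]
        exact sq_le_of_abs_le (haM x (hSK hx)))
      hci hSm hpt
    rw [e] at hmono
    refine hmono.trans ?_
    have hδ2 : 0 < 4 / δ ^ 2 := by positivity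
    have hδ8 : 0 < 8 / δ ^ 2 := by positivity
    have hLδ : 0 ≤ 4 * L / δ := by positivity
    have t1 := mul_le_mul_of_nonneg_left hG1 hδ2.le
    have t2 := mul_le_mul_of_nonneg_left hG2 hδ2.le
    have t3 := mul_le_mul_of_nonneg_left hGS hδ8.le
    have t4 := mul_le_mul_of_nonneg_left hR1 hLδ
    have t5 := mul_le_mul_of_nonneg_left hR2 hLδ
    have e6 : 16 * (∫ x in K, G x) / δ ^ 2 = 4 / δ ^ 2 * (∫ x in K, G x) +
        4 / δ ^ 2 * (∫ x in K, G x) + 8 / δ ^ 2 * (∫ x in K, G x) := by ring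
    rw [aux_e7 hδ] at t4 t5
    rw [e6]
    linarith
  have hsplit := integral_sq_split hK (τ := τ) ham haM hint
  rw [hGdef] at hsplit
  refine hsplit.trans ?_
  have h9 : 16 * L ^ 2 * ((volume K).toReal - (volume (shr K τ)).toReal) +
      (2 * L) ^ 2 * ((volume K).toReal - (volume (shr K τ)).toReal) =
      20 * L ^ 2 * ((volume K).toReal - (volume (shr K τ)).toReal) := by ring
  have h10 := mul_le_mul_of_nonneg_left hvb (by positivity : 0 ≤ 20 * L ^ 2)
  linarith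

/-- the estimate for one coordinate, for an almost subgradient. -/
theorem coord_gap (hK : Body K) {c₀ : EE d} {r : ℝ} (hball : Metric.closedBall c₀ r ⊆ K) {L : ℝ}
    (hL : 0 ≤ L) {f : EE d → ℝ} {Tf a : EE d → EE d} {e : EE d → ℝ}
    (hTf : Measurable Tf) (ham : Measurable a) (hem : Measurable e)
    (hf : IsSubgradOn K f Tf) (hTfL : ∀ x ∈ K, ‖Tf x‖ ≤ L) (haL : ∀ x ∈ K, ‖a x‖ ≤ L)
    (he0 : ∀ x ∈ K, 0 ≤ e x) {E : ℝ} (heE : ∀ x ∈ K, e x ≤ E)
    (hgap : ∀ x ∈ K, ∀ x' ∈ K, f x + ⟪x' - x, a x⟫ - e x ≤ f x') (k : Fin d) {δ : ℝ} (hδ : 0 < δ)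
    (hδr : δ ≤ r) :
    ∫ x in K, (a x - Tf x) k ^ 2 ≤
      2 * L / δ * (∫ x in K, e x) + 12 * L ^ 2 * (d * (δ / r) * (volume K).toReal) := by
  obtain ⟨τ, hτdef⟩ : ∃ τ : EE d, τ = EuclideanSpace.single k δ := ⟨_, rfl⟩
  have hτn : ‖τ‖ = δ := by rw [hτdef]; exact norm_single k hδ
  have hτi : ∀ A : EE d, ⟪τ, A⟫ = δ * A k := fun A => by rw [hτdef]; exact inner_single k δ A
  clear hτdef
  have hSK : shr K τ ⊆ K := shr_subset hK.convex τ
  have hSm : MeasurableSet (shr K τ) := measurableSet_shr hK τ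
  have hSv : volume (shr K τ) ≠ ∞ := volume_shr_ne_top hK τ
  have hbm : Measurable fun x => (a x - Tf x) k := measurable_coord k (ham.sub hTf)
  have hbM : ∀ x ∈ K, |(a x - Tf x) k| ≤ 2 * L := fun x hx => by
    refine (abs_coord_le k _).trans ?_
    calc ‖a x - Tf x‖ ≤ ‖a x‖ + ‖Tf x‖ := norm_sub_le _ _
      _ ≤ L + L := add_le_add (haL x hx) (hTfL x hx)
      _ = 2 * L := by ring
  have hei : IntegrableOn e K := intOn hK.volume_ne_top hK.measurableSet hem E fun x hx => by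
    rw [abs_of_nonneg (he0 x hx)]; exact heE x hx
  have heS : ∫ x in shr K τ, e x ≤ ∫ x in K, e x :=
    setIntegral_mono_set hei (by
      filter_upwards [ae_restrict_mem hK.measurableSet] with x hx using he0 x hx)
      (Filter.Eventually.of_forall hSK)
  have heSi : IntegrableOn e (shr K τ) := hei.mono_set hSK
  have hR1i := R_integrableOn hK hTf hTfL τ
  have hR2i := Rm_integrableOn hK hTf hTfL τ
  have hR1 := integral_R_le hK hTf hL hTfL τ
  have hR2 := integral_Rm_le hK hTf hL hTfL τ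
  rw [hτn] at hR1 hR2
  have hvb := volume_shr_ge hK hball (τ := τ) (by rw [hτn]; exact hδ) (by rw [hτn]; exact hδr)
  rw [hτn] at hvb
  have hpt : ∀ x ∈ shr K τ, (a x - Tf x) k ^ 2 ≤
      2 * L / δ * e x + 2 * L / δ * ⟪τ, Tf (x + τ) - Tf x⟫ +
        2 * L / δ * ⟪-τ, Tf (x + -τ) - Tf x⟫ := by
    intro x hx
    have hxK : x ∈ K := hSK hx
    have hx2 : x + -τ ∈ K := by rw [← sub_eq_add_neg]; exact hx.2
    exact pointwise_gap hf hgap hδ (hτi _) (hbM x hxK) hxK hx.1 hx2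
  have hint : ∫ x in shr K τ, (a x - Tf x) k ^ 2 ≤ 2 * L / δ * (∫ x in K, e x) +
      8 * L ^ 2 * ((volume K).toReal - (volume (shr K τ)).toReal) := by
    obtain ⟨hci, e4⟩ := lin3 heSi hR1i hR2i (2 * L / δ) (2 * L / δ) (2 * L / δ)
    have hmono := setIntegral_mono_on
      (intOn hSv hSm (hbm.pow_const 2) ((2 * L) ^ 2) fun x hx => by
        rw [abs_of_nonneg (sq_nonneg _)]
        exact sq_le_of_abs_le (hbM x (hSK hx)))
      hci hSm hpt
    rw [e4] at hmono
    refine hmono.trans ?_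
    have hLδ : 0 ≤ 2 * L / δ := by positivity
    have t1 := mul_le_mul_of_nonneg_left heS hLδ
    have t2 := mul_le_mul_of_nonneg_left hR1 hLδ
    have t3 := mul_le_mul_of_nonneg_left hR2 hLδ
    rw [aux_e7' hδ] at t2 t3
    linarith
  have hsplit := integral_sq_split hK (τ := τ) hbm hbM hint
  refine hsplit.trans ?_
  have h9 : 8 * L ^ 2 * ((volume K).toReal - (volume (shr K τ)).toReal) +
      (2 * L) ^ 2 * ((volume K).toReal - (volume (shr K τ)).toReal) =
      12 * L ^ 2 * ((volume K).toReal - (volume (shr K τ)).toReal) := by ring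
  have h10 := mul_le_mul_of_nonneg_left hvb (by positivity : 0 ≤ 12 * L ^ 2)
  linarith

/-- integrals against `rho K`. -/
theorem integral_rho (F : EE d → ℝ) :
    ∫ x, F x ∂(rho K) = (volume K).toReal⁻¹ * ∫ x in K, F x := by
  simp only [rho, Crest.AnalysisR.OT.uniformProbOn]
  rw [integral_smul_measure, ENNReal.toReal_inv, smul_eq_mul]

/-- the squared norm is the sum of the squares of the coordinates. -/
theorem norm_sq_eq_sum (A : EE d) : ‖A‖ ^ 2 = ∑ k, A k ^ 2 := by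
  rw [EuclideanSpace.norm_sq_eq]
  simp [Real.norm_eq_abs, sq_abs]

/-- the final real-variable step. -/
theorem real_final {X A B M r u : ℝ} (n : ℕ) (hr : 0 < r) (hA : 0 ≤ A) (hB : 0 ≤ B) (hM : 0 ≤ M)
    (hu : 0 ≤ u) (hXM : X ≤ M)
    (h : ∀ δ : ℝ, 0 < δ → δ ≤ r → X ≤ A * u ^ (n + 1) / δ ^ n + B * δ) :
    X ≤ (A + B + M / r) * u := by
  rcases hu.eq_or_lt with rfl | hu0
  · have hX : X ≤ 0 := by
      by_contra hX
      push Not at hX
      set δ := min r (X / (2 * (B + 1))) with hδ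
      have hB1 : 0 < B + 1 := by linarith
      have hδ0 : 0 < δ := lt_min hr (by positivity)
      have hδr : δ ≤ r := min_le_left _ _
      have hδ2 : δ ≤ X / (2 * (B + 1)) := min_le_right _ _
      have := h δ hδ0 hδr
      have e0 : A * (0 : ℝ) ^ (n + 1) / δ ^ n = 0 := by simp
      rw [e0, zero_add] at this
      have h3 : B * δ ≤ (B + 1) * (X / (2 * (B + 1))) :=
        mul_le_mul (by linarith) hδ2 hδ0.le hB1.le
      have h4 : (B + 1) * (X / (2 * (B + 1))) = X / 2 := by field_simp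
      linarith
    simpa using hX
  · by_cases hur : u ≤ r
    · have := h u hu0 hur
      have e : A * u ^ (n + 1) / u ^ n = A * u := by
        rw [pow_succ]; field_simp
      rw [e] at this
      have h2 : 0 ≤ M / r * u := by positivity
      nlinarith
    · push Not at hur
      have h1 : 1 ≤ u / r := by rw [le_div_iff₀ hr]; linarith
      have h2 : M ≤ M / r * u := by
        have : M / r * u = M * (u / r) := by ring
        rw [this]
        nlinarith
      have h3 : 0 ≤ (A + B) * u := by positivity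
      nlinarith

end GN

open GN in
/-- Gagliardo-Nirenberg: `‖T_f - T_g‖²_{L²} ≲ Var(f-g)^{1/3}`, constant depending only on `K` and `L`. -/
theorem gn_bound {K : Set (EE d)} (hK : Body K) (L : ℝ) (hL : 0 ≤ L) :
    ∃ C : ℝ, 0 ≤ C ∧ ∀ (f g : EE d → ℝ) (Tf Tg : EE d → EE d),
      Continuous f → Continuous g → Measurable Tf → Measurable Tg →
      IsSubgradOn K f Tf → IsSubgradOn K g Tg →
      (∀ x ∈ K, ‖Tf x‖ ≤ L) → (∀ x ∈ K, ‖Tg x‖ ≤ L) →
      ∫ x, ‖Tf x - Tg x‖ ^ 2 ∂(rho K) ≤ C * (varRho K (fun x => g x - f x)) ^ (1 / 3 : ℝ) := by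
  obtain ⟨c₀, hc₀⟩ := hK.interior_nonempty
  obtain ⟨r, hr, hball⟩ := Metric.nhds_basis_closedBall.mem_iff.mp
    (isOpen_interior.mem_nhds hc₀)
  have hball' : Metric.closedBall c₀ r ⊆ K := hball.trans interior_subset
  have hv : 0 < (volume K).toReal := ENNReal.toReal_pos hK.volume_ne_zero hK.volume_ne_top
  refine ⟨16 * d + 20 * L ^ 2 * d ^ 2 / r + (2 * L) ^ 2 / r, by positivity, ?_⟩
  intro f g Tf Tg hfc hgc hTf hTg hf hg hTfL hTgL
  have := rho_isProb hK
  set h : EE d → ℝ := fun x => g x - f x with hh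
  have hhc : Continuous h := hgc.sub hfc
  set m := ∫ x, h x ∂(rho K) with hm
  -- the variance
  have hhi : Integrable h (rho K) := by
    obtain ⟨C, hC⟩ := hK.compact.exists_bound_of_continuousOn hhc.continuousOn
    exact integrable_of_bound_on hK hhc.aestronglyMeasurable C fun x hx => by simpa using hC x hx
  have hh2i : Integrable (fun x => h x ^ 2) (rho K) := by
    obtain ⟨C, hC⟩ := hK.compact.exists_bound_of_continuousOn (hhc.pow 2).continuousOn
    exact integrable_of_bound_on hK (hhc.pow 2).aestronglyMeasurable C fun x hx => by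
      simpa using hC x hx
  have hvar : varRho K h = ∫ x, (h x - m) ^ 2 ∂(rho K) := by
    have e : ∀ x, (h x - m) ^ 2 = h x ^ 2 + (-(2 * m) * h x + m ^ 2) := fun x => by ring
    simp_rw [e]
    have hi1 : Integrable (fun x => -(2 * m) * h x) (rho K) := hhi.const_mul _
    have hi2 : Integrable (fun x => -(2 * m) * h x + m ^ 2) (rho K) := hi1.add (integrable_const _)
    rw [integral_add hh2i hi2, integral_add hi1 (integrable_const _), integral_const_mul, ← hm]
    simp only [varRho, integral_const, probReal_univ, smul_eq_mul, one_mul]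
    rw [← hm]
    ring
  have hV0 : 0 ≤ varRho K h := by
    rw [hvar]; exact integral_nonneg fun x => sq_nonneg _
  have hVK : ∫ x in K, (g x - f x - m) ^ 2 = (volume K).toReal * varRho K h := by
    rw [hvar, integral_rho, mul_inv_cancel_left₀ hv.ne']
  set V := varRho K h with hVdef
  set u := V ^ (1 / 3 : ℝ) with hu
  have hu0 : 0 ≤ u := Real.rpow_nonneg hV0 _
  have hu3 : u ^ 3 = V := by
    rw [hu, ← Real.rpow_natCast, ← Real.rpow_mul hV0]
    norm_num
  -- the integrand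
  have hrw : ∀ x, ‖Tf x - Tg x‖ ^ 2 = ∑ k, (Tg x - Tf x) k ^ 2 := fun x => by
    rw [norm_sub_rev, norm_sq_eq_sum]
  have hcoordi : ∀ k : Fin d, IntegrableOn (fun x => (Tg x - Tf x) k ^ 2) K := fun k =>
    intOn hK.volume_ne_top hK.measurableSet ((measurable_coord k (hTg.sub hTf)).pow_const 2)
      ((2 * L) ^ 2) fun x hx => by
        rw [abs_of_nonneg (sq_nonneg _)]
        refine sq_le_of_abs_le ((abs_coord_le k _).trans ?_)
        calc ‖Tg x - Tf x‖ ≤ ‖Tg x‖ + ‖Tf x‖ := norm_sub_le _ _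
          _ ≤ L + L := add_le_add (hTgL x hx) (hTfL x hx)
          _ = 2 * L := by ring
  have hX : ∫ x, ‖Tf x - Tg x‖ ^ 2 ∂(rho K) =
      (volume K).toReal⁻¹ * ∑ k, ∫ x in K, (Tg x - Tf x) k ^ 2 := by
    rw [integral_rho]
    simp_rw [hrw]
    rw [integral_finsetSum _ fun k _ => hcoordi k]
  have hXM : ∫ x, ‖Tf x - Tg x‖ ^ 2 ∂(rho K) ≤ (2 * L) ^ 2 := by
    rw [integral_rho]
    have hb : ∫ x in K, ‖Tf x - Tg x‖ ^ 2 ≤ (2 * L) ^ 2 * (volume K).toReal := by
      have := norm_setIntegral_le_of_norm_le_const (μ := (volume : Measure (EE d)))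
        (f := fun x => ‖Tf x - Tg x‖ ^ 2) (C := (2 * L) ^ 2) (s := K) hK.volume_ne_top.lt_top
        fun x hx => by
          rw [Real.norm_eq_abs, abs_of_nonneg (by positivity)]
          have : ‖Tf x - Tg x‖ ≤ 2 * L := by
            calc ‖Tf x - Tg x‖ ≤ ‖Tf x‖ + ‖Tg x‖ := norm_sub_le _ _
              _ ≤ L + L := add_le_add (hTfL x hx) (hTgL x hx)
              _ = 2 * L := by ring
          exact sq_le_of_abs_le (by rwa [abs_of_nonneg (norm_nonneg _)])
      exact (le_abs_self _).trans this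
    rw [inv_mul_le_iff₀ hv]
    linarith
  refine real_final (n := 2) hr (by positivity : (0 : ℝ) ≤ 16 * d) (by positivity) (by positivity)
    hu0 hXM ?_
  intro δ hδ hδr
  have hcoord := fun k => coord_gn hK hball' hL hfc hgc hTf hTg hf hg hTfL hTgL k hδ hδr m
  rw [hVK] at *
  have hsum : ∑ k, ∫ x in K, (Tg x - Tf x) k ^ 2 ≤
      d * (16 * ((volume K).toReal * V) / δ ^ 2 +
        20 * L ^ 2 * (d * (δ / r) * (volume K).toReal)) := by
    refine (Finset.sum_le_sum fun k _ => hcoord k).trans (le_of_eq ?_)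
    rw [Finset.sum_const, Finset.card_univ, Fintype.card_fin, nsmul_eq_mul]
  rw [hX]
  have h1 := mul_le_mul_of_nonneg_left hsum (inv_nonneg.mpr hv.le)
  refine h1.trans (le_of_eq ?_)
  rw [show (2 + 1 : ℕ) = 3 from rfl, hu3]
  field_simp

open GN in
/-- almost-subgradients are close to the subgradient selection, in `L²`. -/
theorem gap_bound {K : Set (EE d)} (hK : Body K) (L : ℝ) (hL : 0 ≤ L) :
    ∃ C : ℝ, 0 ≤ C ∧ ∀ (f : EE d → ℝ) (Tf a : EE d → EE d) (e : EE d → ℝ),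
      Continuous f → Measurable Tf → Measurable a → Measurable e →
      IsSubgradOn K f Tf → (∀ x ∈ K, ‖Tf x‖ ≤ L) → (∀ x ∈ K, ‖a x‖ ≤ L) →
      (∀ x ∈ K, 0 ≤ e x) → (∃ E, ∀ x ∈ K, e x ≤ E) →
      (∀ x ∈ K, ∀ x' ∈ K, f x + ⟪x' - x, a x⟫ - e x ≤ f x') →
      ∫ x, ‖a x - Tf x‖ ^ 2 ∂(rho K) ≤ C * Real.sqrt (∫ x, e x ∂(rho K)) := by
  obtain ⟨c₀, hc₀⟩ := hK.interior_nonempty
  obtain ⟨r, hr, hball⟩ := Metric.nhds_basis_closedBall.mem_iff.mp
    (isOpen_interior.mem_nhds hc₀)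
  have hball' : Metric.closedBall c₀ r ⊆ K := hball.trans interior_subset
  have hv : 0 < (volume K).toReal := ENNReal.toReal_pos hK.volume_ne_zero hK.volume_ne_top
  refine ⟨2 * L * d + 12 * L ^ 2 * d ^ 2 / r + (2 * L) ^ 2 / r, by positivity, ?_⟩
  intro f Tf a e _ hTf ham hem hf hTfL haL he0 ⟨E, heE⟩ hgap
  have := rho_isProb hK
  have hrw : ∀ x, ‖a x - Tf x‖ ^ 2 = ∑ k, (a x - Tf x) k ^ 2 := fun x => norm_sq_eq_sum _
  have hnorm : ∀ x ∈ K, ‖a x - Tf x‖ ≤ 2 * L := fun x hx => by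
    calc ‖a x - Tf x‖ ≤ ‖a x‖ + ‖Tf x‖ := norm_sub_le _ _
      _ ≤ L + L := add_le_add (haL x hx) (hTfL x hx)
      _ = 2 * L := by ring
  have hcoordi : ∀ k : Fin d, IntegrableOn (fun x => (a x - Tf x) k ^ 2) K := fun k =>
    intOn hK.volume_ne_top hK.measurableSet ((measurable_coord k (ham.sub hTf)).pow_const 2)
      ((2 * L) ^ 2) fun x hx => by
        rw [abs_of_nonneg (sq_nonneg _)]
        exact sq_le_of_abs_le ((abs_coord_le k _).trans (hnorm x hx))
  have hX : ∫ x, ‖a x - Tf x‖ ^ 2 ∂(rho K) =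
      (volume K).toReal⁻¹ * ∑ k, ∫ x in K, (a x - Tf x) k ^ 2 := by
    rw [integral_rho]
    simp_rw [hrw]
    rw [integral_finsetSum _ fun k _ => hcoordi k]
  have hXM : ∫ x, ‖a x - Tf x‖ ^ 2 ∂(rho K) ≤ (2 * L) ^ 2 := by
    rw [integral_rho]
    have hb : ∫ x in K, ‖a x - Tf x‖ ^ 2 ≤ (2 * L) ^ 2 * (volume K).toReal := by
      have := norm_setIntegral_le_of_norm_le_const (μ := (volume : Measure (EE d)))
        (f := fun x => ‖a x - Tf x‖ ^ 2) (C := (2 * L) ^ 2) (s := K) hK.volume_ne_top.lt_top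
        fun x hx => by
          rw [Real.norm_eq_abs, abs_of_nonneg (by positivity)]
          exact sq_le_of_abs_le (by rw [abs_of_nonneg (norm_nonneg _)]; exact hnorm x hx)
      exact (le_abs_self _).trans this
    rw [inv_mul_le_iff₀ hv]
    linarith
  have hE0 : 0 ≤ ∫ x, e x ∂(rho K) := by
    rw [integral_rho]
    exact mul_nonneg (inv_nonneg.mpr hv.le) (setIntegral_nonneg hK.measurableSet he0)
  have hEK : ∫ x in K, e x = (volume K).toReal * ∫ x, e x ∂(rho K) := by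
    rw [integral_rho, mul_inv_cancel_left₀ hv.ne']
  set E₁ := ∫ x, e x ∂(rho K) with hE₁
  set u := Real.sqrt E₁ with hu
  have hu0 : 0 ≤ u := Real.sqrt_nonneg _
  have hu2 : u ^ 2 = E₁ := Real.sq_sqrt hE0
  refine real_final (n := 1) hr (by positivity : (0 : ℝ) ≤ 2 * L * d) (by positivity)
    (by positivity) hu0 hXM ?_
  intro δ hδ hδr
  have hcoord := fun k => coord_gap hK hball' hL hTf ham hem hf hTfL haL he0 heE hgap k hδ hδr
  rw [hEK] at hcoord
  have hsum : ∑ k, ∫ x in K, (a x - Tf x) k ^ 2 ≤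
      d * (2 * L / δ * ((volume K).toReal * E₁) +
        12 * L ^ 2 * (d * (δ / r) * (volume K).toReal)) := by
    refine (Finset.sum_le_sum fun k _ => hcoord k).trans (le_of_eq ?_)
    rw [Finset.sum_const, Finset.card_univ, Fintype.card_fin, nsmul_eq_mul]
  rw [hX]
  have h1 := mul_le_mul_of_nonneg_left hsum (inv_nonneg.mpr hv.le)
  refine h1.trans (le_of_eq ?_)
  rw [show (1 + 1 : ℕ) = 2 from rfl, hu2]
  field_simp

end Crest.Agent.Lib.OTStab
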