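/-
S0109 (row 82): the semi-discrete problem: polyhedral potentials, Laguerre cells, selection,
weak duality.
-/
import Crest.Agent.Lib.OTStab.Basic

set_option autoImplicit false

open MeasureTheory Set
open scoped ENNReal NNReal RealInnerProductSpace

namespace Crest.Agent.Lib.OTStab

variable {d : ℕ} {K : Set (EE d)} {ι : Type*} [Fintype ι]

theorem continuous_aff (y : ι → EE d) (ψ : ι → ℝ) (i : ι) : Continuous (aff y ψ i) := by
  unfold aff
  fun_prop

theorem aff_le_phi (y : ι → EE d) (ψ : ι → ℝ) (i : ι) (x : EE d) : aff y ψ i x ≤ phi y ψ x :=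
  le_ciSup (f := fun i => aff y ψ i x) (Set.finite_range _).bddAbove i

theorem exists_aff_eq_phi [Nonempty ι] (y : ι → EE d) (ψ : ι → ℝ) (x : EE d) :
    ∃ i, aff y ψ i x = phi y ψ x :=
  exists_eq_ciSup_of_finite

theorem phi_le_of_forall [Nonempty ι] (y : ι → EE d) (ψ : ι → ℝ) (x : EE d) {c : ℝ}
    (h : ∀ i, aff y ψ i x ≤ c) : phi y ψ x ≤ c :=
  ciSup_le h

theorem continuous_phi [Nonempty ι] (y : ι → EE d) (ψ : ι → ℝ) : Continuous (phi y ψ) := by
  have : phi y ψ = fun x => (Finset.univ : Finset ι).sup' Finset.univ_nonempty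
      (fun i => aff y ψ i x) := by
    funext x
    rw [Finset.sup'_univ_eq_ciSup]
    rfl
  rw [this]
  exact Continuous.finset_sup'_apply Finset.univ_nonempty fun i _ => continuous_aff y ψ i

theorem abs_phi_sub_le [Nonempty ι] (y : ι → EE d) (ψ ψ' : ι → ℝ) (C : ℝ) (h : ∀ i, |ψ i - ψ' i| ≤ C)
    (x : EE d) : |phi y ψ x - phi y ψ' x| ≤ C := by
  rw [abs_le]
  constructor
  · obtain ⟨i, hi⟩ := exists_aff_eq_phi y ψ' x
    have h1 := aff_le_phi y ψ i x
    have h2 := abs_le.mp (h i)
    simp only [aff] at hi h1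
    linarith [h2.2]
  · obtain ⟨i, hi⟩ := exists_aff_eq_phi y ψ x
    have h1 := aff_le_phi y ψ' i x
    have h2 := abs_le.mp (h i)
    simp only [aff] at hi h1
    linarith [h2.1]

theorem mem_cell_iff (y : ι → EE d) (ψ : ι → ℝ) (i : ι) (x : EE d) :
    x ∈ cell y ψ i ↔ aff y ψ i x = phi y ψ x := by
  constructor
  · intro h
    have : Nonempty ι := ⟨i⟩
    exact le_antisymm (aff_le_phi y ψ i x) (phi_le_of_forall y ψ x h)
  · intro h j
    rw [h]
    exact aff_le_phi y ψ j x

theorem isClosed_cell (y : ι → EE d) (ψ : ι → ℝ) (i : ι) : IsClosed (cell y ψ i) := by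
  have : cell y ψ i = ⋂ j, {x | aff y ψ j x ≤ aff y ψ i x} := by
    ext x; simp [cell]
  rw [this]
  exact isClosed_iInter fun j => isClosed_le (continuous_aff y ψ j) (continuous_aff y ψ i)

theorem measurableSet_cell (y : ι → EE d) (ψ : ι → ℝ) (i : ι) : MeasurableSet (cell y ψ i) :=
  (isClosed_cell y ψ i).measurableSet

/-- A hyperplane has Lebesgue measure zero. -/
theorem volume_hyperplane {v : EE d} (hv : v ≠ 0) (c : ℝ) :
    volume {x : EE d | ⟪x, v⟫ = c} = 0 := by
  by_cases hne : ({x : EE d | ⟪x, v⟫ = c}).Nonempty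
  · obtain ⟨p, hp⟩ := hne
    have hp' : ⟪p, v⟫ = c := hp
    let S : Submodule ℝ (EE d) := (ℝ ∙ v)ᗮ
    have hS : S ≠ ⊤ := by
      intro h
      have : v ∈ S := by rw [h]; trivial
      have h2 : ⟪v, v⟫ = 0 := by
        have := (Submodule.mem_orthogonal_singleton_iff_inner_right.mp this)
        exact this
      exact hv (inner_self_eq_zero.mp h2)
    have h0 : volume (S : Set (EE d)) = 0 := Measure.addHaar_submodule volume S hS
    have hsub : {x : EE d | ⟪x, v⟫ = c} ⊆ (fun x => x - p) ⁻¹' (S : Set (EE d)) := by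
      intro x hx
      have hx' : ⟪x, v⟫ = c := hx
      show x - p ∈ S
      refine Submodule.mem_orthogonal_singleton_iff_inner_left.mpr ?_
      rw [inner_sub_left, hx', hp', sub_self]
    refine measure_mono_null hsub ?_
    simp only [sub_eq_add_neg]
    rw [measure_preimage_add_right]
    exact h0
  · rw [Set.not_nonempty_iff_eq_empty.mp hne]
    simp

/-- two cells of distinct atoms meet in a Lebesgue-null set -/
theorem volume_cell_inter (y : ι → EE d) (ψ : ι → ℝ) {i j : ι} (h : y i ≠ y j) :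
    volume (cell y ψ i ∩ cell y ψ j) = 0 := by
  have hv : y i - y j ≠ 0 := sub_ne_zero.mpr h
  refine measure_mono_null ?_ (volume_hyperplane hv (ψ i - ψ j))
  rintro x ⟨hi, hj⟩
  have h1 := hi j
  have h2 := hj i
  simp only [aff] at h1 h2
  show ⟪x, y i - y j⟫ = ψ i - ψ j
  rw [inner_sub_right]
  linarith

/-- measurable selection of a member of a finite cover -/
theorem exists_sel_of_cover [Nonempty ι] (C : ι → Set (EE d)) (hC : ∀ i, MeasurableSet (C i))
    (hcov : ∀ x, ∃ i, x ∈ C i) :
    ∃ s : EE d → ι, (∀ i, MeasurableSet (s ⁻¹' {i})) ∧ ∀ x, x ∈ C (s x) := by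
  classical
  let n := Fintype.card ι
  let e : ι ≃ Fin n := Fintype.equivFin ι
  have hex : ∀ x, ∃ k : Fin n, x ∈ C (e.symm k) ∧ ∀ l : Fin n, l < k → x ∉ C (e.symm l) := by
    intro x
    obtain ⟨i, hi⟩ := hcov x
    let F : Finset (Fin n) := Finset.univ.filter fun k => x ∈ C (e.symm k)
    have hF : F.Nonempty := ⟨e i, by simp [F, hi]⟩
    refine ⟨F.min' hF, ?_, ?_⟩
    · have := F.min'_mem hF
      simpa [F] using this
    · intro l hl hlx
      have hmem : l ∈ F := by simp [F, hlx]
      exact absurd (F.min'_le l hmem) (not_le.mpr hl)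
  choose k hk1 hk2 using hex
  refine ⟨fun x => e.symm (k x), ?_, fun x => hk1 x⟩
  intro i
  have : (fun x => e.symm (k x)) ⁻¹' {i} =
      C (e.symm (e i)) ∩ ⋂ l : Fin n, ⋂ (_ : l < e i), (C (e.symm l))ᶜ := by
    ext x
    simp only [mem_preimage, mem_singleton_iff, mem_inter_iff, mem_iInter, mem_compl_iff]
    constructor
    · intro hx
      have hkx : k x = e i := by rw [← hx]; simp
      rw [← hkx]
      exact ⟨hk1 x, fun l hl => hk2 x l hl⟩
    · rintro ⟨h1, h2⟩
      have hkx : k x = e i := by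
        rcases lt_trichotomy (k x) (e i) with h | h | h
        · exact absurd (hk1 x) (h2 _ h)
        · exact h
        · exact absurd h1 (hk2 x _ h)
      rw [hkx]; simp
  rw [this]
  exact (hC _).inter (MeasurableSet.iInter fun l => MeasurableSet.iInter fun _ => (hC _).compl)

/-- measurable selection of a maximising index -/
theorem exists_sel [Nonempty ι] (y : ι → EE d) (ψ : ι → ℝ) :
    ∃ s : EE d → ι, (∀ i, MeasurableSet (s ⁻¹' {i})) ∧ ∀ x, x ∈ cell y ψ (s x) := by
  refine exists_sel_of_cover _ (measurableSet_cell y ψ) fun x => ?_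
  obtain ⟨i, hi⟩ := exists_aff_eq_phi y ψ x
  exact ⟨i, (mem_cell_iff y ψ i x).mpr hi⟩

/-- for distinct atoms the cells partition `rho K`-almost everything -/
theorem sum_setIntegral_cell [Nonempty ι] (hK : Body K) {y : ι → EE d} (hy : Function.Injective y)
    (ψ : ι → ℝ) {f : EE d → ℝ} (hf : Integrable f (rho K)) :
    ∑ i, ∫ x in cell y ψ i, f x ∂(rho K) = ∫ x, f x ∂(rho K) := by
  have hU : (⋃ i, cell y ψ i) = univ := by
    ext x
    simp only [mem_iUnion, mem_univ, iff_true]
    obtain ⟨i, hi⟩ := exists_aff_eq_phi y ψ x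
    exact ⟨i, (mem_cell_iff y ψ i x).mpr hi⟩
  have hd : Pairwise (Function.onFun (AEDisjoint (rho K)) (cell y ψ)) := by
    intro i j hij
    exact rho_absCont hK (volume_cell_inter y ψ (hy.ne hij))
  have := integral_iUnion_ae (μ := rho K) (f := f) (s := cell y ψ)
    (fun i => (measurableSet_cell y ψ i).nullMeasurableSet) hd (by rw [hU]; exact hf.integrableOn)
  rw [hU, setIntegral_univ, tsum_fintype] at this
  exact this.symm

section Duality

variable {pm : ι → ℝ} {y : ι → EE d} {σ : EE d → ℝ} {ψ : ι → ℝ}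

theorem Masses.nonempty (hpm : Masses pm) : Nonempty ι := by
  by_contra h
  rw [not_nonempty_iff] at h
  have := hpm.sum
  simp at this

theorem integrable_inner_mul (hK : Body K) (hσ : IsDens K σ) (v : EE d) :
    Integrable (fun x => ⟪x, v⟫ * σ x) (rho K) :=
  integrable_continuous_mul hK (by fun_prop) hσ.meas hσ.abs_le

theorem integrable_phi_mul [Nonempty ι] (hK : Body K) (hσ : IsDens K σ) (y : ι → EE d)
    (ψ : ι → ℝ) : Integrable (fun x => phi y ψ x * σ x) (rho K) :=
  integrable_continuous_mul hK (continuous_phi y ψ) hσ.meas hσ.abs_le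

/-- weak duality: the partition into cells of a solved problem is a competitor for any atoms `y'`. -/
theorem corr_le_Fn (hK : Body K) {pm : ι → ℝ} (hpm : Masses pm) {y : ι → EE d}
    (hy : Function.Injective y) {σ : EE d → ℝ} (hσ : IsDens K σ) {ψ : ι → ℝ}
    (h : Solved K pm y σ ψ) (y' : ι → EE d) (ψ' : ι → ℝ) :
    ∑ i, ∫ x in cell y ψ i, ⟪x, y' i⟫ * σ x ∂(rho K) ≤ Fn K pm y' σ ψ' := by
  haveI := hpm.nonempty
  have hphi := integrable_phi_mul hK hσ y' ψ'
  have hsig := hσ.integrable hK
  unfold Fn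
  rw [← sum_setIntegral_cell hK hy ψ hphi, ← Finset.sum_add_distrib]
  refine Finset.sum_le_sum fun i _ => ?_
  rw [← h i, ← integral_mul_const, ← integral_add hphi.integrableOn (hsig.integrableOn.mul_const _)]
  refine setIntegral_mono (integrable_inner_mul hK hσ _).integrableOn
    (hphi.integrableOn.add (hsig.integrableOn.mul_const _)) fun x => ?_
  have h1 := aff_le_phi y' ψ' i x
  simp only [aff] at h1
  have h2 := hσ.nonneg x
  have h3 := mul_le_mul_of_nonneg_right (sub_le_iff_le_add.mp h1) h2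
  linarith

/-- equality at the solution. -/
theorem Fn_eq_corr (hK : Body K) {pm : ι → ℝ} (hpm : Masses pm) {y : ι → EE d}
    (hy : Function.Injective y) {σ : EE d → ℝ} (hσ : IsDens K σ) {ψ : ι → ℝ}
    (h : Solved K pm y σ ψ) :
    Fn K pm y σ ψ = ∑ i, ∫ x in cell y ψ i, ⟪x, y i⟫ * σ x ∂(rho K) := by
  haveI := hpm.nonempty
  have hphi := integrable_phi_mul hK hσ y ψ
  have hsig := hσ.integrable hK
  unfold Fn
  rw [← sum_setIntegral_cell hK hy ψ hphi, ← Finset.sum_add_distrib]
  refine Finset.sum_congr rfl fun i _ => ?_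
  rw [← h i, ← integral_mul_const, ← integral_add hphi.integrableOn (hsig.integrableOn.mul_const _)]
  refine setIntegral_congr_fun (measurableSet_cell y ψ i) fun x hx => ?_
  have h1 := (mem_cell_iff y ψ i x).mp hx
  simp only [aff] at h1
  simp only [← h1]
  ring

end Duality

end Crest.Agent.Lib.OTStab
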