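/-
S0109 (row 82), task T6: comparison of a general optimal map with the semi-discrete map of an atomic approximation.
-/
import Crest.Agent.Lib.OTStab.Noble
import Crest.Agent.Lib.OTStab.Semi
import Crest.Agent.Lib.OTStab.GN

set_option autoImplicit false

open MeasureTheory Set Filter
open scoped ENNReal NNReal RealInnerProductSpace

namespace Crest.Agent.Lib.OTStab

namespace Approx

variable {d : ℕ} {K Y : Set (EE d)}

/-- Gluing finitely many measurable maps along a measurable partition. -/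
theorem measurable_glue {α β J : Type*} [MeasurableSpace α] [MeasurableSpace β] [Countable J]
    (s : α → J) (hs : ∀ j, MeasurableSet (s ⁻¹' {j})) (g : J → α → β) (hg : ∀ j, Measurable (g j)) :
    Measurable fun x => g (s x) x := by
  intro B hB
  have : (fun x => g (s x) x) ⁻¹' B = ⋃ j, (s ⁻¹' {j} ∩ g j ⁻¹' B) := by
    ext x
    simp only [mem_preimage, mem_iUnion, mem_inter_iff, mem_singleton_iff]
    constructor
    · intro hx
      exact ⟨s x, rfl, hx⟩
    · rintro ⟨j, hj, hx⟩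
      rw [hj]
      exact hx
  rw [this]
  exact MeasurableSet.iUnion fun j => (hs j).inter (hg j hB)

theorem exists_bound_of_compact {S : Set (EE d)} (hS : IsCompact S) : ∃ L : ℝ, 0 ≤ L ∧ ∀ y ∈ S, ‖y‖ ≤ L := by
  obtain ⟨C, hC⟩ := hS.isBounded.exists_norm_le
  exact ⟨max C 0, le_max_right _ _, fun y hy => (hC y hy).trans (le_max_left _ _)⟩

/-- A measurable map pushing `ρ` to a measure carried by `Y` takes values in `Y` almost surely. -/
theorem ae_mem_of_map {μ : Measure (EE d)} (hY : IsCompact Y) (hμ : μ Yᶜ = 0)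
    {T : EE d → EE d} (hT : Measurable T) (hTμ : (rho K).map T = μ) : ∀ᵐ x ∂(rho K), T x ∈ Y := by
  have h : rho K (T ⁻¹' Yᶜ) = 0 := by
    rw [← Measure.map_apply hT hY.isClosed.measurableSet.compl, hTμ, hμ]
  filter_upwards [measure_eq_zero_iff_ae_notMem.mp h] with x hx
  simpa using hx

/-- Optimal maps maximise the correlation. -/
theorem inner_le_of_optimal (hK : Body K) (hY : IsCompact Y) {μ : Measure (EE d)} {T S : EE d → EE d}
    (hμ : Crest.AnalysisR.OT.IsProbabilityOn Y μ) (hopt : Crest.AnalysisR.OT.IsOptimalMap (rho K) μ T)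
    (hS : Measurable S) (hSμ : (rho K).map S = μ) :
    ∫ x, ⟪x, S x⟫ ∂(rho K) ≤ ∫ x, ⟪x, T x⟫ ∂(rho K) := by
  have := rho_isProb hK
  obtain ⟨hT, hTμ, hmin⟩ := hopt
  obtain ⟨L, hL, hLY⟩ := exists_bound_of_compact hY
  obtain ⟨R, hR, hRK⟩ := exists_bound_of_compact hK.compact
  have hxK := ae_mem_rho hK
  have hTY := ae_mem_of_map hY hμ.2 hT hTμ
  have hSY := ae_mem_of_map hY hμ.2 hS hSμ
  -- integrability for a general measurable map with values in `Y`
  have hint : ∀ {U : EE d → EE d}, Measurable U → (∀ᵐ x ∂(rho K), U x ∈ Y) →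
      Integrable (fun x => ‖x‖ ^ 2) (rho K) ∧ Integrable (fun x => ⟪x, U x⟫) (rho K) ∧
        Integrable (fun x => ‖U x‖ ^ 2) (rho K) ∧ Integrable (fun x => ‖x - U x‖ ^ 2) (rho K) := by
    intro U hU hUY
    refine ⟨?_, ?_, ?_, ?_⟩
    · refine Integrable.of_bound (by fun_prop) (R ^ 2) ?_
      filter_upwards [hxK] with x hx
      have := hRK x hx
      rw [Real.norm_eq_abs, abs_of_nonneg (by positivity)]
      gcongr
    · refine Integrable.of_bound
        ((measurable_id.inner hU).aestronglyMeasurable) (R * L) ?_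
      filter_upwards [hxK, hUY] with x hx hUx
      rw [Real.norm_eq_abs]
      exact (abs_real_inner_le_norm _ _).trans (mul_le_mul (hRK x hx) (hLY _ hUx) (norm_nonneg _) hR)
    · refine Integrable.of_bound ((hU.norm.pow_const 2).aestronglyMeasurable) (L ^ 2) ?_
      filter_upwards [hUY] with x hUx
      have := hLY _ hUx
      rw [Real.norm_eq_abs, abs_of_nonneg (by positivity)]
      gcongr
    · refine Integrable.of_bound (((measurable_id.sub hU).norm.pow_const 2).aestronglyMeasurable)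
        ((R + L) ^ 2) ?_
      filter_upwards [hxK, hUY] with x hx hUx
      have h1 := hRK x hx
      have h2 := hLY _ hUx
      have h3 : ‖x - U x‖ ≤ R + L := (norm_sub_le _ _).trans (add_le_add h1 h2)
      rw [Real.norm_eq_abs, abs_of_nonneg (by positivity)]
      gcongr
  obtain ⟨hT1, hT2, hT3, hT4⟩ := hint hT hTY
  obtain ⟨hS1, hS2, hS3, hS4⟩ := hint hS hSY
  -- the two expansions
  have hexp : ∀ {U : EE d → EE d}, Integrable (fun x => ‖x‖ ^ 2) (rho K) →
      Integrable (fun x => ⟪x, U x⟫) (rho K) → Integrable (fun x => ‖U x‖ ^ 2) (rho K) →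
      ∫ x, ‖x - U x‖ ^ 2 ∂(rho K) = ∫ x, ‖x‖ ^ 2 ∂(rho K) - 2 * ∫ x, ⟪x, U x⟫ ∂(rho K)
        + ∫ x, ‖U x‖ ^ 2 ∂(rho K) := by
    intro U h1 h2 h3
    have : (fun x => ‖x - U x‖ ^ 2) = fun x => ‖x‖ ^ 2 - 2 * ⟪x, U x⟫ + ‖U x‖ ^ 2 := by
      funext x
      exact norm_sub_sq_real x (U x)
    have h12 : Integrable (fun x => ‖x‖ ^ 2 - 2 * ⟪x, U x⟫) (rho K) := h1.sub (h2.const_mul 2)
    rw [this, integral_add h12 h3, integral_sub h1 (h2.const_mul 2), integral_const_mul]
  have hsq : ∫ x, ‖T x‖ ^ 2 ∂(rho K) = ∫ x, ‖S x‖ ^ 2 ∂(rho K) := by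
    have e1 : ∫ y, ‖y‖ ^ 2 ∂μ = ∫ x, ‖T x‖ ^ 2 ∂(rho K) := by
      rw [← hTμ]
      exact integral_map hT.aemeasurable (by fun_prop)
    have e2 : ∫ y, ‖y‖ ^ 2 ∂μ = ∫ x, ‖S x‖ ^ 2 ∂(rho K) := by
      rw [← hSμ]
      exact integral_map hS.aemeasurable (by fun_prop)
    rw [← e1, e2]
  -- converting the lintegrals
  have hconv : ∀ {U : EE d → EE d}, Integrable (fun x => ‖x - U x‖ ^ 2) (rho K) →
      ∫⁻ x, ‖x - U x‖ₑ ^ 2 ∂(rho K) = ENNReal.ofReal (∫ x, ‖x - U x‖ ^ 2 ∂(rho K)) := by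
    intro U h
    rw [ofReal_integral_eq_lintegral_ofReal h (Eventually.of_forall fun x => by positivity)]
    refine lintegral_congr fun x => ?_
    rw [ENNReal.ofReal_pow (norm_nonneg _), ofReal_norm]
  have hle := hmin S hS hSμ
  rw [hconv hT4, hconv hS4, ENNReal.ofReal_le_ofReal_iff (integral_nonneg fun x => by positivity),
    hexp hT1 hT2 hT3, hexp hS1 hS2 hS3, hsq] at hle
  linarith

section Semi

variable {J : Type*} [Fintype J] {a : J → EE d} {ψ : J → ℝ} {s : EE d → J}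

/-- For distinct atoms, almost every point lies in exactly one cell. -/
theorem ae_sel_unique (hK : Body K) (ha : Function.Injective a) (hs : ∀ x, x ∈ cell a ψ (s x)) :
    ∀ᵐ x ∂(rho K), ∀ j, x ∈ cell a ψ j → s x = j := by
  have h0 : ∀ᵐ x ∂(rho K), ∀ i j, i ≠ j → x ∉ cell a ψ i ∩ cell a ψ j := by
    rw [ae_all_iff]
    intro i
    rw [ae_all_iff]
    intro j
    by_cases hij : i = j
    · exact Eventually.of_forall fun x h => absurd hij h
    · have := rho_absCont hK (volume_cell_inter a ψ (ha.ne hij))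
      filter_upwards [measure_eq_zero_iff_ae_notMem.mp this] with x hx _
      exact hx
  filter_upwards [h0] with x hx j hj
  by_contra hne
  exact hx _ _ hne ⟨hs x, hj⟩

/-- The mass of the selection fibre. -/
theorem rho_fibre (hK : Body K) {pm : J → ℝ} (ha : Function.Injective a)
    (hsol : Solved K pm a (fun _ => 1) ψ) (hs : ∀ x, x ∈ cell a ψ (s x)) (j : J) : rho K (s ⁻¹' {j}) = ENNReal.ofReal (pm j) := by
  have := rho_isProb hK
  have heq : (s ⁻¹' {j} : Set (EE d)) =ᵐ[rho K] cell a ψ j := by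
    filter_upwards [ae_sel_unique hK ha hs] with x hx
    apply propext
    constructor
    · intro (h : s x = j)
      rw [← h]
      exact hs x
    · intro h
      exact hx j h
  have h1 := hsol j
  simp only [integral_const, smul_eq_mul, mul_one, MeasurableSet.univ, measureReal_restrict_apply,
    univ_inter] at h1
  rw [measure_congr heq, ← h1, ofReal_measureReal]

/-- The total correlation of the semi-discrete map. -/
theorem integral_inner_sel (hK : Body K) {pm : J → ℝ} (hpm : Masses pm) (ha : Function.Injective a)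
    (hsol : Solved K pm a (fun _ => 1) ψ) (hs : ∀ x, x ∈ cell a ψ (s x))
    (hsm : ∀ j, MeasurableSet (s ⁻¹' {j})) :
    ∫ x, ⟪x, a (s x)⟫ ∂(rho K) = Fn K pm a (fun _ => 1) ψ := by
  have := hpm.nonempty
  have hmeas : Measurable fun x => a (s x) :=
    measurable_glue s hsm (fun j _ => a j) fun j => measurable_const
  obtain ⟨R, hR, hRK⟩ := exists_bound_of_compact hK.compact
  have hint : Integrable (fun x => ⟪x, a (s x)⟫) (rho K) := by
    have := rho_isProb hK
    obtain ⟨B, hB⟩ := (Set.finite_range a).isBounded.exists_norm_le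
    refine Integrable.of_bound (measurable_id.inner hmeas).aestronglyMeasurable (R * B) ?_
    filter_upwards [ae_mem_rho hK] with x hx
    rw [Real.norm_eq_abs]
    exact (abs_real_inner_le_norm _ _).trans
      (mul_le_mul (hRK x hx) (hB _ (mem_range_self _)) (norm_nonneg _) hR)
  rw [Fn_eq_corr hK hpm ha (isDens_one hK) hsol, ← sum_setIntegral_cell hK ha ψ hint]
  refine Finset.sum_congr rfl fun j _ => ?_
  refine setIntegral_congr_ae (measurableSet_cell a ψ j) ?_
  filter_upwards [ae_sel_unique hK ha hs] with x hx hxj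
  rw [hx j hxj, mul_one]

end Semi

section Competitor

variable {J : Type*} [Finite J] {s : EE d → J}

/-- The competitor: a measurable map pushing `ρ` to `μ`, with `S x` in `A (s x)` almost surely. -/
theorem exists_competitor (hd : d ≠ 0) (hK : Body K) {μ : Measure (EE d)} [IsFiniteMeasure μ]
    {A : J → Set (EE d)} (hAm : ∀ j, MeasurableSet (A j)) (hAd : Pairwise (Function.onFun Disjoint A))
    (hAc : μ (⋃ j, A j)ᶜ = 0) (hsm : ∀ j, MeasurableSet (s ⁻¹' {j}))
    (hmass : ∀ j, rho K (s ⁻¹' {j}) = μ (A j)) :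
    ∃ S : EE d → EE d, Measurable S ∧ (rho K).map S = μ ∧ ∀ᵐ x ∂(rho K), S x ∈ A (s x) := by
  have := rho_isProb hK
  have hnt : Nontrivial (EE d) := by
    have : Nonempty (Fin d) := ⟨⟨0, Nat.pos_of_ne_zero hd⟩⟩
    infer_instance
  have hnoat : ∀ j, NullSingletonClass ((rho K).restrict (s ⁻¹' {j})) := by
    intro j
    refine ⟨fun x => ?_⟩
    have h0 : volume ({x} : Set (EE d)) = 0 := measure_singleton x
    exact (Measure.absolutelyContinuous_of_le Measure.restrict_le_self).trans (rho_absCont hK) h0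
  have hex : ∀ j, ∃ S : EE d → EE d, Measurable S ∧
      ((rho K).restrict (s ⁻¹' {j})).map S = μ.restrict (A j) := by
    intro j
    have := hnoat j
    refine exists_map_eq_of_noAtoms _ _ ?_
    rw [Measure.restrict_apply_univ, Measure.restrict_apply_univ]
    exact hmass j
  choose S' hS'm hS'map using hex
  have hSm : Measurable fun x => S' (s x) x := measurable_glue s hsm S' hS'm
  have hpiece : ∀ j (B : Set (EE d)), MeasurableSet B →
      rho K (s ⁻¹' {j} ∩ S' j ⁻¹' B) = μ (B ∩ A j) := by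
    intro j B hB
    rw [inter_comm, ← Measure.restrict_apply (hS'm j hB), ← Measure.map_apply (hS'm j) hB, hS'map j,
      Measure.restrict_apply hB]
  refine ⟨fun x => S' (s x) x, hSm, ?_, ?_⟩
  · refine Measure.ext fun B hB => ?_
    rw [Measure.map_apply hSm hB]
    have e1 : (fun x => S' (s x) x) ⁻¹' B = ⋃ j, (s ⁻¹' {j} ∩ S' j ⁻¹' B) := by
      ext x
      simp only [mem_preimage, mem_iUnion, mem_inter_iff, mem_singleton_iff]
      constructor
      · intro hx
        exact ⟨s x, rfl, hx⟩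
      · rintro ⟨j, hj, hx⟩
        rw [hj]
        exact hx
    have hdisj : Pairwise (Function.onFun Disjoint fun j => s ⁻¹' {j} ∩ S' j ⁻¹' B) := by
      intro i j hij
      refine Set.disjoint_left.mpr ?_
      rintro x ⟨hx1, _⟩ ⟨hx2, _⟩
      exact hij (hx1.symm.trans hx2)
    rw [e1, measure_iUnion hdisj fun j => (hsm j).inter (hS'm j hB)]
    simp_rw [hpiece _ B hB]
    rw [← measure_iUnion (fun i j hij => (hAd hij).mono inter_subset_right inter_subset_right)
      fun j => hB.inter (hAm j), ← inter_iUnion]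
    refine measure_congr ?_
    have hae : ∀ᵐ y ∂μ, y ∈ ⋃ j, A j := by
      filter_upwards [measure_eq_zero_iff_ae_notMem.mp hAc] with y hy
      simpa using hy
    filter_upwards [hae] with y hy
    apply propext
    exact ⟨fun h => h.1, fun h => ⟨h, hy⟩⟩
  · have h0 : ∀ᵐ x ∂(rho K), ∀ j, x ∉ s ⁻¹' {j} ∩ S' j ⁻¹' (A j)ᶜ := by
      rw [ae_all_iff]
      intro j
      refine measure_eq_zero_iff_ae_notMem.mp ?_
      rw [hpiece j _ (hAm j).compl]
      simp
    filter_upwards [h0] with x hx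
    by_contra hcon
    exact hx (s x) ⟨rfl, hcon⟩

end Competitor

/-- The integral of a function of the selected index. -/
theorem integral_comp_sel {J : Type*} [Fintype J] (hK : Body K) {s : EE d → J}
    (hsm : ∀ j, MeasurableSet (s ⁻¹' {j})) (g : J → ℝ) :
    ∫ x, g (s x) ∂(rho K) = ∑ j, (rho K (s ⁻¹' {j})).toReal * g j := by
  classical
  have := rho_isProb hK
  have e : (fun x => g (s x)) = fun x => ∑ j, (s ⁻¹' {j}).indicator (fun _ => g j) x := by
    funext x
    rw [Finset.sum_eq_single (s x)]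
    · simp
    · intro j _ hj
      simp [Ne.symm hj]
    · simp
  rw [e, integral_finsetSum _ fun j _ => (integrable_const _).indicator (hsm j)]
  refine Finset.sum_congr rfl fun j _ => ?_
  rw [integral_indicator (hsm j)]
  simp [Measure.real]

/-- The main estimate, given a gap bound. -/
theorem approx_optimal_of_gap (hK : Body K) (hY : IsCompact Y) (L : ℝ)
    (hLY : ∀ y ∈ Y, ‖y‖ ≤ L) (C₀ : ℝ) (hC₀ : 0 ≤ C₀)
    (hgap : ∀ (f : EE d → ℝ) (Tf a : EE d → EE d) (e : EE d → ℝ),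
      Continuous f → Measurable Tf → Measurable a → Measurable e →
      (∀ x ∈ K, ∀ x' ∈ K, f x + ⟪x' - x, Tf x⟫ ≤ f x') → (∀ x ∈ K, ‖Tf x‖ ≤ L) → (∀ x ∈ K, ‖a x‖ ≤ L) →
      (∀ x ∈ K, 0 ≤ e x) → (∃ E, ∀ x ∈ K, e x ≤ E) →
      (∀ x ∈ K, ∀ x' ∈ K, f x + ⟪x' - x, a x⟫ - e x ≤ f x') →
      ∫ x, ‖a x - Tf x‖ ^ 2 ∂(rho K) ≤ C₀ * Real.sqrt (∫ x, e x ∂(rho K))) :
    ∃ C : ℝ, 0 ≤ C ∧ ∀ (μ : Measure (EE d)) (T : EE d → EE d),
      Crest.AnalysisR.OT.IsProbabilityOn Y μ → Crest.AnalysisR.OT.IsOptimalMap (rho K) μ T →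
      ∀ (J : Type) [Fintype J] (A : J → Set (EE d)) (a : J → EE d) (η : ℝ), 0 < η →
      (∀ j, MeasurableSet (A j)) → Pairwise (Function.onFun Disjoint A) → μ (⋃ j, A j)ᶜ = 0 →
      (∀ j, a j ∈ Y) → Function.Injective a → (∀ j, ∀ y ∈ A j, ‖y - a j‖ ≤ η) →
      ∀ (pm : J → ℝ), Masses pm → (∀ j, pm j = (μ (A j)).toReal) →
      ∀ (ψ : J → ℝ), Solved K pm a (fun _ => 1) ψ →
      ∀ (s : EE d → J), (∀ j, MeasurableSet (s ⁻¹' {j})) → (∀ x, x ∈ cell a ψ (s x)) →
      ∫ x, ‖T x - a (s x)‖ ^ 2 ∂(rho K) ≤ C * Real.sqrt η := by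
  obtain ⟨R, hR, hRK⟩ := exists_bound_of_compact hK.compact
  refine ⟨2 * (1 + 4 * L ^ 2) + 2 * (C₀ * Real.sqrt (2 * R)), by positivity, ?_⟩
  intro μ T hμ hopt J _ A a η hη hAm hAd hAc haY hainj hAη pm hpm hpmμ ψ hsol s hsm hscell
  have hprob := rho_isProb hK
  have hμp : IsProbabilityMeasure μ := hμ.1
  have hT : Measurable T := hopt.1
  have hTμ : (rho K).map T = μ := hopt.2.1
  by_cases hd : d = 0
  · subst hd
    have hsub : Subsingleton (EE 0) := by infer_instance
    have : ∀ x, ‖T x - a (s x)‖ ^ 2 = 0 := fun x => by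
      rw [Subsingleton.elim (T x) (a (s x))]
      simp
    simp only [this, integral_zero]
    positivity
  have hne : Nonempty J := hpm.nonempty
  classical
  obtain ⟨j₀⟩ := hne
  have hne : Nonempty J := ⟨j₀⟩
  -- the selection following `T`
  obtain ⟨s₁, hs₁m, hs₁⟩ := exists_sel_of_cover
    (fun j => T ⁻¹' A j ∪ ({_x | j = j₀} ∩ (T ⁻¹' ⋃ i, A i)ᶜ))
    (fun j => (hT (hAm j)).union ((MeasurableSet.const _).inter
      (hT (MeasurableSet.iUnion hAm)).compl))
    (by
      intro x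
      by_cases hx : ∃ i, T x ∈ A i
      · obtain ⟨i, hi⟩ := hx
        exact ⟨i, Or.inl hi⟩
      · refine ⟨j₀, Or.inr ⟨rfl, ?_⟩⟩
        simpa using hx)
  have hs₁eq : ∀ x i, T x ∈ A i → s₁ x = i := by
    intro x i hi
    rcases hs₁ x with h | h
    · by_contra hne'
      exact Set.disjoint_left.mp (hAd hne') h hi
    · exact absurd (mem_iUnion.mpr ⟨i, hi⟩) (by simpa using h.2)
  have hTA : ∀ᵐ x ∂(rho K), T x ∈ A (s₁ x) := by
    have h0 : rho K (T ⁻¹' (⋃ j, A j)ᶜ) = 0 := by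
      rw [← Measure.map_apply hT (MeasurableSet.iUnion hAm).compl, hTμ, hAc]
    filter_upwards [measure_eq_zero_iff_ae_notMem.mp h0] with x hx
    have : T x ∈ ⋃ j, A j := by simpa using hx
    obtain ⟨i, hi⟩ := mem_iUnion.mp this
    rw [hs₁eq x i hi]
    exact hi
  have hfib₁ : ∀ j, rho K (s₁ ⁻¹' {j}) = μ (A j) := by
    intro j
    rw [← hTμ, Measure.map_apply hT (hAm j)]
    refine measure_congr ?_
    filter_upwards [hTA] with x hx
    apply propext
    constructor
    · intro (h : s₁ x = j)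
      rw [← h]
      exact hx
    · intro h
      exact hs₁eq x j h
  have hμA : ∀ j, μ (A j) = ENNReal.ofReal (pm j) := by
    intro j
    rw [hpmμ j, ENNReal.ofReal_toReal (measure_ne_top _ _)]
  have hfib : ∀ j, rho K (s ⁻¹' {j}) = μ (A j) := by
    intro j
    rw [hμA j, rho_fibre hK hainj hsol hscell j]
  -- the competitor
  obtain ⟨S, hSm, hSμ, hSA⟩ := exists_competitor hd hK hAm hAd hAc hsm hfib
  have hcorr := inner_le_of_optimal hK hY hμ hopt hSm hSμ
  have hxK := ae_mem_rho hK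
  have hTY := ae_mem_of_map hY hμ.2 hT hTμ
  have hSY := ae_mem_of_map hY hμ.2 hSm hSμ
  set a₁ : EE d → EE d := fun x => a (s₁ x) with ha₁
  set a₂ : EE d → EE d := fun x => a (s x) with ha₂
  have ha₁m : Measurable a₁ := measurable_glue s₁ hs₁m (fun j _ => a j) fun j => measurable_const
  have ha₂m : Measurable a₂ := measurable_glue s hsm (fun j _ => a j) fun j => measurable_const
  have ha₁L : ∀ x, ‖a₁ x‖ ≤ L := fun x => hLY _ (haY _)
  have ha₂L : ∀ x, ‖a₂ x‖ ≤ L := fun x => hLY _ (haY _)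
  -- integrable correlation for any bounded map
  have hinner : ∀ {U : EE d → EE d}, Measurable U → (∀ᵐ x ∂(rho K), ‖U x‖ ≤ L) →
      Integrable (fun x => ⟪x, U x⟫) (rho K) := by
    intro U hU hUL
    refine Integrable.of_bound (measurable_id.inner hU).aestronglyMeasurable (R * L) ?_
    filter_upwards [hxK, hUL] with x hx hUx
    rw [Real.norm_eq_abs]
    exact (abs_real_inner_le_norm _ _).trans (mul_le_mul (hRK x hx) hUx (norm_nonneg _) hR)
  have hTL : ∀ᵐ x ∂(rho K), ‖T x‖ ≤ L := hTY.mono fun x hx => hLY _ hx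
  have hSL : ∀ᵐ x ∂(rho K), ‖S x‖ ≤ L := hSY.mono fun x hx => hLY _ hx
  have hiT := hinner hT hTL
  have hiS := hinner hSm hSL
  have hi₁ := hinner ha₁m (Eventually.of_forall ha₁L)
  have hi₂ := hinner ha₂m (Eventually.of_forall ha₂L)
  -- comparing correlations: a general step
  have hcomp : ∀ {U V : EE d → EE d}, Integrable (fun x => ⟪x, U x⟫) (rho K) →
      Integrable (fun x => ⟪x, V x⟫) (rho K) → (∀ᵐ x ∂(rho K), ‖U x - V x‖ ≤ η) →
      ∫ x, ⟪x, U x⟫ ∂(rho K) ≤ ∫ x, ⟪x, V x⟫ ∂(rho K) + R * η := by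
    intro U V hU hV hUV
    have h1 : ∫ x, ⟪x, U x⟫ ∂(rho K) ≤ ∫ x, (⟪x, V x⟫ + R * η) ∂(rho K) := by
      refine integral_mono_ae hU (hV.add (integrable_const _)) ?_
      filter_upwards [hxK, hUV] with x hx hxUV
      have h2 : ⟪x, U x⟫ - ⟪x, V x⟫ = ⟪x, U x - V x⟫ := (inner_sub_right _ _ _).symm
      have h3 : ⟪x, U x - V x⟫ ≤ R * η :=
        (real_inner_le_norm _ _).trans (mul_le_mul (hRK x hx) hxUV (norm_nonneg _) hR)
      show ⟪x, U x⟫ ≤ ⟪x, V x⟫ + R * η
      linarith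
    rw [integral_add hV (integrable_const _)] at h1
    simpa using h1
  have hTa₁ : ∀ᵐ x ∂(rho K), ‖T x - a₁ x‖ ≤ η := hTA.mono fun x hx => hAη _ _ hx
  have hSa₂ : ∀ᵐ x ∂(rho K), ‖a₂ x - S x‖ ≤ η := hSA.mono fun x hx => by
    rw [norm_sub_rev]
    exact hAη _ _ hx
  have hstep1 := hcomp hiT hi₁ hTa₁
  have hstep2 := hcomp hi₂ hiS hSa₂
  have hFn : ∫ x, ⟪x, a₂ x⟫ ∂(rho K) = Fn K pm a (fun _ => 1) ψ :=
    integral_inner_sel hK hpm hainj hsol hscell hsm
  -- the defect
  set e : EE d → ℝ := fun x => phi a ψ x - aff a ψ (s₁ x) x with he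
  have hphic := continuous_phi a ψ
  have hem : Measurable e := measurable_glue s₁ hs₁m (fun j x => phi a ψ x - aff a ψ j x) fun j =>
    hphic.measurable.sub (continuous_aff a ψ j).measurable
  have he0 : ∀ x, 0 ≤ e x := fun x => sub_nonneg.mpr (aff_le_phi a ψ _ x)
  have hbd : ∃ E : ℝ, ∀ x ∈ K, e x ≤ E := by
    have : ∀ j, ∃ E : ℝ, ∀ x ∈ K, phi a ψ x - aff a ψ j x ≤ E := by
      intro j
      obtain ⟨E, hE⟩ := hK.compact.exists_bound_of_continuousOn
        (hphic.sub (continuous_aff a ψ j)).continuousOn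
      exact ⟨E, fun x hx => (le_abs_self _).trans (hE x hx)⟩
    choose E hE using this
    refine ⟨∑ j, |E j|, fun x hx => ?_⟩
    calc e x ≤ E (s₁ x) := hE _ x hx
      _ ≤ |E (s₁ x)| := le_abs_self _
      _ ≤ _ := Finset.single_le_sum (f := fun j => |E j|) (fun j _ => abs_nonneg _) (Finset.mem_univ _)
  have heint : Integrable e (rho K) := by
    obtain ⟨E, hE⟩ := hbd
    refine Integrable.of_bound hem.aestronglyMeasurable E ?_
    filter_upwards [hxK] with x hx
    rw [Real.norm_eq_abs, abs_of_nonneg (he0 x)]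
    exact hE x hx
  have hphii : Integrable (phi a ψ) (rho K) := by
    have := integrable_phi_mul (ι := J) hK (isDens_one hK) a ψ
    simpa using this
  have hψint : Integrable (fun x => ψ (s₁ x)) (rho K) := by
    obtain ⟨B, hB⟩ := (Set.finite_range ψ).isBounded.exists_norm_le
    exact Integrable.of_bound (measurable_glue s₁ hs₁m (fun j _ => ψ j)
      fun j => measurable_const).aestronglyMeasurable B
      (Eventually.of_forall fun x => hB _ (mem_range_self _))
  have hψcalc : ∫ x, ψ (s₁ x) ∂(rho K) = ∑ j, pm j * ψ j := by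
    rw [integral_comp_sel hK hs₁m]
    refine Finset.sum_congr rfl fun j _ => ?_
    rw [hfib₁ j, hpmμ j]
  have heint_eq : ∫ x, e x ∂(rho K) = Fn K pm a (fun _ => 1) ψ - ∫ x, ⟪x, a₁ x⟫ ∂(rho K) := by
    have e1 : e = fun x => (phi a ψ x - ⟪x, a₁ x⟫) + ψ (s₁ x) := by
      funext x
      simp only [he, aff, ha₁]
      ring
    have hsubi : Integrable (fun x => phi a ψ x - ⟪x, a₁ x⟫) (rho K) := hphii.sub hi₁
    rw [e1, integral_add hsubi hψint, integral_sub hphii hi₁, hψcalc]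
    simp only [Fn, mul_one]
    ring
  have hemass : ∫ x, e x ∂(rho K) ≤ 2 * R * η := by
    rw [heint_eq]
    linarith
  -- the gap bound
  have hgapb := hgap (phi a ψ) a₂ a₁ e hphic ha₂m ha₁m hem
    (by
      intro x _ x' _
      have h1 := (mem_cell_iff a ψ (s x) x).mp (hscell x)
      have h2 := aff_le_phi a ψ (s x) x'
      simp only [aff] at h1 h2
      simp only [ha₂]
      rw [inner_sub_left]
      linarith [real_inner_comm (a (s x)) x, real_inner_comm (a (s x)) x'])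
    (fun x _ => ha₂L x) (fun x _ => ha₁L x) (fun x _ => he0 x) hbd
    (by
      intro x _ x' _
      have h2 := aff_le_phi a ψ (s₁ x) x'
      simp only [aff] at h2
      simp only [he, ha₁, aff]
      rw [inner_sub_left]
      linarith)
  have hsqrt : Real.sqrt (∫ x, e x ∂(rho K)) ≤ Real.sqrt (2 * R) * Real.sqrt η := by
    rw [← Real.sqrt_mul (by positivity)]
    exact Real.sqrt_le_sqrt hemass
  have hJ2 : ∫ x, ‖a₁ x - a₂ x‖ ^ 2 ∂(rho K) ≤ C₀ * Real.sqrt (2 * R) * Real.sqrt η := by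
    rw [mul_assoc]
    exact hgapb.trans (mul_le_mul_of_nonneg_left hsqrt hC₀)
  -- the near part
  have hsη : 0 ≤ Real.sqrt η := Real.sqrt_nonneg η
  have hpt : ∀ᵐ x ∂(rho K), ‖T x - a₁ x‖ ^ 2 ≤ (1 + 4 * L ^ 2) * Real.sqrt η := by
    filter_upwards [hTa₁, hTL] with x h1 h2
    have h3 : ‖T x - a₁ x‖ ≤ 2 * L := by
      have := norm_sub_le (T x) (a₁ x)
      linarith [ha₁L x]
    have hn := norm_nonneg (T x - a₁ x)
    by_cases hη1 : η ≤ 1
    · have h4 : η ^ 2 ≤ Real.sqrt η := by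
        have hs2 : Real.sqrt η ^ 2 = η := Real.sq_sqrt hη.le
        have hs1 : Real.sqrt η ≤ 1 := Real.sqrt_le_one.mpr hη1
        nlinarith [mul_nonneg hsη hsη, pow_nonneg hsη 3, mul_le_mul hs1 hs1 hsη zero_le_one]
      have h5 : ‖T x - a₁ x‖ ^ 2 ≤ η ^ 2 := by gcongr
      nlinarith [mul_nonneg (sq_nonneg L) hsη]
    · have h5 : 1 ≤ Real.sqrt η := by
        rw [Real.one_le_sqrt]
        exact (not_le.mp hη1).le
      have h6 : ‖T x - a₁ x‖ ^ 2 ≤ (2 * L) ^ 2 := by gcongr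
      nlinarith [mul_nonneg (sq_nonneg L) hsη, mul_le_mul_of_nonneg_left h5 (sq_nonneg L)]
  have hi1 : Integrable (fun x => ‖T x - a₁ x‖ ^ 2) (rho K) := by
    refine Integrable.of_bound (((hT.sub ha₁m).norm.pow_const 2).aestronglyMeasurable)
      ((1 + 4 * L ^ 2) * Real.sqrt η) ?_
    filter_upwards [hpt] with x hx
    rw [Real.norm_eq_abs, abs_of_nonneg (by positivity)]
    exact hx
  have hi2 : Integrable (fun x => ‖a₁ x - a₂ x‖ ^ 2) (rho K) := by
    refine Integrable.of_bound (((ha₁m.sub ha₂m).norm.pow_const 2).aestronglyMeasurable)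
      ((L + L) ^ 2) (Eventually.of_forall fun x => ?_)
    rw [Real.norm_eq_abs, abs_of_nonneg (by positivity)]
    have := norm_sub_le (a₁ x) (a₂ x)
    have h3 : ‖a₁ x - a₂ x‖ ≤ L + L := this.trans (add_le_add (ha₁L x) (ha₂L x))
    gcongr
  have hJ1 : ∫ x, ‖T x - a₁ x‖ ^ 2 ∂(rho K) ≤ (1 + 4 * L ^ 2) * Real.sqrt η := by
    have := integral_mono_ae hi1 (integrable_const ((1 + 4 * L ^ 2) * Real.sqrt η)) hpt
    simpa using this
  have hi3 : Integrable (fun x => ‖T x - a₂ x‖ ^ 2) (rho K) := by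
    refine Integrable.of_bound (((hT.sub ha₂m).norm.pow_const 2).aestronglyMeasurable)
      ((L + L) ^ 2) ?_
    filter_upwards [hTL] with x hx
    rw [Real.norm_eq_abs, abs_of_nonneg (by positivity)]
    have h3 : ‖T x - a₂ x‖ ≤ L + L := (norm_sub_le _ _).trans (add_le_add hx (ha₂L x))
    gcongr
  have hsplit : ∫ x, ‖T x - a₂ x‖ ^ 2 ∂(rho K) ≤
      2 * ∫ x, ‖T x - a₁ x‖ ^ 2 ∂(rho K) + 2 * ∫ x, ‖a₁ x - a₂ x‖ ^ 2 ∂(rho K) := by
    rw [← integral_const_mul, ← integral_const_mul, ← integral_add (hi1.const_mul 2) (hi2.const_mul 2)]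
    refine integral_mono hi3 ((hi1.const_mul 2).add (hi2.const_mul 2)) fun x => ?_
    have h1 : T x - a₂ x = (T x - a₁ x) + (a₁ x - a₂ x) := by abel
    have h2 := norm_add_le (T x - a₁ x) (a₁ x - a₂ x)
    rw [← h1] at h2
    have h3 : ‖T x - a₂ x‖ ^ 2 ≤ (‖T x - a₁ x‖ + ‖a₁ x - a₂ x‖) ^ 2 := by gcongr
    simp only
    nlinarith [sq_nonneg (‖T x - a₁ x‖ - ‖a₁ x - a₂ x‖)]
  calc ∫ x, ‖T x - a₂ x‖ ^ 2 ∂(rho K)
      ≤ 2 * ((1 + 4 * L ^ 2) * Real.sqrt η) + 2 * (C₀ * Real.sqrt (2 * R) * Real.sqrt η) := by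
        linarith
    _ = _ := by ring

end Approx

/-- Comparison of a general optimal map with the semi-discrete map of an atomic approximation. -/
theorem approx_optimal {d : ℕ} {K Y : Set (EE d)} (hK : Body K) (hY : IsCompact Y) :
    ∃ C : ℝ, 0 ≤ C ∧ ∀ (μ : Measure (EE d)) (T : EE d → EE d),
      Crest.AnalysisR.OT.IsProbabilityOn Y μ → Crest.AnalysisR.OT.IsOptimalMap (rho K) μ T →
      ∀ (J : Type) [Fintype J] (A : J → Set (EE d)) (a : J → EE d) (η : ℝ), 0 < η →
      (∀ j, MeasurableSet (A j)) → Pairwise (Function.onFun Disjoint A) → μ (⋃ j, A j)ᶜ = 0 →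
      (∀ j, a j ∈ Y) → Function.Injective a → (∀ j, ∀ y ∈ A j, ‖y - a j‖ ≤ η) →
      ∀ (pm : J → ℝ), Masses pm → (∀ j, pm j = (μ (A j)).toReal) →
      ∀ (ψ : J → ℝ), Solved K pm a (fun _ => 1) ψ →
      ∀ (s : EE d → J), (∀ j, MeasurableSet (s ⁻¹' {j})) → (∀ x, x ∈ cell a ψ (s x)) →
      ∫ x, ‖T x - a (s x)‖ ^ 2 ∂(rho K) ≤ C * Real.sqrt η := by
  obtain ⟨L, hL, hLY⟩ := Approx.exists_bound_of_compact hY
  obtain ⟨C₀, hC₀, hgap⟩ := gap_bound hK L hL
  exact Approx.approx_optimal_of_gap hK hY L hLY C₀ hC₀ hgap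

end Crest.Agent.Lib.OTStab
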