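/-
S0109 (row 82, T7): merging labels of atoms.  A minimiser for atoms `a` on `J` pulls back to a minimiser for the
labelled atoms `a ∘ f` on `I`, when `f : I → J` is surjective and the masses of `J` are the fibre sums.
-/
import Crest.Agent.Lib.OTStab.Defs

set_option autoImplicit false

open MeasureTheory Set
open scoped ENNReal NNReal RealInnerProductSpace

namespace Crest.Agent.Lib.OTStab

variable {d : ℕ}

section Label

variable {I J : Type*} [Fintype I] [Fintype J]

/-- sup over a finite set, computed by any function with the two universal properties -/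
theorem phi_eq_of_le_of_le [Nonempty I] [Nonempty J] {y : I → EE d} {ψ : I → ℝ} {a : J → EE d} {ψ' : J → ℝ}
    (x : EE d) (h₁ : ∀ i, ∃ j, aff y ψ i x ≤ aff a ψ' j x) (h₂ : ∀ j, ∃ i, aff a ψ' j x ≤ aff y ψ i x) :
    phi y ψ x = phi a ψ' x := by
  have bd1 : BddAbove (Set.range fun i => aff y ψ i x) := (Set.finite_range _).bddAbove
  have bd2 : BddAbove (Set.range fun j => aff a ψ' j x) := (Set.finite_range _).bddAbove
  apply le_antisymm
  · refine ciSup_le fun i => ?_
    obtain ⟨j, hj⟩ := h₁ i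
    exact hj.trans (le_ciSup bd2 j)
  · refine ciSup_le fun j => ?_
    obtain ⟨i, hi⟩ := h₂ j
    exact hi.trans (le_ciSup bd1 i)

/-- Pull-back of potentials along a surjection does not change `phi`. -/
theorem phi_comp_surj [Nonempty I] [Nonempty J] {f : I → J} (hf : Function.Surjective f) (a : J → EE d) (ψ : J → ℝ)
    (x : EE d) : phi (a ∘ f) (ψ ∘ f) x = phi a ψ x := by
  refine phi_eq_of_le_of_le x (fun i => ⟨f i, le_rfl⟩) (fun j => ?_)
  obtain ⟨i, rfl⟩ := hf j
  exact ⟨i, le_rfl⟩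

/-- A minimiser for merged atoms pulls back to a minimiser for labelled atoms. -/
theorem isMinFn_comp_surj [Nonempty I] [Nonempty J] [DecidableEq J] {K : Set (EE d)} {f : I → J}
    (hf : Function.Surjective f) {pm : I → ℝ} (hpm : ∀ i, 0 ≤ pm i) {pmJ : J → ℝ}
    (hfib : ∀ j, pmJ j = ∑ i ∈ Finset.univ.filter (fun i => f i = j), pm i) (a : J → EE d) {σ : EE d → ℝ}
    {ψ : J → ℝ} (h : IsMinFn K pmJ a σ ψ) : IsMinFn K pm (a ∘ f) σ (ψ ∘ f) := by
  classical
  have hlin : ∀ θ : J → ℝ, ∑ i, pm i * (θ ∘ f) i = ∑ j, pmJ j * θ j := by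
    intro θ
    have : ∑ i, pm i * θ (f i) = ∑ j, ∑ i ∈ Finset.univ.filter (fun i => f i = j), pm i * θ (f i) :=
      (Finset.sum_fiberwise Finset.univ f _).symm
    simp only [Function.comp]
    rw [this]
    refine Finset.sum_congr rfl fun j _ => ?_
    rw [hfib, Finset.sum_mul]
    refine Finset.sum_congr rfl fun i hi => ?_
    rw [(Finset.mem_filter.1 hi).2]
  have hFn : ∀ θ : J → ℝ, Fn K pm (a ∘ f) σ (θ ∘ f) = Fn K pmJ a σ θ := by
    intro θ
    simp only [Fn]
    rw [hlin θ]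
    congr 2
    funext x
    rw [phi_comp_surj hf a θ x]
  intro ψ''
  -- the fibrewise minimum
  have hg : ∀ j, ∃ i, f i = j ∧ ∀ i', f i' = j → ψ'' i ≤ ψ'' i' := by
    intro j
    have hne : (Finset.univ.filter (fun i => f i = j)).Nonempty := by
      obtain ⟨i, hi⟩ := hf j
      exact ⟨i, Finset.mem_filter.2 ⟨Finset.mem_univ _, hi⟩⟩
    obtain ⟨i, hi, hmin⟩ := Finset.exists_min_image _ ψ'' hne
    exact ⟨i, (Finset.mem_filter.1 hi).2, fun i' hi' =>
      hmin i' (Finset.mem_filter.2 ⟨Finset.mem_univ _, hi'⟩)⟩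
  choose g hg1 hg2 using hg
  set θ : J → ℝ := fun j => ψ'' (g j) with hθ
  have hphi : ∀ x, phi (a ∘ f) ψ'' x = phi a θ x := by
    intro x
    refine phi_eq_of_le_of_le x (fun i => ⟨f i, ?_⟩) (fun j => ⟨g j, ?_⟩)
    · simp only [aff, Function.comp, hθ]
      have := hg2 (f i) i rfl
      linarith
    · simp only [aff, Function.comp, hθ, hg1 j]
      exact le_rfl
  have hle : Fn K pmJ a σ θ ≤ Fn K pm (a ∘ f) σ ψ'' := by
    simp only [Fn]
    have hint : ∫ x, phi (a ∘ f) ψ'' x * σ x ∂(rho K) = ∫ x, phi a θ x * σ x ∂(rho K) := by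
      congr 1
      funext x
      rw [hphi x]
    rw [hint, ← hlin θ]
    gcongr with i _
    · exact hpm i
    · exact hg2 (f i) i rfl
  calc Fn K pm (a ∘ f) σ (ψ ∘ f) = Fn K pmJ a σ ψ := hFn ψ
    _ ≤ Fn K pmJ a σ θ := h θ
    _ ≤ _ := hle

end Label

end Crest.Agent.Lib.OTStab
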