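/-
S0109 (row 82, T7): bookkeeping for the final assembly: partitions, labels, cost estimate.
-/
import Crest.Agent.Lib.OTStab.Label

set_option autoImplicit false

open MeasureTheory Set
open scoped ENNReal NNReal RealInnerProductSpace

namespace Crest.Agent.Lib.OTStab

variable {d : ℕ}

theorem measure_iUnion_fintype' {α : Type*} [MeasurableSpace α] {κ : Type*} [Fintype κ] (m : Measure α)
    {B : κ → Set α} (hd : Pairwise (Function.onFun Disjoint B)) (hB : ∀ k, MeasurableSet (B k)) :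
    m (⋃ k, B k) = ∑ k, m (B k) := by
  rw [measure_iUnion hd hB, tsum_fintype]

section Partition

variable {α : Type*} [MeasurableSpace α] {κ : Type*} [Fintype κ]

/-- Nonzero-mass part of a partition: the real masses sum to one. -/
theorem sum_toReal_of_partition (m : Measure α) [IsProbabilityMeasure m] {B : κ → Set α}
    (hB : ∀ k, MeasurableSet (B k)) (hd : Pairwise (Function.onFun Disjoint B))
    (hcov : m (⋃ k, B k)ᶜ = 0) : ∑ k, (m (B k)).toReal = 1 := by
  have h1 : m (⋃ k, B k) = 1 := (prob_compl_eq_zero_iff (μ := m) (MeasurableSet.iUnion hB)).1 hcov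
  have h2 : m (⋃ k, B k) = ∑ k, m (B k) := measure_iUnion_fintype' m hd hB
  rw [← ENNReal.toReal_sum (fun k _ => measure_ne_top m _), ← h2, h1]
  simp

/-- dropping zero terms of a finite sum -/
theorem sum_subtype_ne_zero {g : κ → ℝ} (P : κ → Prop) (hP : ∀ k, ¬ P k → g k = 0) [Fintype {k // P k}] :
    ∑ k : {k // P k}, g k = ∑ k, g k := by
  classical
  rw [← Finset.sum_subtype (Finset.univ.filter P) (by simp) g]
  exact Finset.sum_filter_of_ne (fun k _ hk => by_contra fun hp => hk (hP k hp))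

/-- positive-mass pieces of a partition -/
theorem masses_pos_part (m : Measure α) [IsProbabilityMeasure m] {B : κ → Set α}
    (hB : ∀ k, MeasurableSet (B k)) (hd : Pairwise (Function.onFun Disjoint B))
    (hcov : m (⋃ k, B k)ᶜ = 0) :
    Masses (fun k : {k // m (B k) ≠ 0} => (m (B k)).toReal) := by
  classical
  refine ⟨fun k => ENNReal.toReal_pos k.2 (measure_ne_top m _), ?_⟩
  rw [sum_subtype_ne_zero (g := fun k => (m (B k)).toReal) (fun k => m (B k) ≠ 0)
    (fun k hk => by simp [not_not.1 hk])]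
  exact sum_toReal_of_partition m hB hd hcov

/-- the positive-mass pieces still cover almost everything -/
theorem null_compl_pos_part (m : Measure α) [IsProbabilityMeasure m] {B : κ → Set α}
    (hB : ∀ k, MeasurableSet (B k)) (hcov : m (⋃ k, B k)ᶜ = 0) :
    m (⋃ k : {k // m (B k) ≠ 0}, B k)ᶜ = 0 := by
  classical
  have hsub : (⋃ k : {k // m (B k) ≠ 0}, B k)ᶜ ⊆ (⋃ k, B k)ᶜ ∪ ⋃ k : {k // m (B k) = 0}, B k := by
    intro x hx
    by_cases hk : x ∈ ⋃ k, B k
    · right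
      obtain ⟨k, hk⟩ := mem_iUnion.1 hk
      have hk0 : m (B k) = 0 := by
        by_contra hne
        exact hx (mem_iUnion.2 ⟨⟨k, hne⟩, hk⟩)
      exact mem_iUnion.2 ⟨⟨k, hk0⟩, hk⟩
    · exact Or.inl hk
  refine measure_mono_null hsub (measure_union_null hcov ?_)
  exact (measure_iUnion_null fun k => k.2)

theorem nonempty_pos_part (m : Measure α) [IsProbabilityMeasure m] {B : κ → Set α}
    (hB : ∀ k, MeasurableSet (B k)) (hcov : m (⋃ k, B k)ᶜ = 0) :
    Nonempty {k // m (B k) ≠ 0} := by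
  by_contra hne
  have h := null_compl_pos_part m hB hcov
  have hemp : (⋃ k : {k // m (B k) ≠ 0}, B k) = ∅ := by
    rw [not_nonempty_iff] at hne
    exact iUnion_of_empty _
  rw [hemp, compl_empty] at h
  simp at h

end Partition

section Coupling

variable {E : Type*} [MeasurableSpace E] {N : Type*} [Fintype N]

variable {μ ν : Measure E} {π : Measure (E × E)}

theorem coupling_isProb (hπ : Crest.AnalysisR.OT.IsPairCoupling μ ν π) [IsProbabilityMeasure μ] :
    IsProbabilityMeasure π := by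
  constructor
  have h : (π.map Prod.fst) Set.univ = μ Set.univ := by rw [hπ.1]
  rw [Measure.map_apply measurable_fst MeasurableSet.univ] at h
  simpa using h

theorem coupling_fst (hπ : Crest.AnalysisR.OT.IsPairCoupling μ ν π) {A : Set E} (hA : MeasurableSet A) :
    π (Prod.fst ⁻¹' A) = μ A := by
  rw [← hπ.1, Measure.map_apply measurable_fst hA]

theorem coupling_snd (hπ : Crest.AnalysisR.OT.IsPairCoupling μ ν π) {A : Set E} (hA : MeasurableSet A) :
    π (Prod.snd ⁻¹' A) = ν A := by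
  rw [← hπ.2, Measure.map_apply measurable_snd hA]

variable {A : N → Set E}

theorem coupling_cover (hπ : Crest.AnalysisR.OT.IsPairCoupling μ ν π) (hA : ∀ j, MeasurableSet (A j))
    (hμ : μ (⋃ j, A j)ᶜ = 0) (hν : ν (⋃ j, A j)ᶜ = 0) :
    π (⋃ p : N × N, A p.1 ×ˢ A p.2)ᶜ = 0 := by
  have hm : MeasurableSet (⋃ j, A j)ᶜ := (MeasurableSet.iUnion hA).compl
  have hsub : (⋃ p : N × N, A p.1 ×ˢ A p.2)ᶜ ⊆
      (Prod.fst ⁻¹' (⋃ j, A j)ᶜ) ∪ (Prod.snd ⁻¹' (⋃ j, A j)ᶜ) := by
    intro q hq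
    by_contra hcon
    simp only [mem_union, mem_preimage, not_or, mem_compl_iff, not_not, mem_iUnion] at hcon
    obtain ⟨⟨j, hj⟩, ⟨l, hl⟩⟩ := hcon
    exact hq (mem_iUnion.2 ⟨(j, l), hj, hl⟩)
  refine measure_mono_null hsub (measure_union_null ?_ ?_)
  · rw [coupling_fst hπ hm, hμ]
  · rw [coupling_snd hπ hm, hν]

theorem pair_disjoint (hd : Pairwise (Function.onFun Disjoint A)) :
    Pairwise (Function.onFun Disjoint fun p : N × N => A p.1 ×ˢ A p.2) := by
  intro p q hpq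
  simp only [Function.onFun]
  by_cases h1 : p.1 = q.1
  · have h2 : p.2 ≠ q.2 := fun h => hpq (Prod.ext h1 h)
    exact Set.disjoint_left.2 fun x hx hx' => Set.disjoint_left.1 (hd h2) hx.2 hx'.2
  · exact Set.disjoint_left.2 fun x hx hx' => Set.disjoint_left.1 (hd h1) hx.1 hx'.1

/-- the marginal formula -/
theorem coupling_marginal_fst (hπ : Crest.AnalysisR.OT.IsPairCoupling μ ν π) [IsProbabilityMeasure μ]
    (hA : ∀ j, MeasurableSet (A j)) (hd : Pairwise (Function.onFun Disjoint A))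
    (hν : ν (⋃ j, A j)ᶜ = 0) (j : N) :
    (μ (A j)).toReal = ∑ l, (π (A j ×ˢ A l)).toReal := by
  have := coupling_isProb hπ
  have h1 : μ (A j) = π (A j ×ˢ (⋃ l, A l)) := by
    rw [← coupling_fst hπ (hA j)]
    have hsub : Prod.fst ⁻¹' A j ⊆ (A j ×ˢ (⋃ l, A l)) ∪ (Prod.snd ⁻¹' (⋃ l, A l)ᶜ) := by
      intro q hq
      by_cases h : q.2 ∈ ⋃ l, A l
      · exact Or.inl ⟨hq, h⟩
      · exact Or.inr h
    refine le_antisymm ?_ (measure_mono fun q hq => hq.1)
    calc π (Prod.fst ⁻¹' A j) ≤ π ((A j ×ˢ (⋃ l, A l)) ∪ (Prod.snd ⁻¹' (⋃ l, A l)ᶜ)) := measure_mono hsub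
      _ ≤ π (A j ×ˢ (⋃ l, A l)) + π (Prod.snd ⁻¹' (⋃ l, A l)ᶜ) := measure_union_le _ _
      _ = π (A j ×ˢ (⋃ l, A l)) := by
        rw [coupling_snd hπ (MeasurableSet.iUnion hA).compl, hν, add_zero]
  have h2 : π (A j ×ˢ (⋃ l, A l)) = ∑ l, π (A j ×ˢ A l) := by
    rw [Set.prod_iUnion]
    refine measure_iUnion_fintype' π ?_ (fun l => (hA j).prod (hA l))
    intro l l' hll
    exact Set.disjoint_left.2 fun x hx hx' => Set.disjoint_left.1 (hd hll) hx.2 hx'.2
  rw [h1, h2, ENNReal.toReal_sum (fun _ _ => measure_ne_top π _)]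

theorem coupling_marginal_snd (hπ : Crest.AnalysisR.OT.IsPairCoupling μ ν π) [IsProbabilityMeasure μ]
    (hA : ∀ j, MeasurableSet (A j)) (hd : Pairwise (Function.onFun Disjoint A))
    (hμ : μ (⋃ j, A j)ᶜ = 0) (l : N) :
    (ν (A l)).toReal = ∑ j, (π (A j ×ˢ A l)).toReal := by
  have := coupling_isProb hπ
  have h1 : ν (A l) = π ((⋃ j, A j) ×ˢ A l) := by
    rw [← coupling_snd hπ (hA l)]
    have hsub : Prod.snd ⁻¹' A l ⊆ ((⋃ j, A j) ×ˢ A l) ∪ (Prod.fst ⁻¹' (⋃ j, A j)ᶜ) := by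
      intro q hq
      by_cases h : q.1 ∈ ⋃ j, A j
      · exact Or.inl ⟨h, hq⟩
      · exact Or.inr h
    refine le_antisymm ?_ (measure_mono fun q hq => hq.2)
    calc π (Prod.snd ⁻¹' A l) ≤ π (((⋃ j, A j) ×ˢ A l) ∪ (Prod.fst ⁻¹' (⋃ j, A j)ᶜ)) := measure_mono hsub
      _ ≤ π ((⋃ j, A j) ×ˢ A l) + π (Prod.fst ⁻¹' (⋃ j, A j)ᶜ) := measure_union_le _ _
      _ = π ((⋃ j, A j) ×ˢ A l) := by
        rw [coupling_fst hπ (MeasurableSet.iUnion hA).compl, hμ, add_zero]
  have h2 : π ((⋃ j, A j) ×ˢ A l) = ∑ j, π (A j ×ˢ A l) := by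
    rw [Set.iUnion_prod_const]
    refine measure_iUnion_fintype' π ?_ (fun j => (hA j).prod (hA l))
    intro j j' hjj
    exact Set.disjoint_left.2 fun x hx hx' => Set.disjoint_left.1 (hd hjj) hx.1 hx'.1
  rw [h1, h2, ENNReal.toReal_sum (fun _ _ => measure_ne_top π _)]

end Coupling

section Labels

variable {E : Type*} [MeasurableSpace E] {N : Type*} [Fintype N] [DecidableEq N]
variable {μ ν : Measure E} {π : Measure (E × E)} {A : N → Set E}

/-- the label projection to the first marginal -/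
def fstLabel (hπ : Crest.AnalysisR.OT.IsPairCoupling μ ν π) (hA : ∀ j, MeasurableSet (A j))
    (i : {p : N × N // π (A p.1 ×ˢ A p.2) ≠ 0}) : {j // μ (A j) ≠ 0} :=
  ⟨i.1.1, by
    intro h0
    apply i.2
    refine measure_mono_null (show A i.1.1 ×ˢ A i.1.2 ⊆ Prod.fst ⁻¹' A i.1.1 from fun q hq => hq.1) ?_
    rw [coupling_fst hπ (hA _)]
    exact h0⟩

/-- the label projection to the second marginal -/
def sndLabel (hπ : Crest.AnalysisR.OT.IsPairCoupling μ ν π) (hA : ∀ j, MeasurableSet (A j))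
    (i : {p : N × N // π (A p.1 ×ˢ A p.2) ≠ 0}) : {j // ν (A j) ≠ 0} :=
  ⟨i.1.2, by
    intro h0
    apply i.2
    refine measure_mono_null (show A i.1.1 ×ˢ A i.1.2 ⊆ Prod.snd ⁻¹' A i.1.2 from fun q hq => hq.2) ?_
    rw [coupling_snd hπ (hA _)]
    exact h0⟩

theorem fstLabel_surj (hπ : Crest.AnalysisR.OT.IsPairCoupling μ ν π) [IsProbabilityMeasure μ]
    (hA : ∀ j, MeasurableSet (A j)) (hd : Pairwise (Function.onFun Disjoint A))
    (hν : ν (⋃ j, A j)ᶜ = 0) : Function.Surjective (fstLabel hπ hA) := by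
  have := coupling_isProb hπ
  intro j
  have hpos : 0 < (μ (A j.1)).toReal := ENNReal.toReal_pos j.2 (measure_ne_top μ _)
  rw [coupling_marginal_fst hπ hA hd hν j.1] at hpos
  obtain ⟨l, -, hl⟩ := Finset.exists_lt_of_sum_lt (s := Finset.univ) (f := fun _ : N => (0 : ℝ))
    (by simpa using hpos)
  have hne : π (A j.1 ×ˢ A l) ≠ 0 := by
    intro h0
    simp [h0] at hl
  exact ⟨⟨(j.1, l), hne⟩, Subtype.ext rfl⟩

theorem sndLabel_surj (hπ : Crest.AnalysisR.OT.IsPairCoupling μ ν π) [IsProbabilityMeasure μ]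
    [IsProbabilityMeasure ν]
    (hA : ∀ j, MeasurableSet (A j)) (hd : Pairwise (Function.onFun Disjoint A))
    (hμ : μ (⋃ j, A j)ᶜ = 0) : Function.Surjective (sndLabel hπ hA) := by
  have := coupling_isProb hπ
  intro l
  have hpos : 0 < (ν (A l.1)).toReal := ENNReal.toReal_pos l.2 (measure_ne_top ν _)
  rw [coupling_marginal_snd hπ hA hd hμ l.1] at hpos
  obtain ⟨j, -, hj⟩ := Finset.exists_lt_of_sum_lt (s := Finset.univ) (f := fun _ : N => (0 : ℝ))
    (by simpa using hpos)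
  have hne : π (A j ×ˢ A l.1) ≠ 0 := by
    intro h0
    simp [h0] at hj
  exact ⟨⟨(j, l.1), hne⟩, Subtype.ext rfl⟩

theorem fstLabel_fibre (hπ : Crest.AnalysisR.OT.IsPairCoupling μ ν π) [IsProbabilityMeasure μ]
    (hA : ∀ j, MeasurableSet (A j)) (hd : Pairwise (Function.onFun Disjoint A))
    (hν : ν (⋃ j, A j)ᶜ = 0) (j : {j // μ (A j) ≠ 0}) [Fintype {p : N × N // π (A p.1 ×ˢ A p.2) ≠ 0}]
    [DecidableEq {j // μ (A j) ≠ 0}] :
    (μ (A j.1)).toReal = ∑ i ∈ Finset.univ.filter (fun i => fstLabel hπ hA i = j),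
      (π (A i.1.1 ×ˢ A i.1.2)).toReal := by
  classical
  rw [coupling_marginal_fst hπ hA hd hν j.1, Finset.sum_filter]
  have hstep : ∀ i : {p : N × N // π (A p.1 ×ˢ A p.2) ≠ 0},
      (if fstLabel hπ hA i = j then (π (A i.1.1 ×ˢ A i.1.2)).toReal else 0)
        = (fun p : N × N => if p.1 = j.1 then (π (A p.1 ×ˢ A p.2)).toReal else 0) i.1 := by
    intro i
    have : (fstLabel hπ hA i = j) ↔ i.1.1 = j.1 := by
      constructor
      · intro h
        exact congrArg Subtype.val h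
      · intro h
        exact Subtype.ext h
    simp only [this]
  rw [Finset.sum_congr rfl (fun i _ => hstep i)]
  rw [sum_subtype_ne_zero (g := fun p : N × N => if p.1 = j.1 then (π (A p.1 ×ˢ A p.2)).toReal else 0)
    (fun p : N × N => π (A p.1 ×ˢ A p.2) ≠ 0)
    (fun p hp => by simp [not_not.1 hp])]
  rw [Fintype.sum_prod_type]
  symm
  rw [Finset.sum_eq_single j.1]
  · simp
  · intro b _ hb
    simp [hb]
  · simp

theorem sndLabel_fibre (hπ : Crest.AnalysisR.OT.IsPairCoupling μ ν π) [IsProbabilityMeasure μ]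
    (hA : ∀ j, MeasurableSet (A j)) (hd : Pairwise (Function.onFun Disjoint A))
    (hμ : μ (⋃ j, A j)ᶜ = 0) (l : {j // ν (A j) ≠ 0}) [Fintype {p : N × N // π (A p.1 ×ˢ A p.2) ≠ 0}]
    [DecidableEq {j // ν (A j) ≠ 0}] :
    (ν (A l.1)).toReal = ∑ i ∈ Finset.univ.filter (fun i => sndLabel hπ hA i = l),
      (π (A i.1.1 ×ˢ A i.1.2)).toReal := by
  classical
  rw [coupling_marginal_snd hπ hA hd hμ l.1, Finset.sum_filter]
  have hstep : ∀ i : {p : N × N // π (A p.1 ×ˢ A p.2) ≠ 0},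
      (if sndLabel hπ hA i = l then (π (A i.1.1 ×ˢ A i.1.2)).toReal else 0)
        = (fun p : N × N => if p.2 = l.1 then (π (A p.1 ×ˢ A p.2)).toReal else 0) i.1 := by
    intro i
    have : (sndLabel hπ hA i = l) ↔ i.1.2 = l.1 := by
      constructor
      · intro h
        exact congrArg Subtype.val h
      · intro h
        exact Subtype.ext h
    simp only [this]
  rw [Finset.sum_congr rfl (fun i _ => hstep i)]
  rw [sum_subtype_ne_zero (g := fun p : N × N => if p.2 = l.1 then (π (A p.1 ×ˢ A p.2)).toReal else 0)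
    (fun p : N × N => π (A p.1 ×ˢ A p.2) ≠ 0)
    (fun p hp => by simp [not_not.1 hp])]
  rw [Fintype.sum_prod_type_right]
  symm
  rw [Finset.sum_eq_single l.1]
  · simp
  · intro b _ hb
    simp [hb]
  · simp

end Labels

section Cost

variable {E : Type*} [NormedAddCommGroup E] [MeasurableSpace E] [BorelSpace E]
  [SecondCountableTopology E]
variable {N : Type*} [Fintype N] {π : Measure (E × E)} {A : N → Set E}

/-- The discretised cost is controlled by the cost of the coupling. -/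
theorem discrete_cost_le (hA : ∀ j, MeasurableSet (A j)) (hd : Pairwise (Function.onFun Disjoint A))
    [IsProbabilityMeasure π] {a : N → E} {η : ℝ} (hη : 0 < η) (hclose : ∀ j, ∀ y ∈ A j, ‖y - a j‖ ≤ η)
    (hcost : Crest.AnalysisR.OT.quadCost π ≠ ⊤)
    [Fintype {p : N × N // π (A p.1 ×ˢ A p.2) ≠ 0}] :
    ∑ i : {p : N × N // π (A p.1 ×ˢ A p.2) ≠ 0},
        (π (A i.1.1 ×ˢ A i.1.2)).toReal * ‖a i.1.1 - a i.1.2‖ ^ 2
      ≤ 2 * (Crest.AnalysisR.OT.quadCost π).toReal + 8 * η ^ 2 := by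
  classical
  set G : E × E → ℝ≥0∞ := fun q => 2 * ‖q.1 - q.2‖ₑ ^ 2 + ENNReal.ofReal (8 * η ^ 2) with hG
  have hm0 : Measurable fun q : E × E => ‖q.1 - q.2‖ₑ ^ 2 :=
    ((measurable_fst.sub measurable_snd).enorm).pow_const 2
  have hintG : ∫⁻ q, G q ∂π = 2 * Crest.AnalysisR.OT.quadCost π + ENNReal.ofReal (8 * η ^ 2) := by
    rw [hG, lintegral_add_right _ measurable_const, lintegral_const_mul]
    · simp [Crest.AnalysisR.OT.quadCost]
    · exact hm0
  -- pointwise bound on a block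
  have hpt : ∀ (p : N × N) (q : E × E), q ∈ A p.1 ×ˢ A p.2 →
      ENNReal.ofReal (‖a p.1 - a p.2‖ ^ 2) ≤ G q := by
    intro p q hq
    have h1 := hclose p.1 q.1 hq.1
    have h2 := hclose p.2 q.2 hq.2
    have h3 : ‖a p.1 - a p.2‖ ≤ ‖q.1 - q.2‖ + 2 * η := by
      have : a p.1 - a p.2 = (q.1 - q.2) - (q.1 - a p.1) + (q.2 - a p.2) := by abel
      rw [this]
      calc _ ≤ ‖(q.1 - q.2) - (q.1 - a p.1)‖ + ‖q.2 - a p.2‖ := norm_add_le _ _
        _ ≤ ‖q.1 - q.2‖ + ‖q.1 - a p.1‖ + ‖q.2 - a p.2‖ := by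
          gcongr
          exact norm_sub_le _ _
        _ ≤ _ := by linarith
    have h4 : ‖a p.1 - a p.2‖ ^ 2 ≤ 2 * ‖q.1 - q.2‖ ^ 2 + 8 * η ^ 2 := by
      have hn := norm_nonneg (q.1 - q.2)
      have hn' := norm_nonneg (a p.1 - a p.2)
      nlinarith [sq_nonneg (‖q.1 - q.2‖ - 2 * η), pow_le_pow_left₀ hn' h3 2]
    have h5 : G q = ENNReal.ofReal (2 * ‖q.1 - q.2‖ ^ 2 + 8 * η ^ 2) := by
      have h6 : ENNReal.ofReal (2 * ‖q.1 - q.2‖ ^ 2) = 2 * ‖q.1 - q.2‖ₑ ^ 2 := by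
        rw [ENNReal.ofReal_mul (by norm_num), ENNReal.ofReal_pow (norm_nonneg _), ofReal_norm]
        simp
      rw [ENNReal.ofReal_add (by positivity) (by positivity), h6]
    rw [h5]
    exact ENNReal.ofReal_le_ofReal h4
  have hsum : ∑ i : {p : N × N // π (A p.1 ×ˢ A p.2) ≠ 0},
      π (A i.1.1 ×ˢ A i.1.2) * ENNReal.ofReal (‖a i.1.1 - a i.1.2‖ ^ 2) ≤ ∫⁻ q, G q ∂π := by
    have hdisj := pair_disjoint hd
    calc _ ≤ ∑ i : {p : N × N // π (A p.1 ×ˢ A p.2) ≠ 0}, ∫⁻ q in A i.1.1 ×ˢ A i.1.2, G q ∂π := by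
          refine Finset.sum_le_sum fun i _ => ?_
          rw [mul_comm, ← setLIntegral_const]
          exact setLIntegral_mono' ((hA _).prod (hA _)) fun q hq => hpt i.1 q hq
      _ = ∫⁻ q in ⋃ i : {p : N × N // π (A p.1 ×ˢ A p.2) ≠ 0}, A i.1.1 ×ˢ A i.1.2, G q ∂π := by
          rw [lintegral_iUnion (fun i => (hA _).prod (hA _)) _, tsum_fintype]
          intro i i' hii
          exact hdisj (fun h => hii (Subtype.ext h))
      _ ≤ _ := setLIntegral_le_lintegral _ _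
  have hfin : 2 * Crest.AnalysisR.OT.quadCost π + ENNReal.ofReal (8 * η ^ 2) ≠ ⊤ := by
    simp [ENNReal.mul_eq_top, hcost]
  have hreal := ENNReal.toReal_mono hfin (hsum.trans_eq hintG)
  rw [ENNReal.toReal_add (by simp [ENNReal.mul_eq_top, hcost]) ENNReal.ofReal_ne_top,
    ENNReal.toReal_mul, ENNReal.toReal_ofReal (by positivity),
    ENNReal.toReal_sum (fun i _ => ENNReal.mul_ne_top (measure_ne_top _ _) ENNReal.ofReal_ne_top)] at hreal
  simp only [ENNReal.toReal_mul, ENNReal.toReal_ofReal (sq_nonneg _)] at hreal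
  simpa using hreal

end Cost

end Crest.Agent.Lib.OTStab
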