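/-
S0109 (row 82), task T1: the Prekopa-Leindler inequality, midpoint form, for Lebesgue measure on `EE d`.
One-dimensional Brunn-Minkowski (compact sets, then inner regularity), layer cake, normalisation,
truncation, induction on the dimension, transport to Euclidean space.
-/
import Crest.Agent.Lib.OTStab.Defs

set_option autoImplicit false

open MeasureTheory Set Filter
open scoped ENNReal NNReal

namespace Crest.Agent.Lib.OTStab

namespace PL

/-- The affine map `x ↦ (x + b) / 2` doubles the measure of preimages. -/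
theorem volume_preimage_half (b : ℝ) (D : Set ℝ) :
    volume ((fun x : ℝ => (x + b) / 2) ⁻¹' D) = 2 * volume D := by
  have h1 : (fun x : ℝ => (x + b) / 2) ⁻¹' D = (fun x : ℝ => x + b) ⁻¹' ((fun x : ℝ => (1 / 2 : ℝ) * x) ⁻¹' D) := by
    ext x
    simp only [mem_preimage]
    congr! 1
    ring
  rw [h1, measure_preimage_add_right, Real.volume_preimage_mul_left (by norm_num : (1 / 2 : ℝ) ≠ 0)]
  congr 1
  norm_num

/-- One-dimensional Brunn-Minkowski, compact sets, midpoint form. -/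
theorem bm_compact {A B C : Set ℝ} (hA : IsCompact A) (hB : IsCompact B) (hA0 : A.Nonempty)
    (hB0 : B.Nonempty) (H : ∀ a ∈ A, ∀ b ∈ B, (a + b) / 2 ∈ C) :
    volume A + volume B ≤ 2 * volume C := by
  set a := sSup A with ha_def
  set b := sInf B with hb_def
  have ha : a ∈ A := hA.sSup_mem hA0
  have hb : b ∈ B := hB.sInf_mem hB0
  set m := (a + b) / 2 with hm
  have h1 : volume A ≤ 2 * volume (C ∩ Iic m) := by
    rw [← volume_preimage_half b]
    apply measure_mono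
    intro x hx
    refine ⟨H x hx b hb, ?_⟩
    have : x ≤ a := le_csSup hA.bddAbove hx
    simp only [mem_Iic, hm]
    linarith
  have h2 : volume B ≤ 2 * volume (C ∩ Ioi m) := by
    rw [← volume_preimage_half a]
    have h0 : volume B = volume (B \ {b}) := (measure_sdiff_null (by simp)).symm
    rw [h0]
    apply measure_mono
    intro y hy
    have hyB : y ∈ B := hy.1
    have hyb : y ≠ b := by simpa using hy.2
    have hle : b ≤ y := csInf_le hB.bddBelow hyB
    have hlt : b < y := lt_of_le_of_ne hle (Ne.symm hyb)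
    refine ⟨?_, ?_⟩
    · have := H a ha y hyB
      rwa [add_comm] at this
    · simp only [mem_Ioi, hm]
      linarith
  have h3 : volume (C ∩ Iic m) + volume (C ∩ Ioi m) = volume C := by
    have := measure_inter_add_sdiff (μ := volume) C (measurableSet_Iic (a := m))
    rwa [show C \ Iic m = C ∩ Ioi m by
      ext x; simp [mem_inter_iff, not_le]] at this
  calc volume A + volume B ≤ 2 * volume (C ∩ Iic m) + 2 * volume (C ∩ Ioi m) := add_le_add h1 h2
    _ = 2 * volume C := by rw [← mul_add, h3]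

/-- A measurable nonempty set has measure the supremum of its nonempty compact subsets. -/
theorem volume_eq_iSup {A : Set ℝ} (hA : MeasurableSet A) (hA0 : A.Nonempty) :
    ∃ (_ : Nonempty {K : Set ℝ // K ⊆ A ∧ IsCompact K ∧ K.Nonempty}),
      volume A = ⨆ K : {K : Set ℝ // K ⊆ A ∧ IsCompact K ∧ K.Nonempty}, volume K.1 := by
  obtain ⟨a0, ha0⟩ := hA0
  have hne : Nonempty {K : Set ℝ // K ⊆ A ∧ IsCompact K ∧ K.Nonempty} :=
    ⟨⟨{a0}, by simpa using ha0, isCompact_singleton, singleton_nonempty _⟩⟩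
  refine ⟨hne, le_antisymm ?_ (iSup_le fun K => measure_mono K.2.1)⟩
  rw [hA.measure_eq_iSup_isCompact]
  refine iSup_le fun K => iSup_le fun hK => iSup_le fun hKc => ?_
  refine le_trans ?_ (le_iSup _ (⟨K ∪ {a0}, union_subset hK (by simpa using ha0),
    hKc.union isCompact_singleton, ⟨a0, by simp⟩⟩ :
      {K : Set ℝ // K ⊆ A ∧ IsCompact K ∧ K.Nonempty}))
  exact measure_mono subset_union_left

/-- One-dimensional Brunn-Minkowski, measurable sets, midpoint form. -/
theorem bm_measurable {A B C : Set ℝ} (hA : MeasurableSet A) (hB : MeasurableSet B)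
    (hA0 : A.Nonempty) (hB0 : B.Nonempty)
    (H : ∀ a ∈ A, ∀ b ∈ B, (a + b) / 2 ∈ C) :
    volume A + volume B ≤ 2 * volume C := by
  obtain ⟨ne1, h1⟩ := volume_eq_iSup hA hA0
  obtain ⟨ne2, h2⟩ := volume_eq_iSup hB hB0
  rw [h1, h2]
  refine ENNReal.iSup_add_iSup_le fun K L => ?_
  exact bm_compact K.2.2.1 L.2.2.1 K.2.2.2 L.2.2.2
    fun a ha b hb => H a (K.2.1 ha) b (L.2.1 hb)

/-- Layer cake for `ℝ≥0∞`-valued functions, truncated at height one. -/
theorem layer {α : Type*} [MeasurableSpace α] (μ : Measure α) [SFinite μ] (φ : α → ℝ≥0∞)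
    (hφ : Measurable φ) :
    ∫⁻ t in Ioo (0 : ℝ) 1, μ {x | ENNReal.ofReal t < φ x} = ∫⁻ x, min (φ x) 1 ∂μ := by
  set f : α → ℝ := fun x => (min (φ x) 1).toReal with hf
  have hfm : Measurable f := ((hφ.min measurable_const).ennreal_toReal)
  have hf0 : (0 : α → ℝ) ≤ᵐ[μ] f := Eventually.of_forall fun x => ENNReal.toReal_nonneg
  have hne : ∀ x, min (φ x) 1 ≠ ⊤ := fun x =>
    ne_top_of_le_ne_top ENNReal.one_ne_top (min_le_right _ _)
  have hL : ∫⁻ x, min (φ x) 1 ∂μ = ∫⁻ x, ENNReal.ofReal (f x) ∂μ := by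
    refine lintegral_congr fun x => ?_
    simp only [hf]
    rw [ENNReal.ofReal_toReal (hne x)]
  rw [hL, lintegral_eq_lintegral_meas_lt μ hf0 hfm.aemeasurable]
  have hsplit : Ioi (0 : ℝ) = Ioo 0 1 ∪ Ici 1 := by
    ext t
    simp only [mem_Ioi, mem_union, mem_Ioo, mem_Ici]
    constructor
    · intro h
      by_cases h1 : t < 1
      · exact Or.inl ⟨h, h1⟩
      · exact Or.inr (not_lt.mp h1)
    · rintro (h | h)
      · exact h.1
      · linarith
  have hzero : ∫⁻ t in Ici (1 : ℝ), μ {a | t < f a} = 0 := by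
    have : ∀ t ∈ Ici (1 : ℝ), μ {a | t < f a} = 0 := by
      intro t ht
      have hemp : {a | t < f a} = ∅ := by
        ext a
        simp only [mem_ofPred_eq, mem_empty_iff_false, iff_false, not_lt]
        have h1 : f a ≤ 1 := by
          have := ENNReal.toReal_mono ENNReal.one_ne_top (min_le_right (φ a) 1)
          simpa [hf] using this
        exact h1.trans ht
      rw [hemp, measure_empty]
    rw [setLIntegral_congr_fun measurableSet_Ici this]
    simp
  have hdisj : Disjoint (Ioo (0 : ℝ) 1) (Ici 1) := by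
    rw [Set.disjoint_left]
    intro t ht ht'
    exact absurd ht.2 (not_lt.mpr ht')
  rw [hsplit, lintegral_union measurableSet_Ici hdisj, hzero, add_zero]
  refine setLIntegral_congr_fun measurableSet_Ioo fun t ht => ?_
  congr 1
  ext x
  simp only [mem_ofPred_eq, hf]
  have ht0 : 0 ≤ t := ht.1.le
  rw [← ENNReal.ofReal_lt_iff_lt_toReal ht0 (hne x)]
  constructor
  · intro h
    exact lt_min h (by
      rw [← ENNReal.ofReal_one]
      exact (ENNReal.ofReal_lt_ofReal_iff one_pos).mpr ht.2)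
  · intro h
    exact lt_of_lt_of_le h (min_le_left _ _)

/-- `x ↦ μ {φ > ofReal x}` is antitone, hence measurable. -/
theorem measurable_meas {α : Type*} [MeasurableSpace α] (μ : Measure α) (φ : α → ℝ≥0∞) :
    Measurable fun t : ℝ => μ {x | ENNReal.ofReal t < φ x} := by
  apply Antitone.measurable
  intro s t hst
  apply measure_mono
  intro x hx
  exact lt_of_le_of_lt (ENNReal.ofReal_le_ofReal hst) hx

/-- One-dimensional Prekopa-Leindler in the additive form, normalised functions. -/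
theorem pl_normalised {f g h : ℝ → ℝ≥0∞} (hf : Measurable f) (hg : Measurable g) (hh : Measurable h)
    (hf1 : ∀ x, f x ≤ 1) (hg1 : ∀ x, g x ≤ 1)
    (hfs : ∀ t, t < 1 → ∃ x, t < f x) (hgs : ∀ t, t < 1 → ∃ x, t < g x)
    (H : ∀ x y, f x * g y ≤ h ((x + y) / 2) ^ 2) :
    (∫⁻ x, f x) + (∫⁻ x, g x) ≤ 2 * ∫⁻ x, h x := by
  have ef : ∫⁻ x, f x = ∫⁻ t in Ioo (0 : ℝ) 1, volume {x | ENNReal.ofReal t < f x} := by
    rw [layer volume f hf]
    exact lintegral_congr fun x => (min_eq_left (hf1 x)).symm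
  have eg : ∫⁻ x, g x = ∫⁻ t in Ioo (0 : ℝ) 1, volume {x | ENNReal.ofReal t < g x} := by
    rw [layer volume g hg]
    exact lintegral_congr fun x => (min_eq_left (hg1 x)).symm
  have eh : ∫⁻ t in Ioo (0 : ℝ) 1, volume {x | ENNReal.ofReal t < h x} ≤ ∫⁻ x, h x := by
    rw [layer volume h hh]
    exact lintegral_mono fun x => min_le_left _ _
  have key : ∀ t ∈ Ioo (0 : ℝ) 1, volume {x | ENNReal.ofReal t < f x} + volume {x | ENNReal.ofReal t < g x}
      ≤ 2 * volume {x | ENNReal.ofReal t < h x} := by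
    intro t ht
    have hs1 : ENNReal.ofReal t < 1 := by
      rw [← ENNReal.ofReal_one]
      exact (ENNReal.ofReal_lt_ofReal_iff one_pos).mpr ht.2
    refine bm_measurable (measurableSet_lt measurable_const hf) (measurableSet_lt measurable_const hg)
      (hfs _ hs1) (hgs _ hs1) ?_
    intro a ha b hb
    simp only [mem_ofPred_eq] at ha hb ⊢
    by_contra hcon
    have hle : h ((a + b) / 2) ≤ ENNReal.ofReal t := not_lt.mp hcon
    have h1 : ENNReal.ofReal t * ENNReal.ofReal t < f a * g b := ENNReal.mul_lt_mul ha hb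
    have h2 : h ((a + b) / 2) ^ 2 ≤ ENNReal.ofReal t * ENNReal.ofReal t := by
      rw [sq]
      exact mul_le_mul' hle hle
    exact absurd (lt_of_lt_of_le h1 ((H a b).trans h2)) (lt_irrefl _)
  rw [ef, eg, ← lintegral_add_left (measurable_meas volume f)]
  calc ∫⁻ t in Ioo (0 : ℝ) 1, (volume {x | ENNReal.ofReal t < f x} + volume {x | ENNReal.ofReal t < g x})
      ≤ ∫⁻ t in Ioo (0 : ℝ) 1, 2 * volume {x | ENNReal.ofReal t < h x} :=
        setLIntegral_mono' measurableSet_Ioo key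
    _ = 2 * ∫⁻ t in Ioo (0 : ℝ) 1, volume {x | ENNReal.ofReal t < h x} :=
        lintegral_const_mul _ (measurable_meas volume h)
    _ ≤ 2 * ∫⁻ x, h x := mul_le_mul' le_rfl eh

/-- AM-GM in `ℝ≥0∞`. -/
theorem am_gm (a b e : ℝ≥0∞) (H : a + b ≤ 2 * e) : a * b ≤ e ^ 2 := by
  by_cases he : e = ⊤
  · subst he; simp
  have h2e : 2 * e ≠ ⊤ := ENNReal.mul_ne_top (by simp) he
  have ha : a ≠ ⊤ := ne_top_of_le_ne_top h2e (le_trans le_self_add H)
  have hb : b ≠ ⊤ := ne_top_of_le_ne_top h2e (le_trans le_add_self H)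
  lift a to ℝ≥0 using ha
  lift b to ℝ≥0 using hb
  lift e to ℝ≥0 using he
  norm_cast at H ⊢
  have H' : (a : ℝ) + b ≤ 2 * e := by exact_mod_cast H
  have : (a : ℝ) * b ≤ (e : ℝ) ^ 2 := by
    nlinarith [sq_nonneg ((a : ℝ) - b), NNReal.coe_nonneg a, NNReal.coe_nonneg b, NNReal.coe_nonneg e]
  exact_mod_cast this

/-- One-dimensional Prekopa-Leindler for functions with finite supremum. -/
theorem pl_bounded {f g h : ℝ → ℝ≥0∞} (hf : Measurable f) (hg : Measurable g) (hh : Measurable h)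
    (hfb : (⨆ x, f x) ≠ ⊤) (hgb : (⨆ x, g x) ≠ ⊤)
    (H : ∀ x y, f x * g y ≤ h ((x + y) / 2) ^ 2) :
    (∫⁻ x, f x) * (∫⁻ x, g x) ≤ (∫⁻ x, h x) ^ 2 := by
  set F := ⨆ x, f x with hF
  set G := ⨆ x, g x with hG
  by_cases hF0 : F = 0
  · have : ∀ x, f x = 0 := fun x => le_antisymm (hF0 ▸ le_iSup f x) bot_le
    simp [this]
  by_cases hG0 : G = 0
  · have : ∀ x, g x = 0 := fun x => le_antisymm (hG0 ▸ le_iSup g x) bot_le
    simp [this]
  set c : ℝ≥0∞ := (F * G) ^ (1 / 2 : ℝ) with hc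
  have hFG0 : F * G ≠ 0 := mul_ne_zero hF0 hG0
  have hFGt : F * G ≠ ⊤ := ENNReal.mul_ne_top hfb hgb
  have hc2 : c ^ 2 = F * G := by
    rw [hc, ← ENNReal.rpow_natCast, ← ENNReal.rpow_mul]
    norm_num
  have hc0 : c ≠ 0 := by
    intro h0
    rw [h0] at hc2
    exact hFG0 (by simpa using hc2.symm)
  have hct : c ≠ ⊤ := by
    intro h0
    rw [h0] at hc2
    exact hFGt (by simpa using hc2.symm)
  have hsup : ∀ {φ : ℝ → ℝ≥0∞}, (⨆ x, φ x) ≠ 0 → (⨆ x, φ x) ≠ ⊤ → ∀ t, t < 1 →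
      ∃ x, t < (⨆ x, φ x)⁻¹ * φ x := by
    intro φ h0 ht t ht1
    set P := ⨆ x, φ x with hP
    have hlt : t * P < P := by
      calc t * P < 1 * P := (ENNReal.mul_lt_mul_iff_left h0 ht).mpr ht1
        _ = P := one_mul P
    obtain ⟨x, hx⟩ := lt_iSup_iff.mp hlt
    refine ⟨x, ?_⟩
    rw [mul_comm, ← div_eq_mul_inv, ENNReal.lt_div_iff_mul_lt (Or.inl h0) (Or.inl ht)]
    exact hx
  have hle1 : ∀ {φ : ℝ → ℝ≥0∞}, (⨆ x, φ x) ≠ 0 → (⨆ x, φ x) ≠ ⊤ → ∀ x,
      (⨆ x, φ x)⁻¹ * φ x ≤ 1 := by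
    intro φ h0 ht x
    calc (⨆ x, φ x)⁻¹ * φ x ≤ (⨆ x, φ x)⁻¹ * (⨆ x, φ x) := mul_le_mul' le_rfl (le_iSup φ x)
      _ = 1 := ENNReal.inv_mul_cancel h0 ht
  have main := pl_normalised (f := fun x => F⁻¹ * f x) (g := fun x => G⁻¹ * g x)
    (h := fun x => c⁻¹ * h x) (hf.const_mul _) (hg.const_mul _) (hh.const_mul _)
    (hle1 hF0 hfb) (hle1 hG0 hgb) (hsup hF0 hfb) (hsup hG0 hgb) (by
      intro x y
      have e1 : (F⁻¹ * f x) * (G⁻¹ * g y) = (F * G)⁻¹ * (f x * g y) := by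
        rw [ENNReal.mul_inv (Or.inl hF0) (Or.inr hG0)]
        ring
      have e2 : (c⁻¹ * h ((x + y) / 2)) ^ 2 = (F * G)⁻¹ * h ((x + y) / 2) ^ 2 := by
        rw [mul_pow, ← hc2, ENNReal.inv_pow]
      rw [e1, e2]
      exact mul_le_mul' le_rfl (H x y))
  rw [lintegral_const_mul _ hf, lintegral_const_mul _ hg, lintegral_const_mul _ hh] at main
  have hab := am_gm _ _ _ main
  have e3 : (∫⁻ x, f x) = F * (F⁻¹ * ∫⁻ x, f x) := by
    rw [← mul_assoc, ENNReal.mul_inv_cancel hF0 hfb, one_mul]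
  have e4 : (∫⁻ x, g x) = G * (G⁻¹ * ∫⁻ x, g x) := by
    rw [← mul_assoc, ENNReal.mul_inv_cancel hG0 hgb, one_mul]
  have e5 : (∫⁻ x, h x) = c * (c⁻¹ * ∫⁻ x, h x) := by
    rw [← mul_assoc, ENNReal.mul_inv_cancel hc0 hct, one_mul]
  rw [e3, e4, e5, mul_pow, hc2]
  calc F * (F⁻¹ * ∫⁻ x, f x) * (G * (G⁻¹ * ∫⁻ x, g x))
      = (F * G) * ((F⁻¹ * ∫⁻ x, f x) * (G⁻¹ * ∫⁻ x, g x)) := by ring
    _ ≤ _ := mul_le_mul' le_rfl hab

theorem min_nat_iSup (a : ℝ≥0∞) : (⨆ n : ℕ, min a (n : ℝ≥0∞)) = a := by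
  apply le_antisymm (iSup_le fun n => min_le_left _ _)
  by_cases ha : a = ⊤
  · subst ha
    simp [ENNReal.iSup_natCast]
  · obtain ⟨n, hn⟩ := ENNReal.exists_nat_gt ha
    refine le_trans ?_ (le_iSup _ n)
    exact le_min le_rfl hn.le

/-- One-dimensional Prekopa-Leindler. -/
theorem pl_one {f g h : ℝ → ℝ≥0∞} (hf : Measurable f) (hg : Measurable g) (hh : Measurable h)
    (H : ∀ x y, f x * g y ≤ h ((x + y) / 2) ^ 2) :
    (∫⁻ x, f x) * (∫⁻ x, g x) ≤ (∫⁻ x, h x) ^ 2 := by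
  set fn : ℕ → ℝ → ℝ≥0∞ := fun n x => min (f x) n with hfn
  set gn : ℕ → ℝ → ℝ≥0∞ := fun n x => min (g x) n with hgn
  have hfnm : ∀ n, Measurable (fn n) := fun n => hf.min measurable_const
  have hgnm : ∀ n, Measurable (gn n) := fun n => hg.min measurable_const
  have hfmono : Monotone fn := fun m n hmn x =>
    min_le_min le_rfl (by exact_mod_cast hmn)
  have hgmono : Monotone gn := fun m n hmn x =>
    min_le_min le_rfl (by exact_mod_cast hmn)
  have hfsup : ∀ x, (⨆ n, fn n x) = f x := by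
    intro x
    exact min_nat_iSup (f x)
  have hgsup : ∀ x, (⨆ n, gn n x) = g x := fun x => min_nat_iSup (g x)
  have ifn : (∫⁻ x, f x) = ⨆ n, ∫⁻ x, fn n x := by
    simp_rw [← hfsup]
    exact lintegral_iSup hfnm hfmono
  have ign : (∫⁻ x, g x) = ⨆ n, ∫⁻ x, gn n x := by
    simp_rw [← hgsup]
    exact lintegral_iSup hgnm hgmono
  have hnn : ∀ n, (∫⁻ x, fn n x) * (∫⁻ x, gn n x) ≤ (∫⁻ x, h x) ^ 2 := by
    intro n
    refine pl_bounded (hfnm n) (hgnm n) hh ?_ ?_ ?_
    · exact ne_top_of_le_ne_top (ENNReal.natCast_ne_top n) (iSup_le fun x => min_le_right _ _)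
    · exact ne_top_of_le_ne_top (ENNReal.natCast_ne_top n) (iSup_le fun x => min_le_right _ _)
    · intro x y
      exact (mul_le_mul' (min_le_left _ _) (min_le_left _ _)).trans (H x y)
  rw [ifn, ign, ENNReal.iSup_mul]
  refine iSup_le fun n => ?_
  rw [ENNReal.mul_iSup]
  refine iSup_le fun m => ?_
  refine le_trans (mul_le_mul' ?_ ?_) (hnn (max n m))
  · exact lintegral_mono (hfmono (le_max_left n m))
  · exact lintegral_mono (hgmono (le_max_right n m))

/-- Prekopa-Leindler on `Fin n → ℝ`. -/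
theorem pl_pi (n : ℕ) : ∀ (f g h : (Fin n → ℝ) → ℝ≥0∞), Measurable f → Measurable g → Measurable h →
    (∀ x y, f x * g y ≤ h ((1 / 2 : ℝ) • (x + y)) ^ 2) →
    (∫⁻ x, f x) * (∫⁻ x, g x) ≤ (∫⁻ x, h x) ^ 2 := by
  induction n with
  | zero =>
    intro f g h hf hg hh H
    have hv : (volume : Measure (Fin 0 → ℝ)) = Measure.dirac 0 := MeasureTheory.Measure.volume_pi_eq_dirac 0
    rw [hv, lintegral_dirac' _ hf, lintegral_dirac' _ hg, lintegral_dirac' _ hh]
    have := H 0 0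
    simpa using this
  | succ n ih =>
    intro f g h hf hg hh H
    set e := MeasurableEquiv.piFinSuccAbove (fun _ : Fin (n + 1) => ℝ) 0 with he
    have hmp : MeasurePreserving e.symm volume volume :=
      (volume_preserving_piFinSuccAbove (fun _ : Fin (n + 1) => ℝ) 0).symm
    have hint : ∀ φ : (Fin (n + 1) → ℝ) → ℝ≥0∞, Measurable φ →
        ∫⁻ x, φ x = ∫⁻ s : ℝ, ∫⁻ x : Fin n → ℝ, φ (e.symm (s, x)) := by
      intro φ hφ
      have h1 := hmp.lintegral_comp hφ
      rw [← h1, MeasureTheory.Measure.volume_eq_prod, lintegral_prod (fun a => φ (e.symm a)) (hφ.comp e.symm.measurable).aemeasurable]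
    have hmeas : ∀ φ : (Fin (n + 1) → ℝ) → ℝ≥0∞, Measurable φ →
        Measurable fun s : ℝ => ∫⁻ x : Fin n → ℝ, φ (e.symm (s, x)) := by
      intro φ hφ
      exact (hφ.comp e.symm.measurable).lintegral_prod_right'
    rw [hint f hf, hint g hg, hint h hh]
    refine pl_one (hmeas f hf) (hmeas g hg) (hmeas h hh) ?_
    intro s t
    refine ih _ _ _ (hf.comp (e.symm.measurable.comp measurable_prodMk_left))
      (hg.comp (e.symm.measurable.comp measurable_prodMk_left))
      (hh.comp (e.symm.measurable.comp measurable_prodMk_left)) ?_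
    intro x y
    have hmid : e.symm ((s + t) / 2, (1 / 2 : ℝ) • (x + y)) = (1 / 2 : ℝ) • (e.symm (s, x) + e.symm (t, y)) := by
      funext i
      refine Fin.cases ?_ (fun j => ?_) i
      · simp [he, MeasurableEquiv.piFinSuccAbove]
        ring
      · simp [he, MeasurableEquiv.piFinSuccAbove]
        ring
    rw [hmid]
    exact H _ _

end PL

/-- Prekopa-Leindler, midpoint form, Lebesgue measure on `EE d`. -/
theorem prekopa_leindler {d : ℕ} (f g h : EE d → ℝ≥0∞) (hf : Measurable f) (hg : Measurable g)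
    (hh : Measurable h) (H : ∀ x y, f x * g y ≤ h ((1 / 2 : ℝ) • (x + y)) ^ 2) :
    (∫⁻ x, f x) * (∫⁻ x, g x) ≤ (∫⁻ x, h x) ^ 2 := by
  have hmp := PiLp.volume_preserving_toLp (Fin d)
  have hint : ∀ φ : EE d → ℝ≥0∞, Measurable φ →
      ∫⁻ x, φ x = ∫⁻ v : Fin d → ℝ, φ (WithLp.toLp 2 v) := by
    intro φ hφ
    exact (hmp.lintegral_comp hφ).symm
  rw [hint f hf, hint g hg, hint h hh]
  refine PL.pl_pi d _ _ _ (hf.comp hmp.measurable) (hg.comp hmp.measurable) (hh.comp hmp.measurable) ?_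
  intro x y
  have := H (WithLp.toLp 2 x) (WithLp.toLp 2 y)
  simpa using this

end Crest.Agent.Lib.OTStab
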