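/-
T3 of S0109: the key inequality, from Prekopa-Leindler with a strongly log-concave weight.
-/
import Crest.Agent.Lib.OTStab.Semi
import Crest.Agent.Lib.OTStab.Prekopa

set_option autoImplicit false

open MeasureTheory Set
open scoped ENNReal NNReal RealInnerProductSpace

namespace Crest.Agent.Lib.OTStab

variable {d : ℕ}

/-- PL in exponential form for sets. -/
lemma pl_exp {A B C : Set (EE d)} (hA : MeasurableSet A) (hB : MeasurableSet B)
    (hC : MeasurableSet C) {f g h : EE d → ℝ} (hf : Measurable f) (hg : Measurable g)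
    (hh : Measurable h)
    (iA : IntegrableOn (fun x => Real.exp (f x)) A) (iB : IntegrableOn (fun x => Real.exp (g x)) B)
    (iC : IntegrableOn (fun x => Real.exp (h x)) C)
    (H : ∀ x ∈ A, ∀ y ∈ B, (1 / 2 : ℝ) • (x + y) ∈ C ∧ f x + g y ≤ 2 * h ((1 / 2 : ℝ) • (x + y))) :
    (∫ x in A, Real.exp (f x)) * (∫ x in B, Real.exp (g x)) ≤ (∫ x in C, Real.exp (h x)) ^ 2 := by
  classical
  have key := prekopa_leindler
    (A.indicator (fun x => ENNReal.ofReal (Real.exp (f x))))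
    (B.indicator (fun x => ENNReal.ofReal (Real.exp (g x))))
    (C.indicator (fun x => ENNReal.ofReal (Real.exp (h x))))
    ((Real.measurable_exp.comp hf).ennreal_ofReal.indicator hA)
    ((Real.measurable_exp.comp hg).ennreal_ofReal.indicator hB)
    ((Real.measurable_exp.comp hh).ennreal_ofReal.indicator hC)
    (by
      intro x y
      by_cases hx : x ∈ A
      · by_cases hy : y ∈ B
        · obtain ⟨hm, hle⟩ := H x hx y hy
          rw [indicator_of_mem hx, indicator_of_mem hy, indicator_of_mem hm,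
            ← ENNReal.ofReal_mul (Real.exp_pos _).le, ← ENNReal.ofReal_pow (Real.exp_pos _).le,
            ← Real.exp_add, ← Real.exp_nat_mul]
          apply ENNReal.ofReal_le_ofReal
          apply Real.exp_le_exp.mpr
          push_cast
          linarith
        · simp [indicator_of_notMem hy]
      · simp [indicator_of_notMem hx])
  simp only [lintegral_indicator hA, lintegral_indicator hB, lintegral_indicator hC] at key
  rw [← ofReal_integral_eq_lintegral_ofReal iA (Filter.Eventually.of_forall fun _ => (Real.exp_pos _).le),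
    ← ofReal_integral_eq_lintegral_ofReal iB (Filter.Eventually.of_forall fun _ => (Real.exp_pos _).le),
    ← ofReal_integral_eq_lintegral_ofReal iC (Filter.Eventually.of_forall fun _ => (Real.exp_pos _).le)]
    at key
  have nA : 0 ≤ ∫ x in A, Real.exp (f x) := integral_nonneg fun _ => (Real.exp_pos _).le
  have nB : 0 ≤ ∫ x in B, Real.exp (g x) := integral_nonneg fun _ => (Real.exp_pos _).le
  have nC : 0 ≤ ∫ x in C, Real.exp (h x) := integral_nonneg fun _ => (Real.exp_pos _).le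
  rw [← ENNReal.ofReal_mul nA, ← ENNReal.ofReal_pow nC] at key
  exact (ENNReal.ofReal_le_ofReal_iff (by positivity)).mp key

lemma setIntegral_rho_of_subset {K A : Set (EE d)} (hA : MeasurableSet A) (hAK : A ⊆ K)
    (f : EE d → ℝ) :
    ∫ x in A, f x ∂(rho K) = (volume K).toReal⁻¹ * ∫ x in A, f x := by
  unfold rho Crest.AnalysisR.OT.uniformProbOn
  rw [Measure.restrict_smul, integral_smul_measure, Measure.restrict_restrict hA,
    inter_eq_left.mpr hAK, ENNReal.toReal_inv, smul_eq_mul]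

/-- The quadratic weight, with `κ = 64 R²`. -/
noncomputable def Vw (c : EE d) (R : ℝ) (x : EE d) : ℝ := ‖x - c‖ ^ 2 / (128 * R ^ 2)

lemma continuous_Vw (c : EE d) (R : ℝ) : Continuous (Vw c R) := by
  unfold Vw; fun_prop

lemma Vw_add {R : ℝ} (hR0 : 0 < R) (c x y : EE d) :
    Vw c R x + Vw c R y = 2 * Vw c R ((1 / 2 : ℝ) • (x + y)) + ‖x - y‖ ^ 2 / (256 * R ^ 2) := by
  have h1 : (1 / 2 : ℝ) • (x + y) - c = (1 / 2 : ℝ) • ((x - c) + (y - c)) := by
    rw [smul_add, smul_add, smul_sub, smul_sub]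
    have : (1 / 2 : ℝ) • c + (1 / 2 : ℝ) • c = c := by
      rw [← add_smul]; norm_num
    rw [sub_add_sub_comm, this]
  have h2 : x - y = (x - c) - (y - c) := by abel
  have par := parallelogram_law_with_norm ℝ (x - c) (y - c)
  unfold Vw
  rw [h1, h2, norm_smul]
  have hne : R ^ 2 ≠ 0 := by positivity
  field_simp
  simp only [Real.norm_eq_abs] at *
  nlinarith [par]

lemma Vw_nonneg (c : EE d) (R : ℝ) (x : EE d) : 0 ≤ Vw c R x := by
  unfold Vw; positivity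

lemma Vw_le {c : EE d} {R : ℝ} (hR0 : 0 < R) {x : EE d} (hx : ‖x - c‖ ≤ R) : Vw c R x ≤ 1 / 128 := by
  unfold Vw
  have : ‖x - c‖ ^ 2 ≤ R ^ 2 := by
    have := norm_nonneg (x - c); nlinarith
  rw [div_le_iff₀ (by positivity)]
  linarith

/-- bounded and measurable implies integrable on `K` for `rho K` (restricted version) -/
lemma intOn_of_bound {K : Set (EE d)} (hK : Body K) {f : EE d → ℝ} (hf : Measurable f) {M : ℝ}
    (hM : ∀ x ∈ K, |f x| ≤ M) (S : Set (EE d)) : IntegrableOn f S (rho K) :=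
  (integrable_of_bound_on hK hf.aestronglyMeasurable M hM).integrableOn

lemma measurable_expVw (c : EE d) (R : ℝ) : Measurable (fun x => Real.exp (- Vw c R x)) :=
  Real.measurable_exp.comp (continuous_Vw c R).measurable.neg

lemma expVw_le_one (c : EE d) (R : ℝ) (x : EE d) : Real.exp (- Vw c R x) ≤ 1 := by
  rw [Real.exp_le_one_iff]; linarith [Vw_nonneg c R x]

lemma intOn_expVw {K : Set (EE d)} (hK : Body K) (c : EE d) (R : ℝ) (S : Set (EE d)) :
    IntegrableOn (fun x => Real.exp (- Vw c R x)) S (rho K) :=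
  intOn_of_bound hK (measurable_expVw c R) (M := 1) (fun x _ => by
    rw [abs_of_pos (Real.exp_pos _)]; exact expVw_le_one c R x) S

lemma intOn_mul_expVw {K : Set (EE d)} (hK : Body K) (c : EE d) (R : ℝ) {l : EE d → ℝ}
    (hlm : Measurable l) {M : ℝ} (hM : ∀ x ∈ K, |l x| ≤ M) (S : Set (EE d)) :
    IntegrableOn (fun x => l x * Real.exp (- Vw c R x)) S (rho K) :=
  intOn_of_bound hK (hlm.mul (measurable_expVw c R)) (M := M) (fun x hx => by
    simp only [Pi.mul_apply]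
    rw [abs_mul, abs_of_pos (Real.exp_pos _)]
    have := hM x hx
    have h1 := expVw_le_one c R x
    have h2 := Real.exp_pos (- Vw c R x)
    nlinarith [abs_nonneg (l x)]) S

lemma measurable_tilt (c : EE d) (R s : ℝ) {l : EE d → ℝ} (hlm : Measurable l) :
    Measurable (fun x => Real.exp (s * l x - Vw c R x)) :=
  Real.measurable_exp.comp ((hlm.const_mul s).sub (continuous_Vw c R).measurable)

lemma tilt_bound (c : EE d) (R s : ℝ) {l : EE d → ℝ} {M : ℝ} {x : EE d} (hx : |l x| ≤ M) :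
    Real.exp (s * l x - Vw c R x) ≤ Real.exp (|s| * M) := by
  apply Real.exp_le_exp.mpr
  have h1 : s * l x ≤ |s| * M := by
    calc s * l x ≤ |s * l x| := le_abs_self _
      _ = |s| * |l x| := abs_mul _ _
      _ ≤ |s| * M := mul_le_mul_of_nonneg_left hx (abs_nonneg _)
  linarith [Vw_nonneg c R x]

lemma jensen_tilt {K : Set (EE d)} (hK : Body K) {c : EE d} {R : ℝ}
    {S : Set (EE d)}
    {l : EE d → ℝ} (hlm : Measurable l) {M : ℝ} (hM : ∀ x ∈ K, |l x| ≤ M)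
    (hS : 0 < ∫ x in S, Real.exp (- Vw c R x) ∂(rho K)) (s : ℝ) :
    (∫ x in S, Real.exp (- Vw c R x) ∂(rho K)) *
        Real.exp (s * ((∫ x in S, l x * Real.exp (- Vw c R x) ∂(rho K)) /
          (∫ x in S, Real.exp (- Vw c R x) ∂(rho K))))
      ≤ ∫ x in S, Real.exp (s * l x - Vw c R x) ∂(rho K) := by
  set A₀ := ∫ x in S, Real.exp (- Vw c R x) ∂(rho K) with hA₀
  set I := ∫ x in S, l x * Real.exp (- Vw c R x) ∂(rho K) with hI
  set s₀ := s * (I / A₀) with hs₀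
  have iE := intOn_expVw hK c R S
  have ilE := intOn_mul_expVw hK c R hlm hM S
  have iT : IntegrableOn (fun x => Real.exp (s * l x - Vw c R x)) S (rho K) :=
    intOn_of_bound hK (measurable_tilt c R s hlm) (M := Real.exp (|s| * M)) (fun x hx => by
      rw [abs_of_pos (Real.exp_pos _)]; exact tilt_bound c R s (hM x hx)) S
  have hpt : ∀ x, Real.exp s₀ * ((1 - s₀) * Real.exp (- Vw c R x)
      + s * (l x * Real.exp (- Vw c R x))) ≤ Real.exp (s * l x - Vw c R x) := by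
    intro x
    have h1 : Real.exp (s * l x - Vw c R x)
        = Real.exp s₀ * (Real.exp (s * l x - s₀) * Real.exp (- Vw c R x)) := by
      rw [← Real.exp_add, ← Real.exp_add]; congr 1; ring
    rw [h1]
    apply mul_le_mul_of_nonneg_left _ (Real.exp_pos _).le
    have h2 := Real.add_one_le_exp (s * l x - s₀)
    have h3 := Real.exp_pos (- Vw c R x)
    nlinarith
  have hint : Real.exp s₀ * ((1 - s₀) * A₀ + s * I)
      ≤ ∫ x in S, Real.exp (s * l x - Vw c R x) ∂(rho K) := by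
    have : ∫ x in S, Real.exp s₀ * ((1 - s₀) * Real.exp (- Vw c R x)
        + s * (l x * Real.exp (- Vw c R x))) ∂(rho K) = Real.exp s₀ * ((1 - s₀) * A₀ + s * I) := by
      rw [integral_const_mul, integral_add (iE.const_mul _) (ilE.const_mul _),
        integral_const_mul, integral_const_mul]
    rw [← this]
    exact integral_mono (((iE.const_mul _).add (ilE.const_mul _)).const_mul _) iT hpt
  have hA₀ne : A₀ ≠ 0 := hS.ne'
  have : (1 - s₀) * A₀ + s * I = A₀ := by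
    rw [hs₀]; field_simp; ring
  rw [this] at hint
  linarith [mul_comm A₀ (Real.exp s₀)]

/-- Prekopa-Leindler test-function lemma (Lemma L of the blueprint). -/
lemma L_test {K : Set (EE d)} (hK : Body K) {c : EE d} {R : ℝ} (hR0 : 0 < R)
    (hR : ∀ x ∈ K, ‖x - c‖ ≤ R)
    {A B C : Set (EE d)} (hA : MeasurableSet A) (hB : MeasurableSet B) (hC : MeasurableSet C)
    (hAK : A ⊆ K) (hBK : B ⊆ K) (hCK : C ⊆ K)
    (hmid : ∀ x ∈ A, ∀ y ∈ B, (1 / 2 : ℝ) • (x + y) ∈ C)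
    {l : EE d → ℝ} (hlm : Measurable l) {Lip : ℝ} (hLip : 0 < Lip)
    (hl : ∀ x ∈ K, ∀ x' ∈ K, |l x - l x'| ≤ Lip * ‖x - x'‖)
    {M : ℝ} (hM : ∀ x ∈ K, |l x| ≤ M)
    (ha : 0 < ∫ x in A, Real.exp (- Vw c R x) ∂(rho K))
    (hb : 0 < ∫ x in B, Real.exp (- Vw c R x) ∂(rho K)) :
    Real.sqrt ((∫ x in A, Real.exp (- Vw c R x) ∂(rho K)) * (∫ x in B, Real.exp (- Vw c R x) ∂(rho K)))
        ≤ ∫ x in C, Real.exp (- Vw c R x) ∂(rho K) ∧
    ((∫ x in A, l x * Real.exp (- Vw c R x) ∂(rho K)) / (∫ x in A, Real.exp (- Vw c R x) ∂(rho K))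
        - (∫ x in B, l x * Real.exp (- Vw c R x) ∂(rho K)) / (∫ x in B, Real.exp (- Vw c R x) ∂(rho K))) ^ 2
      ≤ 8 * (64 * R ^ 2) * Lip ^ 2 * Real.log ((∫ x in C, Real.exp (- Vw c R x) ∂(rho K)) /
          Real.sqrt ((∫ x in A, Real.exp (- Vw c R x) ∂(rho K)) * (∫ x in B, Real.exp (- Vw c R x) ∂(rho K)))) := by
  set a := ∫ x in A, Real.exp (- Vw c R x) ∂(rho K) with ha_def
  set b := ∫ x in B, Real.exp (- Vw c R x) ∂(rho K) with hb_def
  set c0 := ∫ x in C, Real.exp (- Vw c R x) ∂(rho K) with hc_def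
  set Ia := ∫ x in A, l x * Real.exp (- Vw c R x) ∂(rho K) with hIa
  set Ib := ∫ x in B, l x * Real.exp (- Vw c R x) ∂(rho K) with hIb
  set κ : ℝ := 64 * R ^ 2 with hκ
  have hκ0 : 0 < κ := by positivity
  have hKfin : volume K ≠ ∞ := hK.compact.measure_lt_top.ne
  -- the tilted PL at parameter t
  have hPL : ∀ t : ℝ, (∫ x in A, Real.exp (t * l x - Vw c R x) ∂(rho K)) *
      (∫ x in B, Real.exp ((-t) * l x - Vw c R x) ∂(rho K))
      ≤ (Real.exp (κ * t ^ 2 * Lip ^ 2 / 2) * c0) ^ 2 := by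
    intro t
    have hfin : ∀ {S : Set (EE d)}, S ⊆ K → volume S ≠ ∞ := fun hS =>
      (lt_of_le_of_lt (measure_mono hS) hK.compact.measure_lt_top).ne
    have ibdd : ∀ {S : Set (EE d)}, MeasurableSet S → S ⊆ K → ∀ (s : ℝ),
        IntegrableOn (fun x => Real.exp (s * l x - Vw c R x)) S := by
      intro S hS hSK s
      apply Measure.integrableOn_of_bounded (M := Real.exp (|s| * M)) (hfin hSK)
        (measurable_tilt c R s hlm).aestronglyMeasurable
      filter_upwards [ae_restrict_mem hS] with x hx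
      rw [Real.norm_eq_abs, abs_of_pos (Real.exp_pos _)]
      exact tilt_bound c R s (hM x (hSK hx))
    have iC : IntegrableOn (fun x => Real.exp (κ * t ^ 2 * Lip ^ 2 / 2 - Vw c R x)) C := by
      apply Measure.integrableOn_of_bounded (M := Real.exp (κ * t ^ 2 * Lip ^ 2 / 2)) (hfin hCK)
        (Real.measurable_exp.comp (measurable_const.sub (continuous_Vw c R).measurable)).aestronglyMeasurable
      filter_upwards with x
      show ‖Real.exp (κ * t ^ 2 * Lip ^ 2 / 2 - Vw c R x)‖ ≤ _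
      rw [Real.norm_eq_abs, abs_of_pos (Real.exp_pos _)]
      apply Real.exp_le_exp.mpr
      linarith [Vw_nonneg c R x]
    have key := pl_exp hA hB hC ((hlm.const_mul t).sub (continuous_Vw c R).measurable)
      ((hlm.const_mul (-t)).sub (continuous_Vw c R).measurable)
      (measurable_const.sub (continuous_Vw c R).measurable)
      (ibdd hA hAK t) (ibdd hB hBK (-t)) iC
      (fun x hx y hy => ⟨hmid x hx y hy, by
        have h1 := Vw_add hR0 c x y
        have h2 := hl x (hAK hx) y (hBK hy)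
        have h3 : t * l x + -t * l y ≤ |t| * (Lip * ‖x - y‖) := by
          have : t * l x + -t * l y = t * (l x - l y) := by ring
          rw [this]
          calc t * (l x - l y) ≤ |t * (l x - l y)| := le_abs_self _
            _ = |t| * |l x - l y| := abs_mul _ _
            _ ≤ _ := mul_le_mul_of_nonneg_left h2 (abs_nonneg _)
        have h4 : |t| * (Lip * ‖x - y‖) ≤ κ * t ^ 2 * Lip ^ 2 + ‖x - y‖ ^ 2 / (256 * R ^ 2) := by
          have hR2 : 0 < R ^ 2 := by positivity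
          have : ‖x - y‖ ^ 2 / (256 * R ^ 2) = (‖x - y‖ / (16 * R)) ^ 2 := by
            field_simp; ring
          rw [this, hκ]
          have h5 : κ * t ^ 2 * Lip ^ 2 = (8 * R * |t| * Lip) ^ 2 := by
            rw [hκ]; ring_nf; rw [sq_abs]; ring
          have h6 : |t| * (Lip * ‖x - y‖) = 2 * (8 * R * |t| * Lip) * (‖x - y‖ / (16 * R)) := by
            field_simp; ring
          rw [← hκ, h5, h6]
          nlinarith [sq_nonneg (8 * R * |t| * Lip - ‖x - y‖ / (16 * R))]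
        show t * l x - Vw c R x + (-t * l y - Vw c R y)
          ≤ 2 * (κ * t ^ 2 * Lip ^ 2 / 2 - Vw c R ((1 / 2 : ℝ) • (x + y)))
        linarith⟩)
    -- back to rho
    have hvol : (volume K).toReal⁻¹ ≥ 0 := by positivity
    rw [setIntegral_rho_of_subset hA hAK, setIntegral_rho_of_subset hB hBK]
    have hc1 : Real.exp (κ * t ^ 2 * Lip ^ 2 / 2) * c0
        = (volume K).toReal⁻¹ * ∫ x in C, Real.exp (κ * t ^ 2 * Lip ^ 2 / 2 - Vw c R x) := by
      rw [hc_def, setIntegral_rho_of_subset hC hCK]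
      have : ∀ x, Real.exp (κ * t ^ 2 * Lip ^ 2 / 2 - Vw c R x)
          = Real.exp (κ * t ^ 2 * Lip ^ 2 / 2) * Real.exp (- Vw c R x) := fun x => by
        rw [← Real.exp_add]; ring_nf
      simp_rw [this]
      rw [integral_const_mul]; ring
    rw [hc1]
    calc _ = ((volume K).toReal⁻¹) ^ 2 * ((∫ x in A, Real.exp (t * l x - Vw c R x)) *
          ∫ x in B, Real.exp (-t * l x - Vw c R x)) := by ring
      _ ≤ ((volume K).toReal⁻¹) ^ 2 * (∫ x in C, Real.exp (κ * t ^ 2 * Lip ^ 2 / 2 - Vw c R x)) ^ 2 :=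
          mul_le_mul_of_nonneg_left key (by positivity)
      _ = _ := by ring
  have hc0 : 0 ≤ c0 := integral_nonneg fun _ => (Real.exp_pos _).le
  set Δ := Ia / a - Ib / b with hΔ
  set t := Δ / (2 * κ * Lip ^ 2) with ht
  have hJa := jensen_tilt hK (c := c) (R := R) (S := A) hlm hM ha t
  have hJb := jensen_tilt hK (c := c) (R := R) (S := B) hlm hM hb (-t)
  have h1 : a * b * Real.exp (t * Δ) ≤ Real.exp (κ * t ^ 2 * Lip ^ 2) * c0 ^ 2 := by
    have h2 := hPL t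
    have h3 : (a * Real.exp (t * (Ia / a))) * (b * Real.exp (-t * (Ib / b)))
        ≤ (∫ x in A, Real.exp (t * l x - Vw c R x) ∂(rho K)) *
          (∫ x in B, Real.exp ((-t) * l x - Vw c R x) ∂(rho K)) :=
      mul_le_mul hJa hJb (by positivity) (le_trans (by positivity) hJa)
    have h4 : (a * Real.exp (t * (Ia / a))) * (b * Real.exp (-t * (Ib / b)))
        = a * b * Real.exp (t * Δ) := by
      rw [hΔ, mul_mul_mul_comm, ← Real.exp_add]; congr 2; ring
    have h5 : (Real.exp (κ * t ^ 2 * Lip ^ 2 / 2) * c0) ^ 2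
        = Real.exp (κ * t ^ 2 * Lip ^ 2) * c0 ^ 2 := by
      rw [mul_pow, ← Real.exp_nat_mul]; congr 2; push_cast; ring
    linarith
  have hLip2 : 0 < Lip ^ 2 := by positivity
  have hE0 : t * Δ - κ * t ^ 2 * Lip ^ 2 = Δ ^ 2 / (4 * κ * Lip ^ 2) := by
    rw [ht]; field_simp; ring
  have h6 : a * b * Real.exp (Δ ^ 2 / (4 * κ * Lip ^ 2)) ≤ c0 ^ 2 := by
    rw [← hE0, sub_eq_add_neg, Real.exp_add, Real.exp_neg]
    have hpos := Real.exp_pos (κ * t ^ 2 * Lip ^ 2)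
    have : a * b * (Real.exp (t * Δ) * (Real.exp (κ * t ^ 2 * Lip ^ 2))⁻¹)
        = (a * b * Real.exp (t * Δ)) / Real.exp (κ * t ^ 2 * Lip ^ 2) := by
      field_simp
    rw [this, div_le_iff₀ hpos]
    linarith
  have hab : 0 < a * b := mul_pos ha hb
  have hsq : 0 < Real.sqrt (a * b) := Real.sqrt_pos.mpr hab
  have h7 : Real.sqrt (a * b) * Real.exp (Δ ^ 2 / (8 * κ * Lip ^ 2)) ≤ c0 := by
    apply abs_le_of_sq_le_sq' _ hc0 |>.2
    rw [mul_pow, Real.sq_sqrt hab.le, ← Real.exp_nat_mul]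
    have : ((2 : ℕ) : ℝ) * (Δ ^ 2 / (8 * κ * Lip ^ 2)) = Δ ^ 2 / (4 * κ * Lip ^ 2) := by
      push_cast; field_simp; ring
    rw [this]; exact h6
  have h8 : Δ ^ 2 / (8 * κ * Lip ^ 2) ≤ Real.log (c0 / Real.sqrt (a * b)) := by
    rw [Real.le_log_iff_exp_le (div_pos (lt_of_lt_of_le (by positivity) h7) hsq), le_div_iff₀ hsq]
    linarith
  have hden : 0 < 8 * κ * Lip ^ 2 := by positivity
  rw [div_le_iff₀ hden] at h8
  refine ⟨?_, ?_⟩
  · have h9 := Real.one_le_exp (show 0 ≤ Δ ^ 2 / (8 * κ * Lip ^ 2) by positivity)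
    nlinarith
  calc Δ ^ 2 ≤ Real.log (c0 / Real.sqrt (a * b)) * (8 * κ * Lip ^ 2) := h8
    _ = _ := by ring

/-- the bound `exp(1/128) ≤ 1.01` -/
lemma exp_le_Lam : Real.exp (1 / 128 : ℝ) ≤ 1.01 := by
  have h := Real.add_one_le_exp (-(1 / 128 : ℝ))
  have h2 : Real.exp (1 / 128 : ℝ) = (Real.exp (-(1 / 128 : ℝ)))⁻¹ := by
    rw [Real.exp_neg, inv_inv]
  rw [h2]
  have h3 : (127 / 128 : ℝ) ≤ Real.exp (-(1 / 128 : ℝ)) := by linarith
  calc (Real.exp (-(1 / 128 : ℝ)))⁻¹ ≤ (127 / 128 : ℝ)⁻¹ := inv_anti₀ (by norm_num) h3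
    _ ≤ 1.01 := by norm_num

lemma abs_exp_sub_le {s s' S : ℝ} (hs : s ≤ S) (hs' : s' ≤ S) :
    |Real.exp s - Real.exp s'| ≤ Real.exp S * |s - s'| := by
  wlog h : s' ≤ s generalizing s s'
  · have := this hs' hs (le_of_not_ge h)
    rwa [abs_sub_comm, abs_sub_comm s s']
  rw [abs_of_nonneg (by linarith [Real.exp_le_exp.mpr h]), abs_of_nonneg (by linarith)]
  have h1 : Real.exp s' = Real.exp s * Real.exp (-(s - s')) := by
    rw [← Real.exp_add]; congr 1; ring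
  have h2 := Real.add_one_le_exp (-(s - s'))
  have h3 := Real.exp_pos s
  have h4 : Real.exp s ≤ Real.exp S := Real.exp_le_exp.mpr hs
  have h5 : 0 ≤ s - s' := by linarith
  rw [h1]
  nlinarith [mul_nonneg h3.le h5, mul_le_mul_of_nonneg_right h4 h5]

lemma abs_Vw_sub_le {K : Set (EE d)} {c : EE d} {R : ℝ} (hR0 : 0 < R)
    (hR : ∀ x ∈ K, ‖x - c‖ ≤ R) {x x' : EE d} (hx : x ∈ K) (hx' : x' ∈ K) :
    |Vw c R x - Vw c R x'| ≤ ‖x - x'‖ / (64 * R) := by
  unfold Vw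
  have h1 := hR x hx
  have h2 := hR x' hx'
  have h3 : |‖x - c‖ - ‖x' - c‖| ≤ ‖x - x'‖ := by
    have := abs_norm_sub_norm_le (x - c) (x' - c)
    simpa using this
  have hR2 : 0 < 128 * R ^ 2 := by positivity
  rw [← sub_div, abs_div, abs_of_pos hR2, div_le_div_iff₀ hR2 (by positivity)]
  have h4 : |‖x - c‖ ^ 2 - ‖x' - c‖ ^ 2| = |‖x - c‖ - ‖x' - c‖| * (‖x - c‖ + ‖x' - c‖) := by
    rw [sq_sub_sq, abs_mul, mul_comm, abs_of_nonneg (by positivity : 0 ≤ ‖x - c‖ + ‖x' - c‖)]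
  rw [h4]
  have h5 : ‖x - c‖ + ‖x' - c‖ ≤ 2 * R := by linarith
  have h6 : |‖x - c‖ - ‖x' - c‖| * (‖x - c‖ + ‖x' - c‖) ≤ ‖x - x'‖ * (2 * R) :=
    mul_le_mul h3 h5 (by positivity) (norm_nonneg _)
  nlinarith [mul_le_mul_of_nonneg_right h6 (show 0 ≤ 64 * R by positivity), norm_nonneg (x - x')]

lemma sqrt_gap {a b : ℝ} (ha : 0 < a) (hb : 0 < b) :
    a / 2 + b / 2 - Real.sqrt (a * b) ≤ (a - b) ^ 2 / (2 * a) := by
  have hp := Real.sqrt_pos.mpr ha
  have hq := Real.sqrt_pos.mpr hb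
  set p := Real.sqrt a with hpd
  set q := Real.sqrt b with hqd
  have hap : a = p ^ 2 := (Real.sq_sqrt ha.le).symm
  have hbq : b = q ^ 2 := (Real.sq_sqrt hb.le).symm
  have hab : Real.sqrt (a * b) = p * q := Real.sqrt_mul ha.le b
  rw [hab, le_div_iff₀ (by positivity)]
  rw [hap, hbq]
  have h1 : (p ^ 2 / 2 + q ^ 2 / 2 - p * q) * (2 * p ^ 2) = (p - q) ^ 2 * p ^ 2 := by ring
  have h2 : (p ^ 2 - q ^ 2) ^ 2 = (p - q) ^ 2 * (p + q) ^ 2 := by ring
  rw [h1, h2]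
  apply mul_le_mul_of_nonneg_left _ (sq_nonneg _)
  nlinarith

lemma expV_lip {K : Set (EE d)} {c : EE d} {R : ℝ} (hR0 : 0 < R)
    (hR : ∀ x ∈ K, ‖x - c‖ ≤ R) :
    ∀ x ∈ K, ∀ x' ∈ K, |Real.exp (Vw c R x) - Real.exp (Vw c R x')| ≤ (1.01 / (64 * R)) * ‖x - x'‖ := by
  intro x hx x' hx'
  have h1 := abs_exp_sub_le (Vw_le hR0 (hR x hx)) (Vw_le hR0 (hR x' hx'))
  have h2 := abs_Vw_sub_le hR0 hR hx hx'
  have h3 : Real.exp (1 / 128 : ℝ) * |Vw c R x - Vw c R x'| ≤ 1.01 * (‖x - x'‖ / (64 * R)) :=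
    mul_le_mul exp_le_Lam h2 (abs_nonneg _) (by norm_num)
  calc _ ≤ _ := h1
    _ ≤ 1.01 * (‖x - x'‖ / (64 * R)) := h3
    _ = _ := by ring

lemma expV_le {K : Set (EE d)} {c : EE d} {R : ℝ} (hR0 : 0 < R)
    (hR : ∀ x ∈ K, ‖x - c‖ ≤ R) {x : EE d} (hx : x ∈ K) : Real.exp (Vw c R x) ≤ 1.01 :=
  le_trans (Real.exp_le_exp.mpr (Vw_le hR0 (hR x hx))) exp_le_Lam

lemma expmV_ge {K : Set (EE d)} {c : EE d} {R : ℝ} (hR0 : 0 < R)
    (hR : ∀ x ∈ K, ‖x - c‖ ≤ R) {x : EE d} (hx : x ∈ K) : 1 / 1.01 ≤ Real.exp (- Vw c R x) := by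
  rw [Real.exp_neg, one_div]
  exact inv_anti₀ (Real.exp_pos _) (expV_le hR0 hR hx)

lemma inner_test_lip {K : Set (EE d)} {c : EE d} {R : ℝ} (hR0 : 0 < R)
    (hR : ∀ x ∈ K, ‖x - c‖ ≤ R) (v : EE d) :
    ∀ x ∈ K, ∀ x' ∈ K, |⟪x - c, v⟫ * Real.exp (Vw c R x) - ⟪x' - c, v⟫ * Real.exp (Vw c R x')|
      ≤ (‖v‖ * 1.01 * (65 / 64)) * ‖x - x'‖ := by
  intro x hx x' hx'
  have h1 := expV_le hR0 hR hx
  have h2 := expV_lip hR0 hR x hx x' hx'
  have h3 : |⟪x - c, v⟫ - ⟪x' - c, v⟫| ≤ ‖x - x'‖ * ‖v‖ := by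
    rw [← inner_sub_left]
    have : x - c - (x' - c) = x - x' := by abel
    rw [this]
    exact abs_real_inner_le_norm _ _
  have h4 : |⟪x' - c, v⟫| ≤ R * ‖v‖ :=
    (abs_real_inner_le_norm _ _).trans (mul_le_mul_of_nonneg_right (hR x' hx') (norm_nonneg _))
  have hsplit : ⟪x - c, v⟫ * Real.exp (Vw c R x) - ⟪x' - c, v⟫ * Real.exp (Vw c R x')
      = (⟪x - c, v⟫ - ⟪x' - c, v⟫) * Real.exp (Vw c R x)
        + ⟪x' - c, v⟫ * (Real.exp (Vw c R x) - Real.exp (Vw c R x')) := by ring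
  rw [hsplit]
  refine (abs_add_le _ _).trans ?_
  rw [abs_mul, abs_mul, abs_of_pos (Real.exp_pos _)]
  have h5 : |⟪x - c, v⟫ - ⟪x' - c, v⟫| * Real.exp (Vw c R x) ≤ (‖x - x'‖ * ‖v‖) * 1.01 :=
    mul_le_mul h3 h1 (Real.exp_pos _).le (by positivity)
  have h6 : |⟪x' - c, v⟫| * |Real.exp (Vw c R x) - Real.exp (Vw c R x')|
      ≤ (R * ‖v‖) * ((1.01 / (64 * R)) * ‖x - x'‖) :=
    mul_le_mul h4 h2 (abs_nonneg _) (by positivity)
  have h7 : (R * ‖v‖) * ((1.01 / (64 * R)) * ‖x - x'‖) = ‖v‖ * 1.01 * (1 / 64) * ‖x - x'‖ := by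
    field_simp
  have h8 : (‖v‖ * 1.01 * (65 / 64)) * ‖x - x'‖
      = (‖x - x'‖ * ‖v‖) * 1.01 + ‖v‖ * 1.01 * (1 / 64) * ‖x - x'‖ := by ring
  rw [h8]
  linarith

/-- real-number algebra for the mass defect -/
lemma alg_ratio {a b π₀ π' G u : ℝ} (hπ : 0 < π₀) (hπ' : 0 < π') (ha1 : π₀ / 1.01 ≤ a) (ha2 : a ≤ π₀)
    (hb1 : π' / 1.01 ≤ b) (hb2 : b ≤ π') (hdiff : |π' - π₀| ≤ u) :
    |b - a| ≤ u + π₀ * |π₀ / a - π' / b| := by
  have ha_pos : 0 < a := lt_of_lt_of_le (by positivity) ha1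
  have hb_pos : 0 < b := lt_of_lt_of_le (by positivity) hb1
  set α := π₀ / a with hα
  set β := π' / b with hβ
  have hα1 : 1 ≤ α := by rw [hα, le_div_iff₀ ha_pos]; linarith
  have hβ1 : 1 ≤ β := by rw [hβ, le_div_iff₀ hb_pos]; linarith
  have hα0 : 0 < α := by linarith
  have hβ0 : 0 < β := by linarith
  have haα : a = π₀ / α := by rw [hα]; field_simp
  have hbβ : b = π' / β := by rw [hβ]; field_simp
  have hsplit : b - a = (π' - π₀) / β + π₀ * (1 / β - 1 / α) := by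
    rw [hbβ, haα]; field_simp; ring
  have h1 : |(π' - π₀) / β| ≤ |π' - π₀| := by
    rw [abs_div, abs_of_pos hβ0]
    exact div_le_self (abs_nonneg _) hβ1
  have h2 : |1 / β - 1 / α| ≤ |α - β| := by
    have : 1 / β - 1 / α = (α - β) / (α * β) := by field_simp
    rw [this, abs_div, abs_of_pos (mul_pos hα0 hβ0)]
    apply div_le_self (abs_nonneg _)
    nlinarith
  rw [hsplit]
  refine (abs_add_le _ _).trans ?_
  rw [abs_mul, abs_of_pos hπ]
  exact add_le_add (h1.trans hdiff) (mul_le_mul_of_nonneg_left h2 hπ.le)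

lemma alg_mass {a b π₀ π' G u X : ℝ} (hπ : 0 < π₀) (hπ' : 0 < π') (hhigh : π₀ ≤ 3 / 2 * π')
    (ha1 : π₀ / 1.01 ≤ a) (ha2 : a ≤ π₀)
    (hb1 : π' / 1.01 ≤ b) (hb2 : b ≤ π') (hdiff : |π' - π₀| ≤ u) (hG0 : 0 ≤ G)
    (hαβ : (π₀ / a - π' / b) ^ 2 ≤ 0.128 * G) (hu0 : 0 ≤ u) (hu2 : u ^ 2 / π₀ ≤ X) :
    a / 2 + b / 2 - Real.sqrt (a * b) ≤ 1.01 * X + 0.2 * (π' * G) := by
  have ha_pos : 0 < a := lt_of_lt_of_le (by positivity) ha1
  have hb_pos : 0 < b := lt_of_lt_of_le (by positivity) hb1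
  have h1 := sqrt_gap ha_pos hb_pos
  have h_ba := alg_ratio (G := G) hπ hπ' ha1 ha2 hb1 hb2 hdiff
  set D := |π₀ / a - π' / b| with hD
  have hD2 : D ^ 2 ≤ 0.128 * G := by rw [hD, sq_abs]; exact hαβ
  have hD0 : 0 ≤ D := abs_nonneg _
  have h2 : (a - b) ^ 2 ≤ 2 * u ^ 2 + 2 * (π₀ * D) ^ 2 := by
    have h3 : (a - b) ^ 2 = |b - a| ^ 2 := by rw [sq_abs]; ring
    rw [h3]
    have h4 : |b - a| ^ 2 ≤ (u + π₀ * D) ^ 2 := pow_le_pow_left₀ (abs_nonneg _) h_ba 2
    nlinarith [sq_nonneg (u - π₀ * D)]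
  have h7 : π₀ ≤ 1.01 * a := by
    have := ha1
    rw [div_le_iff₀ (by norm_num)] at this
    linarith
  have h6 : (a - b) ^ 2 / (2 * a) ≤ 1.01 * (u ^ 2 / π₀) + 1.01 * (π₀ * D ^ 2) := by
    rw [div_le_iff₀ (by positivity)]
    have h8 : 1.01 * (u ^ 2 / π₀) + 1.01 * (π₀ * D ^ 2)
        = 1.01 * (u ^ 2 + π₀ ^ 2 * D ^ 2) / π₀ := by
      field_simp
    rw [h8, div_mul_eq_mul_div, le_div_iff₀ hπ]
    have h10 : (a - b) ^ 2 * π₀ ≤ (2 * u ^ 2 + 2 * (π₀ * D) ^ 2) * (1.01 * a) :=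
      mul_le_mul h2 h7 hπ.le (by positivity)
    have : (2 * u ^ 2 + 2 * (π₀ * D) ^ 2) * (1.01 * a) = 1.01 * (u ^ 2 + π₀ ^ 2 * D ^ 2) * (2 * a) := by
      ring
    linarith
  have h12 : π₀ * D ^ 2 ≤ (3 / 2 * π') * (0.128 * G) :=
    mul_le_mul hhigh hD2 (sq_nonneg _) (by positivity)
  have h13 : 0 ≤ π' * G := mul_nonneg hπ'.le hG0
  have h14 : (3 / 2 * π') * (0.128 * G) = 0.192 * (π' * G) := by ring
  have h15 : 1.01 * (u ^ 2 / π₀) ≤ 1.01 * X := mul_le_mul_of_nonneg_left hu2 (by norm_num)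
  have h16 : 1.01 * (π₀ * D ^ 2) ≤ 1.01 * (0.192 * (π' * G)) :=
    mul_le_mul_of_nonneg_left (by linarith) (by norm_num)
  linarith

lemma alg_main {a b π₀ π' G u p q r Rv : ℝ} (hπ : 0 < π₀) (hπ' : 0 < π') (hhigh : π₀ ≤ 3 / 2 * π')
    (ha1 : π₀ / 1.01 ≤ a) (ha2 : a ≤ π₀)
    (hb1 : π' / 1.01 ≤ b) (hb2 : b ≤ π') (hdiff : |π' - π₀| ≤ u) (hG0 : 0 ≤ G)
    (hαβ : (π₀ / a - π' / b) ^ 2 ≤ 0.128 * G) (hu0 : 0 ≤ u) (hRv : 0 ≤ Rv)
    (hτ : |q / b - p / a| ≤ 24 * Rv * Real.sqrt G) (hτa : |p / a| ≤ 1.01 * Rv) (hr : |r| ≤ Rv * u) :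
    |q + r - p| ≤ Rv * (24.6 * (π' * Real.sqrt G) + 2.01 * u) := by
  have ha_pos : 0 < a := lt_of_lt_of_le (by positivity) ha1
  have hb_pos : 0 < b := lt_of_lt_of_le (by positivity) hb1
  have h_ba := alg_ratio (G := G) hπ hπ' ha1 ha2 hb1 hb2 hdiff
  have hsG : 0 ≤ Real.sqrt G := Real.sqrt_nonneg _
  have hD : |π₀ / a - π' / b| ≤ 0.36 * Real.sqrt G := by
    apply abs_le_of_sq_le_sq _ (by positivity)
    rw [mul_pow, Real.sq_sqrt hG0]
    nlinarith
  have h1 : |b - a| ≤ u + π₀ * (0.36 * Real.sqrt G) :=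
    h_ba.trans (add_le_add_right (mul_le_mul_of_nonneg_left hD hπ.le) _)
  have hsplit : q + r - p = (q / b - p / a) * b + (p / a) * (b - a) + r := by
    field_simp; ring
  rw [hsplit]
  have h2 : |(q / b - p / a) * b| ≤ (24 * Rv * Real.sqrt G) * π' := by
    rw [abs_mul, abs_of_pos hb_pos]
    exact mul_le_mul hτ hb2 hb_pos.le (by positivity)
  have h3 : |(p / a) * (b - a)| ≤ (1.01 * Rv) * (u + π₀ * (0.36 * Real.sqrt G)) := by
    rw [abs_mul]
    exact mul_le_mul hτa h1 (abs_nonneg _) (by positivity)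
  have h4 : π₀ * (0.36 * Real.sqrt G) ≤ (3 / 2 * π') * (0.36 * Real.sqrt G) :=
    mul_le_mul_of_nonneg_right hhigh (by positivity)
  have h5 : (1.01 * Rv) * (u + π₀ * (0.36 * Real.sqrt G))
      ≤ (1.01 * Rv) * (u + (3 / 2 * π') * (0.36 * Real.sqrt G)) :=
    mul_le_mul_of_nonneg_left (by linarith) (by positivity)
  have h6 : |(q / b - p / a) * b + (p / a) * (b - a) + r|
      ≤ |(q / b - p / a) * b| + |(p / a) * (b - a)| + |r| :=
    (abs_add_le _ _).trans (add_le_add_left (abs_add_le _ _) _)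
  have h7 : 0 ≤ Rv * (π' * Real.sqrt G) := by positivity
  have h8 : (24 * Rv * Real.sqrt G) * π' + (1.01 * Rv) * (u + (3 / 2 * π') * (0.36 * Real.sqrt G)) + Rv * u
      = 24.5454 * (Rv * (π' * Real.sqrt G)) + 2.01 * (Rv * u) := by ring
  have h9 : Rv * (24.6 * (π' * Real.sqrt G) + 2.01 * u)
      = 24.6 * (Rv * (π' * Real.sqrt G)) + 2.01 * (Rv * u) := by ring
  linarith

/-- Facts about one cell. -/
lemma cell_facts {K : Set (EE d)} (hK : Body K) {c : EE d} {R : ℝ} (hR0 : 0 < R)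
    (hR : ∀ x ∈ K, ‖x - c‖ ≤ R)
    {A B C : Set (EE d)} (hA : MeasurableSet A) (hB : MeasurableSet B) (hC : MeasurableSet C)
    (hAK : A ⊆ K) (hBK : B ⊆ K) (hCK : C ⊆ K)
    (hmid : ∀ x ∈ A, ∀ y ∈ B, (1 / 2 : ℝ) • (x + y) ∈ C)
    {w : EE d → ℝ} (hwm : Measurable w) {ε : ℝ} (hε : 0 < ε) (hw : ∀ x, |ε * w x| ≤ 1 / 2)
    {π₀ π' : ℝ} (hπ : 0 < π₀) (hAm : ∫ _x in A, (1 : ℝ) ∂(rho K) = π₀)
    (hBm : ∫ _x in B, (1 : ℝ) ∂(rho K) = π') (hσ : ∫ x in B, (1 + ε * w x) ∂(rho K) = π₀) :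
    let a := ∫ x in A, Real.exp (- Vw c R x) ∂(rho K)
    let b := ∫ x in B, Real.exp (- Vw c R x) ∂(rho K)
    let c0 := ∫ x in C, Real.exp (- Vw c R x) ∂(rho K)
    let sb := Real.sqrt (a * b)
    let G := Real.log (c0 / sb)
    let u := ε * ∫ x in B, |w x| ∂(rho K)
    let Iw := ∫ x in B, w x ^ 2 ∂(rho K)
    0.7 * π' ≤ sb ∧ 0 ≤ G ∧ sb * G ≤ c0 - sb ∧
    a / 2 + b / 2 - sb ≤ 1.01 * (2 * ε ^ 2 * Iw) + 0.2 * (π' * G) ∧
    u ^ 2 / π₀ ≤ 2 * ε ^ 2 * Iw ∧ π' ^ 2 / π₀ ≤ 2 * π' ∧ 0 < π' ∧ 0 ≤ u ∧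
    ∀ v : EE d, |(∫ x in B, ⟪x - c, v⟫ * (1 + ε * w x) ∂(rho K)) - ∫ x in A, ⟪x - c, v⟫ ∂(rho K)|
      ≤ R * ‖v‖ * (24.6 * (π' * Real.sqrt G) + 2.01 * u) := by
  intro a b c0 sb G u Iw
  have hwb : ∀ x, |w x| ≤ 1 / (2 * ε) := by
    intro x
    have h := hw x
    rw [abs_mul, abs_of_pos hε] at h
    rw [le_div_iff₀ (by positivity)]
    linarith
  have i1 : ∀ S : Set (EE d), IntegrableOn (fun _ => (1 : ℝ)) S (rho K) := fun S =>
    intOn_of_bound hK (measurable_const) (M := 1) (fun _ _ => by simp) S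
  have iw : ∀ S : Set (EE d), IntegrableOn w S (rho K) := fun S =>
    intOn_of_bound hK hwm (M := 1 / (2 * ε)) (fun x _ => hwb x) S
  have iabsw : ∀ S : Set (EE d), IntegrableOn (fun x => |w x|) S (rho K) := fun S =>
    intOn_of_bound hK hwm.abs (M := 1 / (2 * ε)) (fun x _ => by
      rw [abs_abs]; exact hwb x) S
  have iw2 : ∀ S : Set (EE d), IntegrableOn (fun x => w x ^ 2) S (rho K) := fun S =>
    intOn_of_bound hK (hwm.pow_const 2) (M := (1 / (2 * ε)) ^ 2) (fun x _ => by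
      rw [abs_pow]; exact pow_le_pow_left₀ (abs_nonneg _) (hwb x) 2) S
  have iE := intOn_expVw hK c R
  have iconst : ∀ (S : Set (EE d)) (t : ℝ), ∫ _x in S, t ∂(rho K) = t * ∫ _x in S, (1 : ℝ) ∂(rho K) := by
    intro S t; rw [← integral_const_mul]; simp
  have iconstI : ∀ (S : Set (EE d)) (t : ℝ), IntegrableOn (fun _ => t) S (rho K) := fun S t =>
    intOn_of_bound hK measurable_const (M := |t|) (fun _ _ => le_rfl) S
  -- masses
  have hπ₀eq : π₀ = π' + ε * ∫ x in B, w x ∂(rho K) := by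
    rw [← hσ, integral_add (i1 B) ((iw B).const_mul ε), integral_const_mul, hBm]
  have hεJ : |ε * ∫ x in B, w x ∂(rho K)| ≤ π' / 2 := by
    rw [← integral_const_mul]
    refine abs_integral_le_integral_abs.trans ?_
    have h : ∫ x in B, |ε * w x| ∂(rho K) ≤ ∫ _x in B, (1 / 2 : ℝ) ∂(rho K) :=
      integral_mono ((iw B).const_mul ε).abs (iconstI B (1 / 2)) (fun x => hw x)
    rw [iconst, hBm] at h
    exact h.trans_eq (by ring)
  have hlow : π' / 2 ≤ π₀ := by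
    have := (abs_le.mp hεJ).1
    linarith
  have hhigh : π₀ ≤ 3 / 2 * π' := by
    have := (abs_le.mp hεJ).2
    linarith
  have hπ' : 0 < π' := by linarith
  -- a, b
  have ha_le : a ≤ π₀ := by
    rw [← hAm]
    exact setIntegral_mono (iE A) (i1 A) (fun x => expVw_le_one c R x)
  have hb_le : b ≤ π' := by
    rw [← hBm]
    exact setIntegral_mono (iE B) (i1 B) (fun x => expVw_le_one c R x)
  have ha_ge : π₀ / 1.01 ≤ a := by
    have h : ∫ _x in A, (1 / 1.01 : ℝ) ∂(rho K) ≤ a :=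
      setIntegral_mono_on (iconstI A _) (iE A) hA (fun x hx => expmV_ge hR0 hR (hAK hx))
    rw [iconst, hAm] at h
    have e : π₀ / 1.01 = 1 / 1.01 * π₀ := by ring
    rw [e]; exact h
  have hb_ge : π' / 1.01 ≤ b := by
    have h : ∫ _x in B, (1 / 1.01 : ℝ) ∂(rho K) ≤ b :=
      setIntegral_mono_on (iconstI B _) (iE B) hB (fun x hx => expmV_ge hR0 hR (hBK hx))
    rw [iconst, hBm] at h
    have e : π' / 1.01 = 1 / 1.01 * π' := by ring
    rw [e]; exact h
  have ha_pos : 0 < a := lt_of_lt_of_le (by positivity) ha_ge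
  have hb_pos : 0 < b := lt_of_lt_of_le (by positivity) hb_ge
  have hab_pos : 0 < a * b := mul_pos ha_pos hb_pos
  have hsb_pos : 0 < sb := Real.sqrt_pos.mpr hab_pos
  -- base test function
  have hbase := L_test hK hR0 hR hA hB hC hAK hBK hCK hmid (l := fun _ => 0) measurable_const
    (Lip := 1) one_pos (by intro x _ x' _; simp) (M := 0) (by intro x _; simp) ha_pos hb_pos
  have hsb_le : sb ≤ c0 := hbase.1
  have hc0_pos : 0 < c0 := lt_of_lt_of_le hsb_pos hsb_le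
  have hG0 : 0 ≤ G := by
    apply Real.log_nonneg
    rw [le_div_iff₀ hsb_pos]; linarith
  have hsG : sb * G ≤ c0 - sb := by
    have h1 : G ≤ c0 / sb - 1 := Real.log_le_sub_one_of_pos (div_pos hc0_pos hsb_pos)
    have h2 : sb * (c0 / sb - 1) = c0 - sb := by field_simp
    calc sb * G ≤ sb * (c0 / sb - 1) := mul_le_mul_of_nonneg_left h1 hsb_pos.le
      _ = _ := h2
  -- test function exp V
  have h1test := L_test hK hR0 hR hA hB hC hAK hBK hCK hmid (l := fun x => Real.exp (Vw c R x))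
    (Real.measurable_exp.comp (continuous_Vw c R).measurable) (Lip := 1.01 / (64 * R))
    (by positivity) (expV_lip hR0 hR) (M := 1.01)
    (by intro x hx; rw [abs_of_pos (Real.exp_pos _)]; exact expV_le hR0 hR hx) ha_pos hb_pos
  have hcancel : ∀ S : Set (EE d), ∫ x in S, Real.exp (Vw c R x) * Real.exp (- Vw c R x) ∂(rho K)
      = ∫ _x in S, (1 : ℝ) ∂(rho K) := by
    intro S
    congr 1; ext x
    rw [← Real.exp_add]; simp
  have hαβ : (π₀ / a - π' / b) ^ 2 ≤ 0.128 * G := by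
    have h := h1test.2
    rw [hcancel, hcancel, hAm, hBm] at h
    have h2 : 8 * (64 * R ^ 2) * (1.01 / (64 * R)) ^ 2 = 1.01 ^ 2 / 8 := by
      field_simp; ring
    rw [h2] at h
    refine h.trans ?_
    exact mul_le_mul_of_nonneg_right (by norm_num) hG0
  -- the integrals of |w|
  have hu0 : 0 ≤ u := mul_nonneg hε.le (integral_nonneg fun _ => abs_nonneg _)
  have hIw0 : 0 ≤ Iw := integral_nonneg fun _ => sq_nonneg _
  have hdiff : |π' - π₀| ≤ u := by
    have : π' - π₀ = - (ε * ∫ x in B, w x ∂(rho K)) := by rw [hπ₀eq]; ring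
    rw [this, abs_neg, abs_mul, abs_of_pos hε]
    apply mul_le_mul_of_nonneg_left _ hε.le
    exact abs_integral_le_integral_abs
  have hCS : (∫ x in B, |w x| ∂(rho K)) ^ 2 ≤ π' * Iw := by
    set J := ∫ x in B, |w x| ∂(rho K) with hJ
    have hquad : 0 ≤ ∫ x in B, (|w x| * π' - J) ^ 2 ∂(rho K) := integral_nonneg fun _ => sq_nonneg _
    have hexp : ∫ x in B, (|w x| * π' - J) ^ 2 ∂(rho K)
        = π' ^ 2 * Iw - 2 * π' * J * J + J ^ 2 * π' := by
      have : ∀ x, (|w x| * π' - J) ^ 2 = π' ^ 2 * w x ^ 2 - (2 * π' * J) * |w x| + J ^ 2 * 1 := by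
        intro x; have := sq_abs (w x); nlinarith
      simp_rw [this]
      have a1 := (iw2 B).const_mul (π' ^ 2)
      have a2 := (iabsw B).const_mul (2 * π' * J)
      have a3 := (i1 B).const_mul (J ^ 2)
      have h1 : ∫ x in B, (π' ^ 2 * w x ^ 2 - (2 * π' * J) * |w x|) ∂(rho K)
          = π' ^ 2 * Iw - (2 * π' * J) * J := by
        rw [integral_sub a1 a2, integral_const_mul, integral_const_mul]
      have h2 : Integrable (fun x => π' ^ 2 * w x ^ 2 - (2 * π' * J) * |w x|) ((rho K).restrict B) :=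
        a1.sub a2
      rw [integral_add h2 a3, h1, integral_const_mul, hBm]
    rw [hexp] at hquad
    have h3 : 0 ≤ π' * (π' * Iw - J ^ 2) := by nlinarith
    have := nonneg_of_mul_nonneg_right h3 hπ'
    linarith
  have hu2 : u ^ 2 / π₀ ≤ 2 * ε ^ 2 * Iw := by
    rw [div_le_iff₀ hπ]
    have h2 : u ^ 2 = ε ^ 2 * (∫ x in B, |w x| ∂(rho K)) ^ 2 := mul_pow _ _ _
    rw [h2]
    have h3 : ε ^ 2 * (∫ x in B, |w x| ∂(rho K)) ^ 2 ≤ ε ^ 2 * (π' * Iw) :=
      mul_le_mul_of_nonneg_left hCS (by positivity)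
    have h4 : 0 ≤ ε ^ 2 * Iw := by positivity
    have h5 : π' ≤ 2 * π₀ := by linarith
    calc _ ≤ ε ^ 2 * (π' * Iw) := h3
      _ = (ε ^ 2 * Iw) * π' := by ring
      _ ≤ (ε ^ 2 * Iw) * (2 * π₀) := mul_le_mul_of_nonneg_left h5 h4
      _ = _ := by ring
  have hπ'2 : π' ^ 2 / π₀ ≤ 2 * π' := by
    rw [div_le_iff₀ hπ]
    nlinarith
  refine ⟨?_, hG0, hsG, ?_, hu2, hπ'2, hπ', hu0, ?_⟩
  · -- 0.7 π' ≤ sb
    have h1 : (0.7 * π') ^ 2 ≤ a * b := by
      have h2 : π₀ / 1.01 * (π' / 1.01) ≤ a * b :=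
        mul_le_mul ha_ge hb_ge (by positivity) ha_pos.le
      have h3 : (π' / 2) / 1.01 * (π' / 1.01) ≤ π₀ / 1.01 * (π' / 1.01) := by
        apply mul_le_mul_of_nonneg_right _ (by positivity)
        exact div_le_div_of_nonneg_right hlow (by norm_num)
      have h4 : (π' / 2) / 1.01 * (π' / 1.01) = (1 / (2 * 1.01 ^ 2)) * π' ^ 2 := by ring
      have h5 : (0.7 * π') ^ 2 = 0.49 * π' ^ 2 := by ring
      have h6 : (0.49 : ℝ) ≤ 1 / (2 * 1.01 ^ 2) := by norm_num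
      have h7 : 0.49 * π' ^ 2 ≤ (1 / (2 * 1.01 ^ 2)) * π' ^ 2 :=
        mul_le_mul_of_nonneg_right h6 (sq_nonneg _)
      linarith
    exact Real.le_sqrt_of_sq_le h1
  · -- mass defect
    exact alg_mass hπ hπ' hhigh ha_ge ha_le hb_ge hb_le hdiff hG0 hαβ hu0 hu2
  · -- the main bound
    intro v
    have iv : ∀ S : Set (EE d), IntegrableOn (fun x => ⟪x - c, v⟫) S (rho K) := fun S =>
      intOn_of_bound hK (by fun_prop) (M := R * ‖v‖) (fun x hx =>
        (abs_real_inner_le_norm _ _).trans (mul_le_mul_of_nonneg_right (hR x hx) (norm_nonneg _))) S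
    have ivw : ∀ S : Set (EE d), IntegrableOn (fun x => ⟪x - c, v⟫ * (ε * w x)) S (rho K) := fun S =>
      intOn_of_bound hK ((by fun_prop : Measurable fun x => ⟪x - c, v⟫).mul (hwm.const_mul ε))
        (M := R * ‖v‖ * (1 / 2)) (fun x hx => by
          simp only [Pi.mul_apply]
          rw [abs_mul]
          exact mul_le_mul ((abs_real_inner_le_norm _ _).trans
            (mul_le_mul_of_nonneg_right (hR x hx) (norm_nonneg _))) (hw x) (abs_nonneg _)
            (by positivity)) S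
    set p := ∫ x in A, ⟪x - c, v⟫ ∂(rho K) with hp
    set q := ∫ x in B, ⟪x - c, v⟫ ∂(rho K) with hq
    set r := ∫ x in B, ⟪x - c, v⟫ * (ε * w x) ∂(rho K) with hr
    have hsum : ∫ x in B, ⟪x - c, v⟫ * (1 + ε * w x) ∂(rho K) = q + r := by
      rw [hq, hr, ← integral_add (iv B) (ivw B)]
      congr 1; ext x; ring
    rw [hsum]
    have hRv0 : 0 ≤ R * ‖v‖ := by positivity
    have hr_le : |r| ≤ R * ‖v‖ * u := by
      have h1 : |r| ≤ ∫ x in B, R * ‖v‖ * (ε * |w x|) ∂(rho K) := by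
        refine (abs_integral_le_integral_abs).trans ?_
        apply setIntegral_mono_on (ivw B).abs ((iabsw B).const_mul ε |>.const_mul _) hB
        intro x hx
        rw [abs_mul, abs_mul, abs_of_pos hε]
        exact mul_le_mul_of_nonneg_right ((abs_real_inner_le_norm _ _).trans
            (mul_le_mul_of_nonneg_right (hR x (hBK hx)) (norm_nonneg _))) (by positivity)
      have h2 : ∫ x in B, R * ‖v‖ * (ε * |w x|) ∂(rho K) = R * ‖v‖ * u := by
        rw [integral_const_mul, integral_const_mul]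
      exact h1.trans_eq h2
    have hp_le : |p| ≤ R * ‖v‖ * π₀ := by
      have h1 : |p| ≤ ∫ _x in A, R * ‖v‖ ∂(rho K) := by
        refine (abs_integral_le_integral_abs).trans ?_
        apply setIntegral_mono_on (iv A).abs (iconstI A _) hA
        intro x hx
        exact (abs_real_inner_le_norm _ _).trans
            (mul_le_mul_of_nonneg_right (hR x (hAK hx)) (norm_nonneg _))
      rw [iconst, hAm] at h1
      exact h1
    have hτa : |p / a| ≤ 1.01 * (R * ‖v‖) := by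
      rw [abs_div, abs_of_pos ha_pos, div_le_iff₀ ha_pos]
      have h7 : π₀ ≤ 1.01 * a := by
        have := ha_ge
        rw [div_le_iff₀ (by norm_num)] at this
        linarith
      calc |p| ≤ R * ‖v‖ * π₀ := hp_le
        _ ≤ R * ‖v‖ * (1.01 * a) := mul_le_mul_of_nonneg_left h7 hRv0
        _ = _ := by ring
    have hτ : |q / b - p / a| ≤ 24 * (R * ‖v‖) * Real.sqrt G := by
      by_cases hv : v = 0
      · subst hv
        simp [hp, hq]
      have hvpos : 0 < ‖v‖ := norm_pos_iff.mpr hv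
      have h2test := L_test hK hR0 hR hA hB hC hAK hBK hCK hmid
        (l := fun x => ⟪x - c, v⟫ * Real.exp (Vw c R x))
        ((by fun_prop : Measurable fun x => ⟪x - c, v⟫).mul
          (Real.measurable_exp.comp (continuous_Vw c R).measurable))
        (Lip := ‖v‖ * 1.01 * (65 / 64)) (by positivity) (inner_test_lip hR0 hR v)
        (M := R * ‖v‖ * 1.01) (by
          intro x hx
          rw [abs_mul, abs_of_pos (Real.exp_pos _)]
          exact mul_le_mul ((abs_real_inner_le_norm _ _).trans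
              (mul_le_mul_of_nonneg_right (hR x hx) (norm_nonneg _))) (expV_le hR0 hR hx)
              (Real.exp_pos _).le (by positivity)) ha_pos hb_pos
      have hcancel2 : ∀ S : Set (EE d),
          ∫ x in S, ⟪x - c, v⟫ * Real.exp (Vw c R x) * Real.exp (- Vw c R x) ∂(rho K)
          = ∫ x in S, ⟪x - c, v⟫ ∂(rho K) := by
        intro S
        congr 1; ext x
        rw [mul_assoc, ← Real.exp_add]; simp
      have h := h2test.2
      rw [hcancel2, hcancel2] at h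
      have h' : (p / a - q / b) ^ 2 ≤ 8 * (64 * R ^ 2) * (‖v‖ * 1.01 * (65 / 64)) ^ 2 * G := h
      rw [abs_sub_comm]
      apply abs_le_of_sq_le_sq _ (by positivity)
      refine h'.trans ?_
      rw [mul_pow _ (Real.sqrt G), Real.sq_sqrt hG0]
      apply mul_le_mul_of_nonneg_right _ hG0
      have h3 : 8 * (64 * R ^ 2) * (‖v‖ * 1.01 * (65 / 64)) ^ 2
          = 540 * (R * ‖v‖) ^ 2 - (540 - 512 * (1.01 * (65 / 64)) ^ 2) * (R * ‖v‖) ^ 2 := by ring
      have h4 : 0 ≤ 540 - 512 * (1.01 * (65 / 64) : ℝ) ^ 2 := by norm_num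
      have h5 : 0 ≤ (R * ‖v‖) ^ 2 := sq_nonneg _
      have h6 : (24 * (R * ‖v‖)) ^ 2 = 576 * (R * ‖v‖) ^ 2 := by ring
      rw [h3, h6]
      nlinarith [mul_nonneg h4 h5]
    exact alg_main hπ hπ' hhigh ha_ge ha_le hb_ge hb_le hdiff hG0 hαβ hu0 hRv0 hτ hτa hr_le

lemma setIntegral_inter_K {K : Set (EE d)} (hK : Body K) (S : Set (EE d)) (f : EE d → ℝ) :
    ∫ x in S ∩ K, f x ∂(rho K) = ∫ x in S, f x ∂(rho K) := by
  apply setIntegral_congr_set
  rw [Filter.eventuallyEq_set]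
  filter_upwards [ae_mem_rho hK] with x hx
  simp [hx]

/-- **The key inequality**: stability of barycentres of Laguerre cells under density perturbations. -/
theorem key_inequality {K : Set (EE d)} (hK : Body K) {ι : Type*} [Fintype ι] {pm : ι → ℝ}
    (hpm : Masses pm) {y : ι → EE d} (hy : Function.Injective y) (c : EE d) {R : ℝ} (hR0 : 0 < R)
    (hR : ∀ x ∈ K, ‖x - c‖ ≤ R) {w : EE d → ℝ} {ε : ℝ} (hε : 0 < ε)
    (hσ : IsDens K (fun x => 1 + ε * w x)) {ψ₀ ψ₁ : ι → ℝ}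
    (h₀ : Solved K pm y (fun _ => 1) ψ₀) (h₁ : Solved K pm y (fun x => 1 + ε * w x) ψ₁)
    (v : ι → EE d) :
    ∑ i, ∫ x in cell y ψ₁ i, ⟪x, v i⟫ * (1 + ε * w x) ∂(rho K)
        - ∑ i, ∫ x in cell y ψ₀ i, ⟪x, v i⟫ ∂(rho K)
      ≤ 100 * R * ε * Real.sqrt (∫ x, w x ^ 2 ∂(rho K)) * Real.sqrt (∑ i, pm i * ‖v i‖ ^ 2) := by
  classical
  haveI : Nonempty ι := hpm.nonempty
  have hwm : Measurable w := by
    have h : w = fun x => ((1 + ε * w x) - 1) / ε := by
      funext x; field_simp; ring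
    rw [h]
    exact (hσ.meas.sub measurable_const).div_const ε
  have hw : ∀ x, |ε * w x| ≤ 1 / 2 := by
    intro x
    have h1 := hσ.lower x
    have h2 := hσ.upper x
    rw [abs_le]
    constructor <;> linarith
  set ψc : ι → ℝ := fun i => (ψ₀ i + ψ₁ i) / 2 with hψc
  set A : ι → Set (EE d) := fun i => cell y ψ₀ i ∩ K with hA
  set B : ι → Set (EE d) := fun i => cell y ψ₁ i ∩ K with hB
  set C : ι → Set (EE d) := fun i => cell y ψc i ∩ K with hC
  have hKm : MeasurableSet K := hK.measurableSet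
  have mA : ∀ i, MeasurableSet (A i) := fun i => (measurableSet_cell y ψ₀ i).inter hKm
  have mB : ∀ i, MeasurableSet (B i) := fun i => (measurableSet_cell y ψ₁ i).inter hKm
  have mC : ∀ i, MeasurableSet (C i) := fun i => (measurableSet_cell y ψc i).inter hKm
  have hmid : ∀ i, ∀ x ∈ A i, ∀ x' ∈ B i, (1 / 2 : ℝ) • (x + x') ∈ C i := by
    intro i x hx x' hx'
    refine ⟨?_, ?_⟩
    · intro j
      have h1 := hx.1 j
      have h2 := hx'.1 j
      have hexp : ∀ k, aff y ψc k ((1 / 2 : ℝ) • (x + x'))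
          = (aff y ψ₀ k x + aff y ψ₁ k x') / 2 := by
        intro k
        simp only [aff, hψc, inner_smul_left, inner_add_left]
        simp
        ring
      rw [hexp, hexp]
      linarith
    · have := hK.convex hx.2 hx'.2 (a := 1 / 2) (b := 1 / 2) (by norm_num) (by norm_num) (by norm_num)
      rwa [← smul_add] at this
  -- the cell facts
  set P' : ι → ℝ := fun i => ∫ _x in B i, (1 : ℝ) ∂(rho K) with hP'
  have hfacts := fun i => cell_facts hK hR0 hR (mA i) (mB i) (mC i) (fun x hx => hx.2)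
    (fun x hx => hx.2) (fun x hx => hx.2) (hmid i) hwm hε hw (hpm.pos i)
    (π' := P' i)
    (by rw [setIntegral_inter_K hK]; exact h₀ i) rfl
    (by rw [setIntegral_inter_K hK]; exact h₁ i)
  clear_value P'
  set a : ι → ℝ := fun i => ∫ x in A i, Real.exp (- Vw c R x) ∂(rho K) with ha
  set b : ι → ℝ := fun i => ∫ x in B i, Real.exp (- Vw c R x) ∂(rho K) with hb
  set cc : ι → ℝ := fun i => ∫ x in C i, Real.exp (- Vw c R x) ∂(rho K) with hcc
  set sb : ι → ℝ := fun i => Real.sqrt (a i * b i) with hsb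
  set G : ι → ℝ := fun i => Real.log (cc i / sb i) with hG
  set u : ι → ℝ := fun i => ε * ∫ x in B i, |w x| ∂(rho K) with hu
  set Iw : ι → ℝ := fun i => ∫ x in B i, w x ^ 2 ∂(rho K) with hIw
  have f1 : ∀ i, 0.7 * P' i ≤ sb i := fun i => (hfacts i).1
  have f2 : ∀ i, 0 ≤ G i := fun i => (hfacts i).2.1
  have f3 : ∀ i, sb i * G i ≤ cc i - sb i := fun i => (hfacts i).2.2.1
  have f4 : ∀ i, a i / 2 + b i / 2 - sb i ≤ 1.01 * (2 * ε ^ 2 * Iw i) + 0.2 * (P' i * G i) :=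
    fun i => (hfacts i).2.2.2.1
  have f5 : ∀ i, u i ^ 2 / pm i ≤ 2 * ε ^ 2 * Iw i := fun i => (hfacts i).2.2.2.2.1
  have f6 : ∀ i, P' i ^ 2 / pm i ≤ 2 * P' i := fun i => (hfacts i).2.2.2.2.2.1
  have f7 : ∀ i, 0 < P' i := fun i => (hfacts i).2.2.2.2.2.2.1
  have f8 : ∀ i, 0 ≤ u i := fun i => (hfacts i).2.2.2.2.2.2.2.1
  have f9 : ∀ i, ∀ v' : EE d, |(∫ x in B i, ⟪x - c, v'⟫ * (1 + ε * w x) ∂(rho K))
      - ∫ x in A i, ⟪x - c, v'⟫ ∂(rho K)| ≤ R * ‖v'‖ * (24.6 * (P' i * Real.sqrt (G i)) + 2.01 * u i) :=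
    fun i => (hfacts i).2.2.2.2.2.2.2.2
  clear hfacts
  -- sums
  have iE : Integrable (fun x => Real.exp (- Vw c R x)) (rho K) := by
    simpa using intOn_expVw hK c R Set.univ
  have sa : ∑ i, a i = ∫ x, Real.exp (- Vw c R x) ∂(rho K) := by
    simp only [ha, hA, setIntegral_inter_K hK]
    exact sum_setIntegral_cell hK hy ψ₀ iE
  have sb' : ∑ i, b i = ∫ x, Real.exp (- Vw c R x) ∂(rho K) := by
    simp only [hb, hB, setIntegral_inter_K hK]
    exact sum_setIntegral_cell hK hy ψ₁ iE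
  have sc : ∑ i, cc i = ∫ x, Real.exp (- Vw c R x) ∂(rho K) := by
    simp only [hcc, hC, setIntegral_inter_K hK]
    exact sum_setIntegral_cell hK hy ψc iE
  have hwbdd : ∀ x, |w x ^ 2| ≤ (1 / (2 * ε)) ^ 2 := by
    intro x
    have h := hw x
    rw [abs_mul, abs_of_pos hε] at h
    rw [abs_pow]
    apply pow_le_pow_left₀ (abs_nonneg _)
    rw [le_div_iff₀ (by positivity)]
    linarith
  have iw2 : Integrable (fun x => w x ^ 2) (rho K) :=
    integrable_of_bound_on hK (hwm.pow_const 2).aestronglyMeasurable _ (fun x _ => hwbdd x)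
  set W := ∫ x, w x ^ 2 ∂(rho K) with hW
  have hW0 : 0 ≤ W := integral_nonneg fun _ => sq_nonneg _
  have sI : ∑ i, Iw i = W := by
    simp only [hIw, hB, setIntegral_inter_K hK]
    exact sum_setIntegral_cell hK hy ψ₁ iw2
  -- the total excess
  set T := ∑ i, P' i * G i with hT
  have hT0 : 0 ≤ T := Finset.sum_nonneg fun i _ => mul_nonneg (f7 i).le (f2 i)
  have hT_le : T ≤ 5 * (ε ^ 2 * W) := by
    have h1 : 0.7 * T ≤ ∑ i, sb i * G i := by
      rw [hT, Finset.mul_sum]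
      apply Finset.sum_le_sum
      intro i _
      have := mul_le_mul_of_nonneg_right (f1 i) (f2 i)
      linarith
    have h2 : ∑ i, sb i * G i ≤ ∑ i, (cc i - sb i) := Finset.sum_le_sum fun i _ => f3 i
    have h3 : ∑ i, (cc i - sb i) = ∑ i, (a i / 2 + b i / 2 - sb i) := by
      rw [Finset.sum_sub_distrib, Finset.sum_sub_distrib, Finset.sum_add_distrib, ← Finset.sum_div,
        ← Finset.sum_div, sa, sb', sc]
      ring
    have h4 : ∑ i, (a i / 2 + b i / 2 - sb i)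
        ≤ ∑ i, (1.01 * (2 * ε ^ 2 * Iw i) + 0.2 * (P' i * G i)) := Finset.sum_le_sum fun i _ => f4 i
    have h5 : ∑ i, (1.01 * (2 * ε ^ 2 * Iw i) + 0.2 * (P' i * G i))
        = 1.01 * (2 * ε ^ 2 * W) + 0.2 * T := by
      rw [Finset.sum_add_distrib, ← Finset.mul_sum, ← Finset.mul_sum, ← Finset.mul_sum, sI]
    have h6 : 0 ≤ ε ^ 2 * W := by positivity
    linarith
  -- the sum to bound
  set Y := ε * Real.sqrt W with hY
  have hY0 : 0 ≤ Y := by positivity
  have hY2 : Y ^ 2 = ε ^ 2 * W := by rw [hY, mul_pow, Real.sq_sqrt hW0]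
  set N := Real.sqrt (∑ i, pm i * ‖v i‖ ^ 2) with hN
  have hN0 : 0 ≤ N := Real.sqrt_nonneg _
  have hsq : ∀ i, Real.sqrt (pm i) ^ 2 = pm i := fun i => Real.sq_sqrt (hpm.pos i).le
  have hspos : ∀ i, 0 < Real.sqrt (pm i) := fun i => Real.sqrt_pos.mpr (hpm.pos i)
  have hnn : ∑ i, (Real.sqrt (pm i) * ‖v i‖) ^ 2 = ∑ i, pm i * ‖v i‖ ^ 2 :=
    Finset.sum_congr rfl fun i _ => by rw [mul_pow, hsq]
  have hCS1 : ∑ i, ‖v i‖ * (P' i * Real.sqrt (G i)) ≤ N * (3.17 * Y) := by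
    have h1 : ∀ i, ‖v i‖ * (P' i * Real.sqrt (G i))
        = (Real.sqrt (pm i) * ‖v i‖) * (P' i * Real.sqrt (G i) / Real.sqrt (pm i)) := by
      intro i
      have := (hspos i).ne'
      field_simp
    simp_rw [h1]
    refine (Real.sum_mul_le_sqrt_mul_sqrt _ _ _).trans ?_
    rw [hnn]
    apply mul_le_mul_of_nonneg_left _ hN0
    apply Real.sqrt_le_iff.mpr ⟨by positivity, ?_⟩
    have h2 : ∀ i, (P' i * Real.sqrt (G i) / Real.sqrt (pm i)) ^ 2 ≤ 2 * (P' i * G i) := by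
      intro i
      rw [div_pow, mul_pow, Real.sq_sqrt (f2 i), hsq, mul_div_right_comm]
      have := mul_le_mul_of_nonneg_right (f6 i) (f2 i)
      linarith
    have h3 : ∑ i, (P' i * Real.sqrt (G i) / Real.sqrt (pm i)) ^ 2 ≤ 2 * T := by
      rw [hT, Finset.mul_sum]
      exact Finset.sum_le_sum fun i _ => h2 i
    have h4 : (3.17 * Y) ^ 2 = 10.0489 * (ε ^ 2 * W) := by rw [mul_pow, hY2]; norm_num
    have h5 : 0 ≤ ε ^ 2 * W := by positivity
    linarith
  have hCS2 : ∑ i, ‖v i‖ * u i ≤ N * (1.42 * Y) := by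
    have h1 : ∀ i, ‖v i‖ * u i = (Real.sqrt (pm i) * ‖v i‖) * (u i / Real.sqrt (pm i)) := by
      intro i
      have := (hspos i).ne'
      field_simp
    simp_rw [h1]
    refine (Real.sum_mul_le_sqrt_mul_sqrt _ _ _).trans ?_
    rw [hnn]
    apply mul_le_mul_of_nonneg_left _ hN0
    apply Real.sqrt_le_iff.mpr ⟨by positivity, ?_⟩
    have h2 : ∀ i, (u i / Real.sqrt (pm i)) ^ 2 ≤ 2 * ε ^ 2 * Iw i := by
      intro i
      rw [div_pow, hsq]
      exact f5 i
    have h3 : ∑ i, (u i / Real.sqrt (pm i)) ^ 2 ≤ 2 * (ε ^ 2 * W) := by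
      rw [← sI, Finset.mul_sum, Finset.mul_sum]
      refine Finset.sum_le_sum fun i _ => (h2 i).trans_eq (by ring)
    have h4 : (1.42 * Y) ^ 2 = 2.0164 * (ε ^ 2 * W) := by rw [mul_pow, hY2]; norm_num
    have h5 : 0 ≤ ε ^ 2 * W := by positivity
    linarith
  -- rewrite the left-hand side
  have hLHS : ∑ i, ∫ x in cell y ψ₁ i, ⟪x, v i⟫ * (1 + ε * w x) ∂(rho K)
        - ∑ i, ∫ x in cell y ψ₀ i, ⟪x, v i⟫ ∂(rho K)
      = ∑ i, ((∫ x in B i, ⟪x - c, v i⟫ * (1 + ε * w x) ∂(rho K))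
          - ∫ x in A i, ⟪x - c, v i⟫ ∂(rho K)) := by
    rw [← Finset.sum_sub_distrib]
    apply Finset.sum_congr rfl
    intro i _
    have hsplit : ∀ x, ⟪x, v i⟫ = ⟪x - c, v i⟫ + ⟪c, v i⟫ := by
      intro x; rw [inner_sub_left]; ring
    have iv : ∀ S : Set (EE d), IntegrableOn (fun x => ⟪x - c, v i⟫) S (rho K) := fun S =>
      intOn_of_bound hK (by fun_prop) (M := R * ‖v i‖) (fun x hx =>
        (abs_real_inner_le_norm _ _).trans (mul_le_mul_of_nonneg_right (hR x hx) (norm_nonneg _))) S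
    have iσ : ∀ S : Set (EE d), IntegrableOn (fun x => 1 + ε * w x) S (rho K) := fun S =>
      (hσ.integrable hK).integrableOn
    have ivσ : ∀ S : Set (EE d), IntegrableOn (fun x => ⟪x - c, v i⟫ * (1 + ε * w x)) S (rho K) := fun S =>
      intOn_of_bound hK ((by fun_prop : Measurable fun x => ⟪x - c, v i⟫).mul hσ.meas)
        (M := R * ‖v i‖ * (3 / 2)) (fun x hx => by
          simp only [Pi.mul_apply]
          rw [abs_mul]
          exact mul_le_mul ((abs_real_inner_le_norm _ _).trans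
            (mul_le_mul_of_nonneg_right (hR x hx) (norm_nonneg _))) (hσ.abs_le x) (abs_nonneg _)
            (by positivity)) S
    have e1 : ∫ x in cell y ψ₁ i, ⟪x, v i⟫ * (1 + ε * w x) ∂(rho K)
        = (∫ x in cell y ψ₁ i, ⟪x - c, v i⟫ * (1 + ε * w x) ∂(rho K)) + ⟪c, v i⟫ * pm i := by
      have h2 := h₁ i
      rw [← h2, ← integral_const_mul, ← integral_add (ivσ _) ((iσ _).const_mul _)]
      congr 1; ext x; rw [hsplit]; ring
    have e2 : ∫ x in cell y ψ₀ i, ⟪x, v i⟫ ∂(rho K)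
        = (∫ x in cell y ψ₀ i, ⟪x - c, v i⟫ ∂(rho K)) + ⟪c, v i⟫ * pm i := by
      have h2 := h₀ i
      have i1 : IntegrableOn (fun _ => (1 : ℝ)) (cell y ψ₀ i) (rho K) :=
        intOn_of_bound hK (measurable_const) (M := 1) (fun _ _ => by simp) _
      rw [← h2, ← integral_const_mul, ← integral_add (iv _) (i1.const_mul _)]
      congr 1; ext x; rw [hsplit]; ring
    rw [e1, e2, hB, hA]
    simp only [setIntegral_inter_K hK]
    ring
  rw [hLHS]
  have hbound : ∑ i, ((∫ x in B i, ⟪x - c, v i⟫ * (1 + ε * w x) ∂(rho K))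
          - ∫ x in A i, ⟪x - c, v i⟫ ∂(rho K))
      ≤ ∑ i, R * ‖v i‖ * (24.6 * (P' i * Real.sqrt (G i)) + 2.01 * u i) :=
    Finset.sum_le_sum fun i _ => (le_abs_self _).trans (f9 i (v i))
  have hsum2 : ∑ i, R * ‖v i‖ * (24.6 * (P' i * Real.sqrt (G i)) + 2.01 * u i)
      = R * (24.6 * ∑ i, ‖v i‖ * (P' i * Real.sqrt (G i)) + 2.01 * ∑ i, ‖v i‖ * u i) := by
    simp only [Finset.mul_sum, ← Finset.sum_add_distrib]
    apply Finset.sum_congr rfl
    intro i _
    ring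
  have hfinal : R * (24.6 * ∑ i, ‖v i‖ * (P' i * Real.sqrt (G i)) + 2.01 * ∑ i, ‖v i‖ * u i)
      ≤ R * (24.6 * (N * (3.17 * Y)) + 2.01 * (N * (1.42 * Y))) := by
    apply mul_le_mul_of_nonneg_left _ hR0.le
    linarith
  have hNY : 0 ≤ N * Y := mul_nonneg hN0 hY0
  have htarget : 100 * R * ε * Real.sqrt W * N = 100 * R * (N * Y) := by
    rw [hY]; ring
  have hcalc : R * (24.6 * (N * (3.17 * Y)) + 2.01 * (N * (1.42 * Y))) = R * (N * Y) * 80.8362 := by
    ring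
  rw [htarget]
  have hRNY : 0 ≤ R * (N * Y) := mul_nonneg hR0.le hNY
  calc _ ≤ _ := hbound
    _ = _ := hsum2
    _ ≤ _ := hfinal
    _ = R * (N * Y) * 80.8362 := hcalc
    _ ≤ R * (N * Y) * 100 := mul_le_mul_of_nonneg_left (by norm_num) hRNY
    _ = _ := by ring

end Crest.Agent.Lib.OTStab
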