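/-
S0109 (row 82): the semi-discrete problem: existence of minimisers, optimality condition,
uniqueness of potentials, stability of minimisers.
-/
import Crest.Agent.Lib.OTStab.Semi

set_option autoImplicit false

open MeasureTheory Set
open scoped ENNReal NNReal RealInnerProductSpace

namespace Crest.Agent.Lib.OTStab

variable {d : ℕ} {K : Set (EE d)} {ι : Type*} [Fintype ι]

theorem phi_add_const [Nonempty ι] (y : ι → EE d) (ψ : ι → ℝ) (c : ℝ) (x : EE d) :
    phi y (fun i => ψ i + c) x = phi y ψ x - c := by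
  apply le_antisymm
  · refine phi_le_of_forall _ _ _ fun i => ?_
    have := aff_le_phi y ψ i x
    simp only [aff] at this ⊢
    linarith
  · obtain ⟨i, hi⟩ := exists_aff_eq_phi y ψ x
    have := aff_le_phi y (fun i => ψ i + c) i x
    simp only [aff] at this hi
    linarith

/-- a bound for the atoms on `K` -/
theorem exists_atom_bound (hK : Body K) (y : ι → EE d) :
    ∃ B : ℝ, 0 ≤ B ∧ ∀ x ∈ K, ∀ i, |⟪x, y i⟫| ≤ B := by
  obtain ⟨R, hR⟩ := hK.compact.isBounded.exists_norm_le
  refine ⟨(|R| + 1) * ((∑ i, ‖y i‖) + 1), by positivity, fun x hx i => ?_⟩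
  have h1 : ‖y i‖ ≤ ∑ i, ‖y i‖ :=
    Finset.single_le_sum (f := fun i => ‖y i‖) (fun _ _ => norm_nonneg _) (Finset.mem_univ i)
  calc |⟪x, y i⟫| ≤ ‖x‖ * ‖y i‖ := abs_real_inner_le_norm _ _
    _ ≤ (|R| + 1) * ((∑ i, ‖y i‖) + 1) := by
        apply mul_le_mul _ (by linarith) (norm_nonneg _) (by positivity)
        linarith [hR x hx, le_abs_self R]

/-- the integral of `phi` against a bounded density depends Lipschitz-continuously on `ψ`. -/
theorem abs_integral_phi_mul_sub_le [Nonempty ι] (hK : Body K) (y : ι → EE d) {g : EE d → ℝ}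
    (hg : Measurable g) {G : ℝ} (hG : ∀ x, |g x| ≤ G) (ψ ψ' : ι → ℝ) (C : ℝ)
    (hC : ∀ i, |ψ i - ψ' i| ≤ C) :
    |∫ x, phi y ψ x * g x ∂(rho K) - ∫ x, phi y ψ' x * g x ∂(rho K)| ≤ C * G := by
  have := rho_isProb hK
  have hi1 := integrable_continuous_mul hK (continuous_phi y ψ) hg hG
  have hi2 := integrable_continuous_mul hK (continuous_phi y ψ') hg hG
  rw [← integral_sub hi1 hi2]
  have hb : ∀ᵐ x ∂(rho K), ‖phi y ψ x * g x - phi y ψ' x * g x‖ ≤ C * G := by
    refine Filter.Eventually.of_forall fun x => ?_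
    rw [← sub_mul, Real.norm_eq_abs, abs_mul]
    exact mul_le_mul (abs_phi_sub_le y ψ ψ' C hC x) (hG x) (abs_nonneg _)
      ((abs_nonneg _).trans (abs_phi_sub_le y ψ ψ' C hC x))
  have := norm_integral_le_of_norm_le_const hb
  simpa using this

theorem continuous_integral_phi_mul [Nonempty ι] (hK : Body K) (y : ι → EE d) {g : EE d → ℝ}
    (hg : Measurable g) {G : ℝ} (hG : ∀ x, |g x| ≤ G) :
    Continuous fun ψ : ι → ℝ => ∫ x, phi y ψ x * g x ∂(rho K) := by
  have hG0 : 0 ≤ G := (abs_nonneg _).trans (hG 0)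
  refine (LipschitzWith.of_dist_le_mul (K := ⟨G, hG0⟩) fun ψ ψ' => ?_).continuous
  rw [Real.dist_eq]
  have := abs_integral_phi_mul_sub_le hK y hg hG ψ ψ' (dist ψ ψ') fun i => by
    rw [← Real.dist_eq]; exact dist_le_pi_dist ψ ψ' i
  show _ ≤ G * dist ψ ψ'
  rw [mul_comm]
  exact this

theorem continuous_Fn [Nonempty ι] (hK : Body K) (pm : ι → ℝ) (y : ι → EE d) {σ : EE d → ℝ}
    (hσ : IsDens K σ) : Continuous fun ψ : ι → ℝ => Fn K pm y σ ψ := by
  unfold Fn
  refine (continuous_integral_phi_mul hK y hσ.meas hσ.abs_le).add ?_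
  fun_prop

theorem Fn_add_const (hK : Body K) {pm : ι → ℝ} (hpm : Masses pm) (y : ι → EE d) {σ : EE d → ℝ}
    (hσ : IsDens K σ) (ψ : ι → ℝ) (c : ℝ) :
    Fn K pm y σ (fun i => ψ i + c) = Fn K pm y σ ψ := by
  have := hpm.nonempty
  unfold Fn
  simp only [phi_add_const, sub_mul]
  rw [integral_sub (integrable_phi_mul hK hσ y ψ) ((hσ.integrable hK).const_mul c),
    integral_const_mul, hσ.mass]
  simp only [mul_add, Finset.sum_add_distrib, ← Finset.sum_mul, hpm.sum]
  ring

/-- normalisation: shift so that the minimum is `0`. -/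
theorem exists_normalised [Nonempty ι] (ψ : ι → ℝ) :
    ∃ c : ℝ, (∀ i, 0 ≤ ψ i + c) ∧ ∃ i, ψ i + c = 0 := by
  obtain ⟨i₀, hi₀⟩ := Finite.exists_min ψ
  exact ⟨-ψ i₀, fun i => by linarith [hi₀ i], i₀, by ring⟩

/-- `∫ f σ ≥ a` when `f ≥ a` on `K`, for a density `σ`. -/
theorem le_integral_mul_dens (hK : Body K) {σ : EE d → ℝ} (hσ : IsDens K σ) {f : EE d → ℝ}
    (hf : Continuous f) {a : ℝ} (h : ∀ x ∈ K, a ≤ f x) : a ≤ ∫ x, f x * σ x ∂(rho K) := by
  have h1 : ∫ x, a * σ x ∂(rho K) = a := by rw [integral_const_mul, hσ.mass, mul_one]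
  rw [← h1]
  refine integral_mono_ae ((hσ.integrable hK).const_mul a)
    (integrable_continuous_mul hK hf hσ.meas hσ.abs_le) ?_
  filter_upwards [ae_mem_rho hK] with x hx
  exact mul_le_mul_of_nonneg_right (h x hx) (hσ.nonneg x)

theorem integral_mul_dens_le (hK : Body K) {σ : EE d → ℝ} (hσ : IsDens K σ) {f : EE d → ℝ}
    (hf : Continuous f) {a : ℝ} (h : ∀ x ∈ K, f x ≤ a) : ∫ x, f x * σ x ∂(rho K) ≤ a := by
  have h1 : ∫ x, a * σ x ∂(rho K) = a := by rw [integral_const_mul, hσ.mass, mul_one]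
  rw [← h1]
  refine integral_mono_ae (integrable_continuous_mul hK hf hσ.meas hσ.abs_le)
    ((hσ.integrable hK).const_mul a) ?_
  filter_upwards [ae_mem_rho hK] with x hx
  exact mul_le_mul_of_nonneg_right (h x hx) (hσ.nonneg x)

/-- Coercivity of `Fn` on normalised potentials. -/
theorem Fn_lower (hK : Body K) {pm : ι → ℝ} (hpm : Masses pm) {y : ι → EE d} {σ : EE d → ℝ}
    (hσ : IsDens K σ) {B : ℝ} (hB : ∀ x ∈ K, ∀ i, |⟪x, y i⟫| ≤ B) {ψ : ι → ℝ}
    (h0 : ∀ i, 0 ≤ ψ i) {i₀ : ι} (hi₀ : ψ i₀ = 0) (j : ι) :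
    -B + pm j * ψ j ≤ Fn K pm y σ ψ := by
  have := hpm.nonempty
  unfold Fn
  have h1 : -B ≤ ∫ x, phi y ψ x * σ x ∂(rho K) := by
    refine le_integral_mul_dens hK hσ (continuous_phi y ψ) fun x hx => ?_
    have h2 := aff_le_phi y ψ i₀ x
    simp only [aff, hi₀, sub_zero] at h2
    linarith [(abs_le.mp (hB x hx i₀)).1]
  have h3 : pm j * ψ j ≤ ∑ i, pm i * ψ i :=
    Finset.single_le_sum (f := fun i => pm i * ψ i)
      (fun i _ => mul_nonneg (hpm.pos i).le (h0 i)) (Finset.mem_univ j)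
  linarith

theorem Fn_zero_le (hK : Body K) {pm : ι → ℝ} (hpm : Masses pm) {y : ι → EE d} {σ : EE d → ℝ}
    (hσ : IsDens K σ) {B : ℝ} (hB : ∀ x ∈ K, ∀ i, |⟪x, y i⟫| ≤ B) :
    Fn K pm y σ (fun _ => 0) ≤ B := by
  have := hpm.nonempty
  unfold Fn
  simp only [mul_zero, Finset.sum_const_zero, add_zero]
  refine integral_mul_dens_le hK hσ (continuous_phi y _) fun x hx => ?_
  refine phi_le_of_forall _ _ _ fun i => ?_
  simp only [aff, sub_zero]
  exact (abs_le.mp (hB x hx i)).2


/-- A normalised potential with `Fn` at most that of `0` lies in the box `[0, M]^ι`, `M = 2B/δ`. -/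
theorem mem_box_of_Fn_le (hK : Body K) {pm : ι → ℝ} (hpm : Masses pm) {y : ι → EE d} {σ : EE d → ℝ}
    (hσ : IsDens K σ) {B δ : ℝ} (hB : ∀ x ∈ K, ∀ i, |⟪x, y i⟫| ≤ B) (hδ0 : 0 < δ)
    (hδ : ∀ i, δ ≤ pm i) {ψ : ι → ℝ}
    (h0 : ∀ i, 0 ≤ ψ i) {i₀ : ι} (hi₀ : ψ i₀ = 0) (hle : Fn K pm y σ ψ ≤ Fn K pm y σ (fun _ => 0)) :
    ψ ∈ Icc (0 : ι → ℝ) (fun _ => 2 * B / δ) := by
  refine ⟨fun i => h0 i, fun j => ?_⟩
  have h1 := Fn_lower hK hpm hσ hB h0 hi₀ j
  have h2 := Fn_zero_le hK hpm hσ hB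
  have h3 : δ * ψ j ≤ pm j * ψ j := mul_le_mul_of_nonneg_right (hδ j) (h0 j)
  show ψ j ≤ 2 * B / δ
  rw [le_div_iff₀ hδ0]
  linarith

theorem exists_masses_lower {pm : ι → ℝ} (hpm : Masses pm) : ∃ δ : ℝ, 0 < δ ∧ ∀ i, δ ≤ pm i := by
  have := hpm.nonempty
  obtain ⟨i, hi⟩ := Finite.exists_min pm
  exact ⟨pm i, hpm.pos i, hi⟩

/-- minimisers exist, for any atoms (duplicates allowed). -/
theorem exists_isMinFn (hK : Body K) {pm : ι → ℝ} (hpm : Masses pm) (y : ι → EE d) {σ : EE d → ℝ}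
    (hσ : IsDens K σ) : ∃ ψ, IsMinFn K pm y σ ψ := by
  have := hpm.nonempty
  obtain ⟨B, hB0, hB⟩ := exists_atom_bound hK y
  obtain ⟨δ, hδ0, hδ⟩ := exists_masses_lower hpm
  have hQ : IsCompact (Icc (0 : ι → ℝ) (fun _ => 2 * B / δ)) := isCompact_Icc
  have h0Q : (fun _ => 0 : ι → ℝ) ∈ Icc (0 : ι → ℝ) (fun _ => 2 * B / δ) :=
    ⟨le_refl _, fun i => by show (0 : ℝ) ≤ 2 * B / δ; positivity⟩
  obtain ⟨ψ, hψQ, hψ⟩ := hQ.exists_isMinOn ⟨_, h0Q⟩ (continuous_Fn hK pm y hσ).continuousOn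
  refine ⟨ψ, fun ψ' => ?_⟩
  have hψ0 : Fn K pm y σ ψ ≤ Fn K pm y σ (fun _ => 0) := hψ h0Q
  obtain ⟨c, hc, i₀, hi₀⟩ := exists_normalised ψ'
  rw [← Fn_add_const hK hpm y hσ ψ' c]
  by_cases hle : Fn K pm y σ (fun i => ψ' i + c) ≤ Fn K pm y σ (fun _ => 0)
  · exact hψ (mem_box_of_Fn_le hK hpm hσ hB hδ0 hδ hc hi₀ hle)
  · exact hψ0.trans (not_le.mp hle).le

/-- The optimality inequality: a minimiser gives every cell mass at least `pm i`. -/
theorem le_setIntegral_cell_of_isMinFn (hK : Body K) {pm : ι → ℝ} (hpm : Masses pm) {y : ι → EE d}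
    {σ : EE d → ℝ} (hσ : IsDens K σ) {ψ : ι → ℝ} (h : IsMinFn K pm y σ ψ) (i : ι) :
    pm i ≤ ∫ x in cell y ψ i, σ x ∂(rho K) := by
  classical
  have := hpm.nonempty
  have hsig := hσ.integrable hK
  -- perturbed potentials
  let Ψ : ℝ → ι → ℝ := fun t => Function.update ψ i (ψ i - t)
  have key : ∀ t : ℝ, 0 < t → pm i ≤ ∫ x in cell y (Ψ t) i, σ x ∂(rho K) := by
    intro t ht
    have h1 := h (Ψ t)
    unfold Fn at h1
    have hlin : ∑ j, pm j * Ψ t j = ∑ j, pm j * ψ j - t * pm i := by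
      have : ∀ j, pm j * Ψ t j = pm j * ψ j - (if j = i then t * pm i else 0) := by
        intro j
        by_cases hj : j = i
        · subst hj; simp [Ψ]; ring
        · simp [Ψ, hj]
      simp only [this, Finset.sum_sub_distrib, Finset.sum_ite_eq', Finset.mem_univ, if_true]
    have hi1 := integrable_phi_mul hK hσ y (Ψ t)
    have hi2 := integrable_phi_mul hK hσ y ψ
    have hpt : ∀ x, phi y (Ψ t) x * σ x ≤
        phi y ψ x * σ x + t * (indicator (cell y (Ψ t) i) σ x) := by
      intro x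
      obtain ⟨j, hj⟩ := exists_aff_eq_phi y (Ψ t) x
      by_cases hx : x ∈ cell y (Ψ t) i
      · rw [indicator_of_mem hx]
        have h3 := (mem_cell_iff y (Ψ t) i x).mp hx
        have h4 := aff_le_phi y ψ i x
        simp only [aff, Ψ, Function.update_self] at h3 h4
        have h5 : phi y (Ψ t) x ≤ phi y ψ x + t := by linarith
        have h6 := mul_le_mul_of_nonneg_right h5 (hσ.nonneg x)
        linarith
      · rw [indicator_of_notMem hx, mul_zero, add_zero]
        have hji : j ≠ i := by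
          rintro rfl
          exact hx ((mem_cell_iff y (Ψ t) j x).mpr hj)
        have h4 := aff_le_phi y ψ j x
        have h5 : aff y (Ψ t) j x = aff y ψ j x := by
          simp [aff, Ψ, Function.update_of_ne hji]
        rw [← hj, h5]
        exact mul_le_mul_of_nonneg_right h4 (hσ.nonneg x)
    have hind : Integrable (indicator (cell y (Ψ t) i) σ) (rho K) :=
      hsig.indicator (measurableSet_cell y (Ψ t) i)
    have hint : ∫ x, phi y (Ψ t) x * σ x ∂(rho K) ≤
        ∫ x, (phi y ψ x * σ x + t * (indicator (cell y (Ψ t) i) σ x)) ∂(rho K) :=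
      integral_mono hi1 (hi2.add (hind.const_mul t)) hpt
    rw [integral_add hi2 (hind.const_mul t), integral_const_mul,
      integral_indicator (measurableSet_cell y (Ψ t) i)] at hint
    rw [hlin] at h1
    have : t * pm i ≤ t * ∫ x in cell y (Ψ t) i, σ x ∂(rho K) := by linarith
    exact le_of_mul_le_mul_left this ht
  -- limit `t = 1/(n+1) → 0`
  let S : ℕ → Set (EE d) := fun n => cell y (Ψ (1 / ((n : ℝ) + 1))) i
  have hS_meas : ∀ n, MeasurableSet (S n) := fun n => measurableSet_cell y _ i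
  have hmem : ∀ (t : ℝ) (x : EE d), x ∈ cell y (Ψ t) i ↔ ∀ j, j ≠ i → aff y ψ j x ≤ aff y ψ i x + t := by
    intro t x
    constructor
    · intro hx j hj
      have := hx j
      simp only [aff, Ψ, Function.update_self, Function.update_of_ne hj] at this ⊢
      linarith
    · intro hx j
      by_cases hj : j = i
      · subst hj; exact le_refl _
      · have := hx j hj
        simp only [aff, Ψ, Function.update_self, Function.update_of_ne hj] at this ⊢
        linarith
  have hS_anti : Antitone S := by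
    intro n m hnm x hx
    refine (hmem _ x).mpr fun j hj => ?_
    have h1 := (hmem _ x).mp hx j hj
    have h2 : (1 : ℝ) / ((m : ℝ) + 1) ≤ 1 / ((n : ℝ) + 1) := by
      apply one_div_le_one_div_of_le (by positivity)
      have : (n : ℝ) ≤ m := by exact_mod_cast hnm
      linarith
    linarith
  have hS_inter : (⋂ n, S n) = cell y ψ i := by
    ext x
    simp only [mem_iInter]
    constructor
    · intro hx j
      by_cases hj : j = i
      · subst hj; exact le_refl _
      · refine le_of_forall_pos_le_add fun ε hε => ?_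
        obtain ⟨n, hn⟩ := exists_nat_one_div_lt hε
        have h1 := (hmem _ x).mp (hx n) j hj
        linarith
    · intro hx n
      refine (hmem _ x).mpr fun j hj => ?_
      have h1 := hx j
      have h2 : (0 : ℝ) < 1 / ((n : ℝ) + 1) := by positivity
      linarith
  have hlim := tendsto_setIntegral_of_antitone (μ := rho K) (f := σ) hS_meas hS_anti
    ⟨0, hsig.integrableOn⟩
  rw [hS_inter] at hlim
  exact ge_of_tendsto' hlim fun n => key _ (by positivity)

/-- for injective atoms, minimisers solve the transport problem. -/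
theorem solved_of_isMinFn (hK : Body K) {pm : ι → ℝ} (hpm : Masses pm) {y : ι → EE d}
    (hy : Function.Injective y) {σ : EE d → ℝ} (hσ : IsDens K σ) {ψ : ι → ℝ}
    (h : IsMinFn K pm y σ ψ) : Solved K pm y σ ψ := by
  have := hpm.nonempty
  intro i
  have hsum : ∑ j, pm j = ∑ j, ∫ x in cell y ψ j, σ x ∂(rho K) := by
    rw [hpm.sum, sum_setIntegral_cell hK hy ψ (hσ.integrable hK), hσ.mass]
  have hle : ∀ j ∈ Finset.univ, pm j ≤ ∫ x in cell y ψ j, σ x ∂(rho K) :=
    fun j _ => le_setIntegral_cell_of_isMinFn hK hpm hσ h j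
  exact ((Finset.sum_eq_sum_iff_of_le hle).mp hsum i (Finset.mem_univ i)).symm

/-- two minimisers have potentials differing by a constant on `K`. -/
theorem phi_eq_add_const (hK : Body K) {pm : ι → ℝ} (hpm : Masses pm) (y : ι → EE d) {σ : EE d → ℝ}
    (hσ : IsDens K σ) {ψ ψ' : ι → ℝ} (h : IsMinFn K pm y σ ψ) (h' : IsMinFn K pm y σ ψ') :
    ∃ c : ℝ, ∀ x ∈ K, phi y ψ x = phi y ψ' x + c := by
  have := hpm.nonempty
  let ψm : ι → ℝ := fun i => (ψ i + ψ' i) / 2
  let D : EE d → ℝ := fun x => (phi y ψ x + phi y ψ' x) / 2 - phi y ψm x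
  have hD0 : ∀ x, 0 ≤ D x := by
    intro x
    obtain ⟨i, hi⟩ := exists_aff_eq_phi y ψm x
    have h1 := aff_le_phi y ψ i x
    have h2 := aff_le_phi y ψ' i x
    simp only [aff, ψm] at hi h1 h2
    simp only [D]
    linarith
  have hDc : Continuous D :=
    (((continuous_phi y ψ).add (continuous_phi y ψ')).div_const 2).sub (continuous_phi y ψm)
  have hiD : Integrable (fun x => D x * σ x) (rho K) :=
    integrable_continuous_mul hK hDc hσ.meas hσ.abs_le
  have hint : ∫ x, D x * σ x ∂(rho K) ≤ 0 := by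
    have h1 := h ψm
    have h2 := h' ψm
    unfold Fn at h1 h2
    have i1 := integrable_phi_mul hK hσ y ψ
    have i2 := integrable_phi_mul hK hσ y ψ'
    have i3 := integrable_phi_mul hK hσ y ψm
    have e1 : ∀ x, D x * σ x = (phi y ψ x * σ x + phi y ψ' x * σ x) / 2 - phi y ψm x * σ x := by
      intro x; simp only [D]; ring
    simp only [e1]
    have e3 : ∫ x, ((phi y ψ x * σ x + phi y ψ' x * σ x) / 2 - phi y ψm x * σ x) ∂(rho K)
        = (∫ x, phi y ψ x * σ x ∂(rho K) + ∫ x, phi y ψ' x * σ x ∂(rho K)) / 2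
          - ∫ x, phi y ψm x * σ x ∂(rho K) := by
      have i4 : Integrable (fun x => (phi y ψ x * σ x + phi y ψ' x * σ x) / 2) (rho K) :=
        (i1.add i2).div_const 2
      rw [integral_sub i4 i3, integral_div, integral_add i1 i2]
    rw [e3]
    have e2 : ∑ i, pm i * ψm i = (∑ i, pm i * ψ i + ∑ i, pm i * ψ' i) / 2 := by
      rw [← Finset.sum_add_distrib, Finset.sum_div]
      exact Finset.sum_congr rfl fun i _ => by simp only [ψm]; ring
    linarith
  have hae : ∀ᵐ x ∂(rho K), D x = 0 := by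
    have hnn : 0 ≤ᵐ[rho K] fun x => D x * σ x :=
      Filter.Eventually.of_forall fun x => mul_nonneg (hD0 x) (hσ.nonneg x)
    have hz : ∫ x, D x * σ x ∂(rho K) = 0 := le_antisymm hint (integral_nonneg_of_ae hnn)
    have := (integral_eq_zero_iff_of_nonneg_ae hnn hiD).mp hz
    filter_upwards [this] with x hx
    have h1 : 0 < σ x := by linarith [hσ.lower x]
    exact (mul_eq_zero.mp hx).resolve_right h1.ne'
  have hzK : ∀ x ∈ K, D x = 0 := by
    have hclosed : IsClosed {x | D x = 0} := isClosed_eq hDc continuous_const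
    let U : Set (EE d) := {x | D x = 0}ᶜ ∩ interior K
    have hUo : IsOpen U := hclosed.isOpen_compl.inter isOpen_interior
    have hU0 : volume U = 0 := by
      have h1 : rho K {x | D x = 0}ᶜ = 0 := by
        rw [measure_eq_zero_iff_ae_notMem]
        filter_upwards [hae] with x hx
        simpa using hx
      have h2 : rho K U = 0 := measure_mono_null inter_subset_left h1
      rw [rho_apply hK U hUo.measurableSet] at h2
      have h3 : (volume K)⁻¹ ≠ 0 := ENNReal.inv_ne_zero.mpr hK.volume_ne_top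
      have h4 : volume (U ∩ K) = 0 := (mul_eq_zero.mp h2).resolve_left h3
      have h5 : U ∩ K = U := inter_eq_left.mpr fun x hx => interior_subset hx.2
      rwa [h5] at h4
    have hUe : U = ∅ := (hUo.measure_eq_zero_iff volume).mp hU0
    have hint_sub : interior K ⊆ {x | D x = 0} := by
      intro x hx
      by_contra hne
      have : x ∈ U := ⟨hne, hx⟩
      rw [hUe] at this
      exact this
    have hcl : closure (interior K) ⊆ {x | D x = 0} := closure_minimal hint_sub hclosed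
    rw [hK.convex.closure_interior_eq_closure_of_nonempty_interior hK.interior_nonempty] at hcl
    exact fun x hx => hcl (subset_closure hx)
  have hcommon : ∀ x ∈ K, phi y ψ x - phi y ψ' x ∈ range (fun i => ψ' i - ψ i) := by
    intro x hx
    obtain ⟨i, hi⟩ := exists_aff_eq_phi y ψm x
    have h0 := hzK x hx
    have h1 := aff_le_phi y ψ i x
    have h2 := aff_le_phi y ψ' i x
    simp only [aff, ψm] at hi h1 h2
    simp only [D] at h0
    refine ⟨i, ?_⟩
    show ψ' i - ψ i = _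
    have e1 : ⟪x, y i⟫ - ψ i = phi y ψ x := by linarith
    have e2 : ⟪x, y i⟫ - ψ' i = phi y ψ' x := by linarith
    linarith
  obtain ⟨x₀, hx₀⟩ := hK.interior_nonempty
  have hx₀K := interior_subset hx₀
  refine ⟨phi y ψ x₀ - phi y ψ' x₀, fun x hx => ?_⟩
  have hfin : (range (fun i => ψ' i - ψ i)).Finite := finite_range _
  have hconst := hK.convex.isPreconnected.constant_of_mapsTo
    (T := range (fun i => ψ' i - ψ i)) (f := fun x => phi y ψ x - phi y ψ' x) hfin.isDiscrete
    ((continuous_phi y ψ).sub (continuous_phi y ψ')).continuousOn hcommon hx hx₀K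
  linarith

/-- stability of minimisers as the density tends to `1`: along `σ_ε = 1 + ε w`, `ε → 0`, the values
`∫ phi w` of minimisers converge to the value of any minimiser at `σ = 1`, when `∫ w = 0`. Stated as: for
every `η > 0` there is `ε₀` such that for `0 < ε < ε₀` and minimisers at `1 + ε w` the value is within `η`. -/
theorem tendsto_integral_phi_of_isMinFn (hK : Body K) {pm : ι → ℝ} (hpm : Masses pm) (y : ι → EE d)
    {w : EE d → ℝ} (hw : Measurable w) (B : ℝ) (hB : ∀ x, |w x| ≤ B) (hw0 : ∫ x, w x ∂(rho K) = 0)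
    {ψ₀ : ι → ℝ} (h₀ : IsMinFn K pm y (fun _ => 1) ψ₀) {η : ℝ} (hη : 0 < η) :
    ∃ ε₀ > 0, ∀ ε, 0 < ε → ε < ε₀ → ∀ ψ, IsMinFn K pm y (fun x => 1 + ε * w x) ψ →
      |∫ x, phi y ψ x * w x ∂(rho K) - ∫ x, phi y ψ₀ x * w x ∂(rho K)| < η := by
  have := hpm.nonempty
  have := rho_isProb hK
  have hB0 : 0 ≤ B := (abs_nonneg _).trans (hB 0)
  have hdens1 := isDens_one hK
  -- integrable `w`
  have hwi : Integrable w (rho K) :=
    integrable_of_bound_on hK hw.aestronglyMeasurable B fun x _ => hB x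
  -- the density `1 + ε w`
  have hdens : ∀ ε : ℝ, 0 < ε → ε * (B + 1) ≤ 1 / 2 → IsDens K (fun x => 1 + ε * w x) := by
    intro ε hε hεB
    have hbd : ∀ x, |ε * w x| ≤ 1 / 2 := by
      intro x
      rw [abs_mul, abs_of_pos hε]
      have := mul_le_mul_of_nonneg_left (hB x) hε.le
      nlinarith
    refine ⟨measurable_const.add (hw.const_mul ε), fun x => ?_, fun x => ?_, ?_⟩
    · linarith [(abs_le.mp (hbd x)).1]
    · linarith [(abs_le.mp (hbd x)).2]
    · rw [integral_add (integrable_const _) (hwi.const_mul ε), integral_const_mul, hw0]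
      simp
  -- relation between `Fn` at `σ_ε` and at `1`
  let H : (ι → ℝ) → ℝ := fun ψ => ∫ x, phi y ψ x * w x ∂(rho K)
  have hHc : Continuous H := continuous_integral_phi_mul hK y hw hB
  have hFn : ∀ (ε : ℝ) (ψ : ι → ℝ), Fn K pm y (fun x => 1 + ε * w x) ψ =
      Fn K pm y (fun _ => 1) ψ + ε * H ψ := by
    intro ε ψ
    unfold Fn
    have e1 : ∀ x, phi y ψ x * (1 + ε * w x) = phi y ψ x * 1 + ε * (phi y ψ x * w x) := by
      intro x; ring
    simp only [e1]
    rw [integral_add (integrable_continuous_mul hK (continuous_phi y ψ) measurable_const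
        (B := 1) (by simp)) ((integrable_continuous_mul hK (continuous_phi y ψ) hw hB).const_mul ε),
      integral_const_mul]
    ring
  have hH_shift : ∀ (ψ : ι → ℝ) (c : ℝ), H (fun i => ψ i + c) = H ψ := by
    intro ψ c
    simp only [H, phi_add_const, sub_mul]
    rw [integral_sub (integrable_continuous_mul hK (continuous_phi y ψ) hw hB)
      (hwi.const_mul c), integral_const_mul, hw0]
    ring
  -- the box
  obtain ⟨A, hA0, hA⟩ := exists_atom_bound hK y
  obtain ⟨δ, hδ0, hδ⟩ := exists_masses_lower hpm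
  let Q : Set (ι → ℝ) := Icc (0 : ι → ℝ) (fun _ => 2 * A / δ)
  have hQ : IsCompact Q := isCompact_Icc
  -- normalised `ψ₀`
  obtain ⟨c₀, hc₀, i₀, hi₀⟩ := exists_normalised ψ₀
  have hψ₀Q : (fun i => ψ₀ i + c₀) ∈ Q := by
    refine mem_box_of_Fn_le hK hpm hdens1 hA hδ0 hδ hc₀ hi₀ ?_
    rw [Fn_add_const hK hpm y hdens1]
    exact h₀ _
  -- a bound for `H` on `Q`
  obtain ⟨C, hC⟩ := hQ.exists_bound_of_continuousOn hHc.continuousOn
  have hC0 : 0 ≤ C := (norm_nonneg _).trans (hC _ hψ₀Q)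
  have hCabs : ∀ ψ ∈ Q, |H ψ| ≤ C := fun ψ hψ => by simpa using hC ψ hψ
  -- every normalised minimiser at `ε` lies in the box
  have hnorm : ∀ ε : ℝ, 0 < ε → ε * (B + 1) ≤ 1 / 2 → ∀ ψ,
      IsMinFn K pm y (fun x => 1 + ε * w x) ψ →
      ∃ c : ℝ, (fun i => ψ i + c) ∈ Q ∧ H (fun i => ψ i + c) = H ψ ∧
        Fn K pm y (fun x => 1 + ε * w x) (fun i => ψ i + c) ≤
          Fn K pm y (fun x => 1 + ε * w x) (fun i => ψ₀ i + c₀) := by
    intro ε hε hεB ψ hψ
    have hd := hdens ε hε hεB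
    obtain ⟨c, hc, i₁, hi₁⟩ := exists_normalised ψ
    refine ⟨c, ?_, hH_shift ψ c, ?_⟩
    · refine mem_box_of_Fn_le hK hpm hd hA hδ0 hδ hc hi₁ ?_
      rw [Fn_add_const hK hpm y hd]
      exact hψ _
    · rw [Fn_add_const hK hpm y hd]
      exact hψ _
  -- bad set
  let Bad : Set (ι → ℝ) := Q ∩ {ψ | η ≤ |H ψ - H ψ₀|}
  have hBadc : IsCompact Bad :=
    hQ.inter_right (isClosed_le continuous_const ((hHc.sub continuous_const).abs))
  by_cases hBadne : Bad.Nonempty
  · obtain ⟨ψA, hψA, hmin⟩ := hBadc.exists_isMinOn hBadne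
      (continuous_Fn hK pm y hdens1).continuousOn
    have hgap : Fn K pm y (fun _ => 1) ψ₀ < Fn K pm y (fun _ => 1) ψA := by
      refine lt_of_le_of_ne (h₀ _) fun heq => ?_
      have hmA : IsMinFn K pm y (fun _ => 1) ψA := fun ψ' => by rw [← heq]; exact h₀ ψ'
      obtain ⟨c, hc⟩ := phi_eq_add_const hK hpm y hdens1 hmA h₀
      have hHeq : H ψA = H ψ₀ := by
        have e1 : H ψA = ∫ x, (phi y ψ₀ x + c) * w x ∂(rho K) := by
          refine integral_congr_ae ?_
          filter_upwards [ae_mem_rho hK] with x hx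
          simp only [hc x hx]
        have e2 : ∀ x, (phi y ψ₀ x + c) * w x = phi y ψ₀ x * w x + c * w x := fun x => by ring
        rw [e1]
        simp only [e2]
        rw [integral_add (integrable_continuous_mul hK (continuous_phi y ψ₀) hw hB)
          (hwi.const_mul c), integral_const_mul, hw0]
        simp [H]
      have := hψA.2
      simp only [mem_ofPred_eq, hHeq, sub_self, abs_zero] at this
      linarith
    set gap := Fn K pm y (fun _ => 1) ψA - Fn K pm y (fun _ => 1) ψ₀ with hgapdef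
    have hgap0 : 0 < gap := by simp only [hgapdef]; linarith
    refine ⟨min (1 / (2 * (B + 1))) (gap / (3 * (C + 1))), lt_min (by positivity) (by positivity),
      fun ε hε hεlt ψ hψ => ?_⟩
    have hε1 : ε * (B + 1) ≤ 1 / 2 := by
      have := (lt_min_iff.mp hεlt).1
      rw [lt_div_iff₀ (by positivity)] at this
      nlinarith
    have hε2 : ε * (3 * (C + 1)) < gap := by
      have := (lt_min_iff.mp hεlt).2
      rwa [lt_div_iff₀ (by positivity)] at this
    obtain ⟨c, hcQ, hHc', hle⟩ := hnorm ε hε hε1 ψ hψ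
    have hnotBad : (fun i => ψ i + c) ∉ Bad := by
      intro hbad
      have h1 : Fn K pm y (fun _ => 1) ψA ≤ Fn K pm y (fun _ => 1) (fun i => ψ i + c) := hmin hbad
      rw [hFn, hFn, Fn_add_const hK hpm y hdens1 ψ₀ c₀] at hle
      have h2 : ε * H (fun i => ψ i + c) ≥ -(ε * C) := by
        have := (abs_le.mp (hCabs _ hcQ)).1
        nlinarith
      have h3 : ε * H (fun i => ψ₀ i + c₀) ≤ ε * C := by
        have := (abs_le.mp (hCabs _ hψ₀Q)).2
        nlinarith
      simp only [hgapdef] at hε2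
      nlinarith
    have : ¬ η ≤ |H (fun i => ψ i + c) - H ψ₀| := fun hh => hnotBad ⟨hcQ, hh⟩
    rw [hHc'] at this
    exact not_le.mp this
  · refine ⟨1 / (2 * (B + 1)), by positivity, fun ε hε hεlt ψ hψ => ?_⟩
    have hε1 : ε * (B + 1) ≤ 1 / 2 := by
      rw [lt_div_iff₀ (by positivity)] at hεlt
      nlinarith
    obtain ⟨c, hcQ, hHc', -⟩ := hnorm ε hε hε1 ψ hψ
    have : ¬ η ≤ |H (fun i => ψ i + c) - H ψ₀| := fun hh => hBadne ⟨_, hcQ, hh⟩
    rw [hHc'] at this
    exact not_le.mp this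

end Crest.Agent.Lib.OTStab
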