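/-
S0109 (row 82), T4: telescoping for convex functions and the variance bound.
-/
import Crest.Agent.Lib.OTStab.Semi2
import Crest.Agent.Lib.OTStab.Key

set_option autoImplicit false
set_option linter.unusedSectionVars false
set_option linter.style.haveILetI false

open MeasureTheory Set
open scoped ENNReal NNReal RealInnerProductSpace

namespace Crest.Agent.Lib.OTStab

/-- Real-analysis lemma of T4: telescoping for two convex functions with subgradients on a cofinite set. -/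
theorem telescoping_convex (C₀ C₁ G₀ G₁ : ℝ → ℝ) (Good : Set ℝ) (hGood : (Good ᶜ).Finite)
    (M B Lip : ℝ) (hM : 0 ≤ M)
    (hC₀ : ∀ s ∈ Good ∩ Icc 0 1, ∀ s' ∈ Icc (0 : ℝ) 1, C₀ s + (s' - s) * G₀ s ≤ C₀ s')
    (hC₁ : ∀ s ∈ Good ∩ Icc 0 1, ∀ s' ∈ Icc (0 : ℝ) 1, C₁ s + (s' - s) * G₁ s ≤ C₁ s')
    (hG : ∀ s ∈ Good ∩ Icc 0 1, G₁ s - G₀ s ≤ M)
    (hB : ∀ s ∈ Good ∩ Icc 0 1, |G₀ s| ≤ B)
    (hL₀ : ∀ s ∈ Icc (0 : ℝ) 1, ∀ s' ∈ Icc (0 : ℝ) 1, |C₀ s - C₀ s'| ≤ Lip * |s - s'|)
    (hL₁ : ∀ s ∈ Icc (0 : ℝ) 1, ∀ s' ∈ Icc (0 : ℝ) 1, |C₁ s - C₁ s'| ≤ Lip * |s - s'|) :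
    (C₁ 1 - C₁ 0) - (C₀ 1 - C₀ 0) ≤ M := by
  -- good points in every open interval
  have hex : ∀ a b : ℝ, a < b → ∃ t ∈ Ioo a b, t ∈ Good := by
    intro a b hab
    obtain ⟨t, ht, hn⟩ := ((Ioo_infinite hab).sdiff hGood).nonempty
    exact ⟨t, ht, by simpa using hn⟩
  have hLip : 0 ≤ Lip := by
    have := hL₀ 0 (by simp) 1 (by simp)
    have h2 : |(0 : ℝ) - 1| = 1 := by norm_num
    rw [h2, mul_one] at this
    exact (abs_nonneg _).trans this
  -- step estimate
  have hstep : ∀ s ∈ Good ∩ Icc 0 1, ∀ s' ∈ Good ∩ Icc 0 1, s ≤ s' →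
      G₀ s ≤ G₀ s' ∧ (C₁ s' - C₁ s) - (C₀ s' - C₀ s) ≤ (s' - s) * M + (s' - s) * (G₀ s' - G₀ s) := by
    intro s hs s' hs' hss'
    constructor
    · rcases eq_or_lt_of_le hss' with rfl | hlt
      · exact le_rfl
      have h1 := hC₀ s hs s' hs'.2
      have h2 := hC₀ s' hs' s hs.2
      have h3 : 0 < s' - s := sub_pos.mpr hlt
      by_contra hcon
      have hcon' : G₀ s' < G₀ s := not_le.mp hcon
      nlinarith [mul_pos h3 (sub_pos.mpr hcon')]
    · have h1 := hC₁ s' hs' s hs.2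
      have h2 := hC₀ s hs s' hs'.2
      have h3 := hG s' hs'
      have h4 : 0 ≤ s' - s := sub_nonneg.mpr hss'
      have h5 := mul_le_mul_of_nonneg_left h3 h4
      nlinarith
  -- for every N the inequality holds up to an error
  have hN : ∀ N : ℕ, 0 < N →
      (C₁ 1 - C₁ 0) - (C₀ 1 - C₀ 0) ≤ M + (4 * |B| + 4 * Lip) / N := by
    intro N hNpos
    have hNR : (0 : ℝ) < N := by exact_mod_cast hNpos
    have hpick : ∀ k : ℕ, ∃ t ∈ Ioo ((k : ℝ) / N) (((k : ℝ) + 1) / N), t ∈ Good := by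
      intro k
      exact hex _ _ (by
        apply div_lt_div_of_pos_right _ hNR
        linarith)
    choose t ht htg using hpick
    have htI : ∀ k : ℕ, k < N → t k ∈ Good ∩ Icc (0 : ℝ) 1 := by
      intro k hk
      refine ⟨htg k, ?_, ?_⟩
      · have h1 := (ht k).1
        have h2 : (0 : ℝ) ≤ (k : ℝ) / N := by positivity
        linarith
      · have h1 := (ht k).2
        have h2 : ((k : ℝ) + 1) / N ≤ 1 := by
          rw [div_le_one hNR]
          exact_mod_cast hk
        linarith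
    have hmesh : ∀ k : ℕ, t k ≤ t (k + 1) ∧ t (k + 1) - t k ≤ 2 / N := by
      intro k
      have h1 := (ht k).1
      have h2 := (ht k).2
      have h3 := (ht (k + 1)).1
      have h4 := (ht (k + 1)).2
      push_cast at h3 h4
      have e1 : ((k : ℝ) + 1 + 1) / N = (k : ℝ) / N + 2 / N := by ring
      constructor <;> linarith
    have hind : ∀ k : ℕ, k < N →
        (C₁ (t k) - C₁ (t 0)) - (C₀ (t k) - C₀ (t 0)) ≤
          (t k - t 0) * M + 2 / N * (G₀ (t k) - G₀ (t 0)) := by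
      intro k
      induction k with
      | zero => intro _; simp
      | succ k ih =>
        intro hk
        have hk' : k < N := by omega
        have h1 := ih hk'
        obtain ⟨h2, h3⟩ := hstep _ (htI k hk') _ (htI (k + 1) hk) (hmesh k).1
        have h4 := (hmesh k).2
        have h5 : 0 ≤ G₀ (t (k + 1)) - G₀ (t k) := sub_nonneg.mpr h2
        have h6 := mul_le_mul_of_nonneg_right h4 h5
        have e : 2 / (N : ℝ) * (G₀ (t (k + 1)) - G₀ (t 0)) =
            2 / (N : ℝ) * (G₀ (t k) - G₀ (t 0)) + 2 / (N : ℝ) * (G₀ (t (k + 1)) - G₀ (t k)) := by ring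
        rw [e]
        nlinarith
    -- the last index
    obtain ⟨n, rfl⟩ : ∃ n, N = n + 1 := ⟨N - 1, by omega⟩
    have hlast := hind n (by omega)
    have ht0 := htI 0 (by omega)
    have htn := htI n (by omega)
    have ht0' : |(0 : ℝ) - t 0| ≤ 1 / ((n + 1 : ℕ) : ℝ) := by
      have h1 := (ht 0).2
      have h2 := ht0.2.1
      rw [abs_of_nonpos (by linarith)]
      simp only [Nat.cast_zero, zero_add] at h1
      linarith
    have htn' : |(1 : ℝ) - t n| ≤ 1 / ((n + 1 : ℕ) : ℝ) := by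
      have h1 := (ht n).1
      have h2 := htn.2.2
      rw [abs_of_nonneg (by linarith)]
      have e : (n : ℝ) / ((n + 1 : ℕ) : ℝ) = 1 - 1 / ((n + 1 : ℕ) : ℝ) := by
        field_simp
        push_cast
        ring
      rw [e] at h1
      linarith
    have m01 : (0 : ℝ) ∈ Icc (0 : ℝ) 1 := by simp
    have m11 : (1 : ℝ) ∈ Icc (0 : ℝ) 1 := by simp
    have a1 := abs_le.mp ((hL₁ 0 m01 _ ht0.2).trans (mul_le_mul_of_nonneg_left ht0' hLip))
    have a2 := abs_le.mp ((hL₀ 0 m01 _ ht0.2).trans (mul_le_mul_of_nonneg_left ht0' hLip))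
    have a3 := abs_le.mp ((hL₁ 1 m11 _ htn.2).trans (mul_le_mul_of_nonneg_left htn' hLip))
    have a4 := abs_le.mp ((hL₀ 1 m11 _ htn.2).trans (mul_le_mul_of_nonneg_left htn' hLip))
    have hb0 := abs_le.mp ((hB _ ht0).trans (le_abs_self B))
    have hbn := abs_le.mp ((hB _ htn).trans (le_abs_self B))
    have hNn : (0 : ℝ) < ((n + 1 : ℕ) : ℝ) := hNR
    have hM1 : (t n - t 0) * M ≤ M := by
      have h1 : t n - t 0 ≤ 1 := by linarith [htn.2.2, ht0.2.1]
      nlinarith
    have hG1 : 2 / ((n + 1 : ℕ) : ℝ) * (G₀ (t n) - G₀ (t 0)) ≤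
        2 / ((n + 1 : ℕ) : ℝ) * (2 * |B|) := by
      apply mul_le_mul_of_nonneg_left _ (by positivity)
      linarith [hb0.1, hbn.2]
    have e : (4 * |B| + 4 * Lip) / ((n + 1 : ℕ) : ℝ) =
        2 / ((n + 1 : ℕ) : ℝ) * (2 * |B|) + 4 * (Lip * (1 / ((n + 1 : ℕ) : ℝ))) := by ring
    rw [e]
    linarith [a1.1, a1.2, a2.1, a2.2, a3.1, a3.2, a4.1, a4.2]
  -- conclude
  by_contra hcon
  have hpos : 0 < (C₁ 1 - C₁ 0) - (C₀ 1 - C₀ 0) - M := by
    have := not_le.mp hcon
    linarith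
  obtain ⟨N, hNgt⟩ := exists_nat_gt ((4 * |B| + 4 * Lip) / ((C₁ 1 - C₁ 0) - (C₀ 1 - C₀ 0) - M))
  have hA : 0 ≤ 4 * |B| + 4 * Lip := by positivity
  have hNpos : 0 < N := by
    have h0 : (0 : ℝ) ≤ (4 * |B| + 4 * Lip) / ((C₁ 1 - C₁ 0) - (C₀ 1 - C₀ 0) - M) := by positivity
    have : (0 : ℝ) < N := lt_of_le_of_lt h0 hNgt
    exact_mod_cast this
  have h1 := hN N hNpos
  have hNR : (0 : ℝ) < N := by exact_mod_cast hNpos
  rw [div_lt_iff₀ hpos] at hNgt
  have h2 : (4 * |B| + 4 * Lip) / (N : ℝ) < (C₁ 1 - C₁ 0) - (C₀ 1 - C₀ 0) - M := by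
    rw [div_lt_iff₀ hNR]
    linarith
  linarith


section Path

variable {d : ℕ} {K : Set (EE d)} {ι : Type*} [Fintype ι]

/-- The linear path of atoms from `y` to `z`. -/
noncomputable def atomPath (y z : ι → EE d) (s : ℝ) : ι → EE d := fun i => (1 - s) • y i + s • z i

theorem atomPath_zero (y z : ι → EE d) : atomPath y z 0 = y := by
  funext i; simp [atomPath]

theorem atomPath_one (y z : ι → EE d) : atomPath y z 1 = z := by
  funext i; simp [atomPath]

theorem atomPath_sub (y z : ι → EE d) (s s' : ℝ) (i : ι) :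
    atomPath y z s i - atomPath y z s' i = (s - s') • (z i - y i) := by
  simp only [atomPath, sub_smul, smul_sub, one_smul]
  abel

/-- All but finitely many points of the path have distinct atoms. -/
theorem finite_not_injective_atomPath [Finite ι] {y z : ι → EE d}
    (hpair : Function.Injective (fun i => (y i, z i))) :
    ({s : ℝ | Function.Injective (atomPath y z s)}ᶜ).Finite := by
  have hsub : {s : ℝ | Function.Injective (atomPath y z s)}ᶜ ⊆
      ⋃ i : ι, ⋃ j : ι, {s : ℝ | i ≠ j ∧ atomPath y z s i = atomPath y z s j} := by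
    intro s hs
    simp only [mem_compl_iff, Set.mem_ofPred_eq, Function.Injective] at hs
    push Not at hs
    obtain ⟨i, j, hij, hne⟩ := hs
    simp only [mem_iUnion, Set.mem_ofPred_eq]
    exact ⟨i, j, hne, hij⟩
  refine Set.Finite.subset (Set.finite_iUnion fun i => Set.finite_iUnion fun j => ?_) hsub
  refine Set.Subsingleton.finite ?_
  rintro s ⟨hij, hs⟩ s' ⟨-, hs'⟩
  by_contra hne
  apply hij
  apply hpair
  have h1 : (1 - s) • (y i - y j) + s • (z i - z j) = 0 := by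
    have : atomPath y z s i - atomPath y z s j = 0 := sub_eq_zero.mpr hs
    rw [← this]
    simp only [atomPath, smul_sub]
    abel
  have h2 : (1 - s') • (y i - y j) + s' • (z i - z j) = 0 := by
    have : atomPath y z s' i - atomPath y z s' j = 0 := sub_eq_zero.mpr hs'
    rw [← this]
    simp only [atomPath, smul_sub]
    abel
  have h3 : (s - s') • ((z i - z j) - (y i - y j)) = 0 := by
    have : (s - s') • ((z i - z j) - (y i - y j)) =
        ((1 - s) • (y i - y j) + s • (z i - z j)) - ((1 - s') • (y i - y j) + s' • (z i - z j)) := by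
      simp only [sub_smul, smul_sub, one_smul]
      abel
    rw [this, h1, h2, sub_zero]
  have h4 : (z i - z j) - (y i - y j) = 0 := by
    rcases smul_eq_zero.mp h3 with h | h
    · exact absurd (sub_eq_zero.mp h) hne
    · exact h
  have h5 : z i - z j = y i - y j := sub_eq_zero.mp h4
  have h6 : y i - y j = 0 := by
    rw [h5] at h1
    rw [← add_smul] at h1
    simpa using h1
  have h7 : y i = y j := sub_eq_zero.mp h6
  have h8 : z i = z j := by
    rw [h6] at h5
    exact sub_eq_zero.mp h5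
  simp [h7, h8]

variable {pm : ι → ℝ} {y z : ι → EE d} {σ : EE d → ℝ}

/-- Lipschitz dependence of `Fn` on the atoms, for a fixed potential. -/
theorem Fn_le_of_inner_le [Nonempty ι] (hK : Body K) (hσ : IsDens K σ) (y y' : ι → EE d) (ψ : ι → ℝ)
    {L : ℝ} (hL : ∀ x ∈ K, ∀ i, ⟪x, y i⟫ - ⟪x, y' i⟫ ≤ L) :
    Fn K pm y σ ψ ≤ Fn K pm y' σ ψ + L := by
  haveI := rho_isProb hK
  have hphi := integrable_phi_mul hK hσ y ψ
  have hphi' := integrable_phi_mul hK hσ y' ψ
  have hsig := hσ.integrable hK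
  have hle : ∫ x, phi y ψ x * σ x ∂(rho K) ≤ ∫ x, (phi y' ψ x * σ x + L * σ x) ∂(rho K) := by
    refine integral_mono_ae hphi (hphi'.add (hsig.const_mul L)) ?_
    filter_upwards [ae_mem_rho hK] with x hx
    obtain ⟨i, hi⟩ := exists_aff_eq_phi y ψ x
    have h1 := aff_le_phi y' ψ i x
    have h2 := hL x hx i
    have h3 : phi y ψ x ≤ phi y' ψ x + L := by
      rw [← hi]
      simp only [aff] at h1 ⊢
      linarith
    have h4 := mul_le_mul_of_nonneg_right h3 (hσ.nonneg x)
    show phi y ψ x * σ x ≤ phi y' ψ x * σ x + L * σ x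
    linarith
  rw [integral_add hphi' (hsig.const_mul L), integral_const_mul, hσ.mass, mul_one] at hle
  unfold Fn
  linarith

/-- Splitting off the perturbation of the density in `Fn`. -/
theorem Fn_add_perturb [Nonempty ι] (hK : Body K) {w : EE d → ℝ} (hw : Measurable w) {B : ℝ}
    (hB : ∀ x, |w x| ≤ B) (ε : ℝ) (y : ι → EE d) (ψ : ι → ℝ) :
    Fn K pm y (fun x => 1 + ε * w x) ψ =
      Fn K pm y (fun _ => 1) ψ + ε * ∫ x, phi y ψ x * w x ∂(rho K) := by
  haveI := rho_isProb hK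
  have h1 : Integrable (fun x => phi y ψ x * (1 : ℝ)) (rho K) :=
    integrable_continuous_mul (B := 1) hK (continuous_phi y ψ) measurable_const (by simp)
  have h2 : Integrable (fun x => phi y ψ x * w x) (rho K) :=
    integrable_continuous_mul hK (continuous_phi y ψ) hw hB
  unfold Fn
  have e : ∀ x, phi y ψ x * (1 + ε * w x) = phi y ψ x * 1 + ε * (phi y ψ x * w x) := by
    intro x; ring
  simp only [e]
  rw [integral_add h1 (h2.const_mul ε), integral_const_mul]
  ring

/-- The value function along the path of atoms, for a fixed density `σ`: a choice of minimisers, its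
value `C`, its slope `G` and the subgradient inequality. -/
theorem path_facts (hK : Body K) (hpm : Masses pm) (hσ : IsDens K σ) (y z : ι → EE d)
    {R' V : ℝ} (hR' : ∀ x ∈ K, ‖x‖ ≤ R') (hV : ∀ i, ‖z i - y i‖ ≤ V) :
    ∃ (C G : ℝ → ℝ) (Ψ : ℝ → ι → ℝ),
      (∀ s, IsMinFn K pm (atomPath y z s) σ (Ψ s)) ∧
      (∀ s, C s = Fn K pm (atomPath y z s) σ (Ψ s)) ∧
      (∀ s, G s = ∑ i, ∫ x in cell (atomPath y z s) (Ψ s) i, ⟪x, z i - y i⟫ * σ x ∂(rho K)) ∧
      (∀ s, Function.Injective (atomPath y z s) → ∀ s', C s + (s' - s) * G s ≤ C s') ∧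
      (∀ s s', |C s - C s'| ≤ (R' * V) * |s - s'|) := by
  haveI := hpm.nonempty
  have hmin : ∀ s, ∃ ψ, IsMinFn K pm (atomPath y z s) σ ψ := fun s =>
    exists_isMinFn hK hpm _ hσ
  choose Ψ hΨ using hmin
  refine ⟨fun s => Fn K pm (atomPath y z s) σ (Ψ s),
    fun s => ∑ i, ∫ x in cell (atomPath y z s) (Ψ s) i, ⟪x, z i - y i⟫ * σ x ∂(rho K),
    Ψ, hΨ, fun _ => rfl, fun _ => rfl, ?_, ?_⟩
  · intro s hs s'
    have hsol : Solved K pm (atomPath y z s) σ (Ψ s) := solved_of_isMinFn hK hpm hs hσ (hΨ s)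
    have h1 := Fn_eq_corr hK hpm hs hσ hsol
    have h2 := corr_le_Fn hK hpm hs hσ hsol (atomPath y z s') (Ψ s')
    have h3 : ∑ i, ∫ x in cell (atomPath y z s) (Ψ s) i, ⟪x, atomPath y z s' i⟫ * σ x ∂(rho K) =
        ∑ i, ∫ x in cell (atomPath y z s) (Ψ s) i, ⟪x, atomPath y z s i⟫ * σ x ∂(rho K) +
        (s' - s) * ∑ i, ∫ x in cell (atomPath y z s) (Ψ s) i, ⟪x, z i - y i⟫ * σ x ∂(rho K) := by
      rw [Finset.mul_sum, ← Finset.sum_add_distrib]
      refine Finset.sum_congr rfl fun i _ => ?_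
      rw [← integral_const_mul, ← integral_add (integrable_inner_mul hK hσ _).integrableOn
        ((integrable_inner_mul hK hσ _).integrableOn.const_mul _)]
      refine integral_congr_ae (Filter.Eventually.of_forall fun x => ?_)
      have e : atomPath y z s' i = atomPath y z s i + (s' - s) • (z i - y i) := by
        have := atomPath_sub y z s' s i
        rw [← this]; abel
      show ⟪x, atomPath y z s' i⟫ * σ x =
        ⟪x, atomPath y z s i⟫ * σ x + (s' - s) * (⟪x, z i - y i⟫ * σ x)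
      rw [e, inner_add_right, inner_smul_right]
      ring
    show Fn K pm (atomPath y z s) σ (Ψ s) + (s' - s) *
      ∑ i, ∫ x in cell (atomPath y z s) (Ψ s) i, ⟪x, z i - y i⟫ * σ x ∂(rho K) ≤
      Fn K pm (atomPath y z s') σ (Ψ s')
    rw [h1, ← h3]
    exact h2
  · have key : ∀ s s', Fn K pm (atomPath y z s) σ (Ψ s) ≤
        Fn K pm (atomPath y z s') σ (Ψ s') + (R' * V) * |s - s'| := by
      intro s s'
      refine (hΨ s (Ψ s')).trans (Fn_le_of_inner_le hK hσ _ _ _ ?_)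
      intro x hx i
      rw [← inner_sub_right, atomPath_sub, inner_smul_right]
      have h1 : |⟪x, z i - y i⟫| ≤ R' * V := by
        refine (abs_real_inner_le_norm _ _).trans ?_
        exact mul_le_mul (hR' x hx) (hV i) (norm_nonneg _) ((norm_nonneg _).trans (hR' x hx))
      calc (s - s') * ⟪x, z i - y i⟫ ≤ |s - s'| * |⟪x, z i - y i⟫| := by
            rw [← abs_mul]; exact le_abs_self _
        _ ≤ |s - s'| * (R' * V) := mul_le_mul_of_nonneg_left h1 (abs_nonneg _)
        _ = (R' * V) * |s - s'| := by ring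
    intro s s'
    show |Fn K pm (atomPath y z s) σ (Ψ s) - Fn K pm (atomPath y z s') σ (Ψ s')| ≤ _
    rw [abs_le]
    constructor
    · have := key s' s
      rw [abs_sub_comm] at this
      linarith
    · have := key s s'
      linarith

/-- Bound of the slope. -/
theorem abs_setIntegral_inner_le (hK : Body K) (hσ : IsDens K σ) {R' V : ℝ}
    (hR' : ∀ x ∈ K, ‖x‖ ≤ R') (hR'0 : 0 ≤ R') (v : EE d) (hV : ‖v‖ ≤ V)
    (A : Set (EE d)) : |∫ x in A, ⟪x, v⟫ * σ x ∂(rho K)| ≤ R' * V * (3 / 2) := by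
  haveI := rho_isProb hK
  have hV0 : 0 ≤ V := (norm_nonneg _).trans hV
  have h1 : ∀ᵐ x ∂((rho K).restrict A), ‖⟪x, v⟫ * σ x‖ ≤ R' * V * (3 / 2) := by
    refine ae_restrict_of_ae ?_
    filter_upwards [ae_mem_rho hK] with x hx
    rw [norm_mul, Real.norm_eq_abs, Real.norm_eq_abs]
    refine mul_le_mul ?_ (hσ.abs_le x) (abs_nonneg _) (by positivity)
    refine (abs_real_inner_le_norm _ _).trans ?_
    exact mul_le_mul (hR' x hx) hV (norm_nonneg _) hR'0
  have h2 := norm_integral_le_of_norm_le_const h1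
  rw [Real.norm_eq_abs] at h2
  refine h2.trans ?_
  have h3 : ((rho K).restrict A).real univ ≤ 1 := by
    rw [measureReal_restrict_apply_univ]
    exact measureReal_le_one
  have h4 : 0 ≤ R' * V * (3 / 2) := by positivity
  nlinarith

/-- The dual form of the variance bound. -/
theorem integral_sub_mul_le (hK : Body K) (hpm : Masses pm)
    (hpair : Function.Injective (fun i => (y i, z i)))
    (c : EE d) {R : ℝ} (hR0 : 0 < R) (hR : ∀ x ∈ K, ‖x - c‖ ≤ R) {ψ₀ ψ₁ : ι → ℝ}
    (h₀ : IsMinFn K pm y (fun _ => 1) ψ₀) (h₁ : IsMinFn K pm z (fun _ => 1) ψ₁)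
    {w : EE d → ℝ} (hw : Measurable w) {B : ℝ} (hB : ∀ x, |w x| ≤ B)
    (hw0 : ∫ x, w x ∂(rho K) = 0) :
    ∫ x, phi z ψ₁ x * w x ∂(rho K) - ∫ x, phi y ψ₀ x * w x ∂(rho K) ≤
      100 * R * Real.sqrt (∫ x, w x ^ 2 ∂(rho K)) * Real.sqrt (∑ i, pm i * ‖z i - y i‖ ^ 2) := by
  classical
  haveI := hpm.nonempty
  haveI := rho_isProb hK
  refine le_of_forall_pos_le_add fun η hη => ?_
  obtain ⟨ε₀, hε₀, hlim⟩ := tendsto_integral_phi_of_isMinFn hK hpm z hw B hB hw0 h₁ hη
  -- the small parameter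
  have hB'pos : 0 < |B| + 1 := by positivity
  set ε : ℝ := min (ε₀ / 2) (1 / (2 * (|B| + 1))) with hεdef
  have hε : 0 < ε := lt_min (by linarith) (by positivity)
  have hεlt : ε < ε₀ := lt_of_le_of_lt (min_le_left _ _) (by linarith)
  have hεB : ε * (|B| + 1) ≤ 1 / 2 := by
    have h1 : ε ≤ 1 / (2 * (|B| + 1)) := min_le_right _ _
    have h2 := mul_le_mul_of_nonneg_right h1 hB'pos.le
    have h3 : 1 / (2 * (|B| + 1)) * (|B| + 1) = 1 / 2 := by
      field_simp
    linarith
  have hwb : ∀ x, |ε * w x| ≤ 1 / 2 := by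
    intro x
    rw [abs_mul, abs_of_pos hε]
    have h1 : |w x| ≤ |B| + 1 := by linarith [hB x, le_abs_self B]
    have h2 := mul_le_mul_of_nonneg_left h1 hε.le
    linarith
  have hwint : Integrable w (rho K) :=
    Integrable.of_bound hw.aestronglyMeasurable B (Filter.Eventually.of_forall hB)
  have hσ₁ : IsDens K (fun x => 1 + ε * w x) := by
    refine ⟨measurable_const.add (hw.const_mul ε), fun x => ?_, fun x => ?_, ?_⟩
    · have := abs_le.mp (hwb x); show 1 / 2 ≤ 1 + ε * w x; linarith [this.1]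
    · have := abs_le.mp (hwb x); show 1 + ε * w x ≤ 3 / 2; linarith [this.2]
    · rw [integral_add (integrable_const _) (hwint.const_mul ε), integral_const_mul, hw0]
      simp
  have hσ₀ : IsDens K (fun _ => (1 : ℝ)) := isDens_one hK
  -- constants
  set R' : ℝ := ‖c‖ + R with hR'def
  have hR'0 : 0 ≤ R' := by positivity
  have hR' : ∀ x ∈ K, ‖x‖ ≤ R' := by
    intro x hx
    have h1 := hR x hx
    have h2 : ‖x‖ ≤ ‖x - c‖ + ‖c‖ := by
      simpa using norm_add_le (x - c) c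
    simp only [hR'def]
    linarith
  set V : ℝ := ∑ i, ‖z i - y i‖ with hVdef
  have hV : ∀ i, ‖z i - y i‖ ≤ V := fun i =>
    Finset.single_le_sum (f := fun i => ‖z i - y i‖) (fun _ _ => norm_nonneg _) (Finset.mem_univ i)
  obtain ⟨C₀, G₀, Ψ₀, hΨ₀, hC₀, hG₀, hsub₀, hL₀⟩ := path_facts hK hpm hσ₀ y z hR' hV
  obtain ⟨C₁, G₁, Ψ₁, hΨ₁, hC₁, hG₁, hsub₁, hL₁⟩ := path_facts hK hpm hσ₁ y z hR' hV
  set S : ℝ := ∑ i, pm i * ‖z i - y i‖ ^ 2 with hSdef
  set W : ℝ := ∫ x, w x ^ 2 ∂(rho K) with hWdef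
  have htele := telescoping_convex C₀ C₁ G₀ G₁ {s | Function.Injective (atomPath y z s)}
    (finite_not_injective_atomPath hpair) (100 * R * ε * Real.sqrt W * Real.sqrt S)
    ((Fintype.card ι : ℝ) * (R' * V * (3 / 2))) (R' * V) (by positivity)
    (fun s hs s' _ => hsub₀ s hs.1 s') (fun s hs s' _ => hsub₁ s hs.1 s')
    (fun s hs => by
      have hinj : Function.Injective (atomPath y z s) := hs.1
      have hsol₀ : Solved K pm (atomPath y z s) (fun _ => 1) (Ψ₀ s) :=
        solved_of_isMinFn hK hpm hinj hσ₀ (hΨ₀ s)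
      have hsol₁ : Solved K pm (atomPath y z s) (fun x => 1 + ε * w x) (Ψ₁ s) :=
        solved_of_isMinFn hK hpm hinj hσ₁ (hΨ₁ s)
      have hkey := key_inequality hK hpm hinj c hR0 hR hε hσ₁ hsol₀ hsol₁ (fun i => z i - y i)
      rw [hG₀, hG₁]
      simp only [mul_one]
      exact hkey)
    (fun s _ => by
      rw [hG₀]
      refine (Finset.abs_sum_le_sum_abs _ _).trans ?_
      refine (Finset.sum_le_card_nsmul _ _ (R' * V * (3 / 2)) fun i _ =>
        abs_setIntegral_inner_le hK hσ₀ hR' hR'0 _ (hV i) _).trans ?_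
      simp)
    (fun s _ s' _ => hL₀ s s') (fun s _ s' _ => hL₁ s s')
  -- tangent inequalities
  have hmin1 : IsMinFn K pm z (fun x => 1 + ε * w x) (Ψ₁ 1) := by
    have := hΨ₁ 1
    rwa [atomPath_one] at this
  have t1 : C₀ 1 ≤ Fn K pm z (fun _ => 1) (Ψ₁ 1) := by
    rw [hC₀, atomPath_one]
    have := hΨ₀ 1 (Ψ₁ 1)
    rwa [atomPath_one] at this
  have t2 : C₁ 1 = Fn K pm z (fun _ => 1) (Ψ₁ 1) + ε * ∫ x, phi z (Ψ₁ 1) x * w x ∂(rho K) := by
    rw [hC₁, atomPath_one]
    exact Fn_add_perturb hK hw hB ε z (Ψ₁ 1)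
  have t3 : C₁ 0 ≤ Fn K pm y (fun _ => 1) ψ₀ + ε * ∫ x, phi y ψ₀ x * w x ∂(rho K) := by
    rw [hC₁, atomPath_zero, ← Fn_add_perturb hK hw hB ε y ψ₀]
    have := hΨ₁ 0 ψ₀
    rwa [atomPath_zero] at this
  have t4 : Fn K pm y (fun _ => 1) ψ₀ ≤ C₀ 0 := by
    rw [hC₀, atomPath_zero]
    exact h₀ _
  have hmain : ε * (∫ x, phi z (Ψ₁ 1) x * w x ∂(rho K) - ∫ x, phi y ψ₀ x * w x ∂(rho K)) ≤
      ε * (100 * R * Real.sqrt W * Real.sqrt S) := by
    have e1 : 100 * R * ε * Real.sqrt W * Real.sqrt S = ε * (100 * R * Real.sqrt W * Real.sqrt S) := by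
      ring
    rw [e1] at htele
    rw [mul_sub]
    linarith
  have hmain' := le_of_mul_le_mul_left hmain hε
  have hl := abs_lt.mp (hlim ε hε hεlt (Ψ₁ 1) hmin1)
  linarith [hl.1, hl.2]

/-- `Var_ρ (φ_z - φ_y) ≤ (100 R)² Σ pm_i ‖y_i - z_i‖²`, for labelled atoms whose pairs are distinct. -/
theorem var_bound (hK : Body K) (hpm : Masses pm)
    (hpair : Function.Injective (fun i => (y i, z i)))
    (c : EE d) {R : ℝ} (hR0 : 0 < R) (hR : ∀ x ∈ K, ‖x - c‖ ≤ R) {ψ₀ ψ₁ : ι → ℝ}
    (h₀ : IsMinFn K pm y (fun _ => 1) ψ₀) (h₁ : IsMinFn K pm z (fun _ => 1) ψ₁) :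
    varRho K (fun x => phi z ψ₁ x - phi y ψ₀ x) ≤ (100 * R) ^ 2 * ∑ i, pm i * ‖y i - z i‖ ^ 2 := by
  haveI := hpm.nonempty
  haveI := rho_isProb hK
  set h : EE d → ℝ := fun x => phi z ψ₁ x - phi y ψ₀ x with hdef
  have hcont : Continuous h := (continuous_phi z ψ₁).sub (continuous_phi y ψ₀)
  obtain ⟨C, hC⟩ := hK.compact.exists_bound_of_continuousOn hcont.continuousOn
  have hhb : ∀ x ∈ K, |h x| ≤ C := fun x hx => by simpa using hC x hx
  have hint : Integrable h (rho K) :=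
    integrable_of_bound_on hK hcont.aestronglyMeasurable C hhb
  have hint2 : Integrable (fun x => h x ^ 2) (rho K) :=
    integrable_of_bound_on hK (hcont.pow 2).aestronglyMeasurable (C ^ 2) fun x hx => by
      rw [abs_pow]
      exact pow_le_pow_left₀ (abs_nonneg _) (hhb x hx) 2
  set m : ℝ := ∫ x, h x ∂(rho K) with hm
  set w : EE d → ℝ := K.indicator (fun x => h x - m) with hwdef
  have hwmeas : Measurable w :=
    ((hcont.measurable).sub measurable_const).indicator hK.measurableSet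
  have hwae : ∀ᵐ x ∂(rho K), w x = h x - m := by
    filter_upwards [ae_mem_rho hK] with x hx
    simp [hwdef, hx]
  have hwb : ∀ x, |w x| ≤ |C| + |m| := by
    intro x
    by_cases hx : x ∈ K
    · have : w x = h x - m := by simp [hwdef, hx]
      rw [this]
      refine (abs_sub _ _).trans ?_
      linarith [hhb x hx, le_abs_self C]
    · have : w x = 0 := by simp [hwdef, hx]
      rw [this, abs_zero]
      positivity
  have hw0 : ∫ x, w x ∂(rho K) = 0 := by
    rw [integral_congr_ae hwae, integral_sub hint (integrable_const _)]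
    simp [hm]
  have hvar : varRho K h = ∫ x, (h x - m) ^ 2 ∂(rho K) := by
    have e : ∀ x, (h x - m) ^ 2 = (h x ^ 2 - 2 * m * h x) + m ^ 2 := fun x => by ring
    simp only [e]
    have i1 : Integrable (fun x => h x ^ 2 - 2 * m * h x) (rho K) := hint2.sub (hint.const_mul _)
    rw [integral_add i1 (integrable_const _), integral_sub hint2 (hint.const_mul _),
      integral_const_mul]
    simp only [varRho, integral_const, probReal_univ, smul_eq_mul]
    rw [← hm]
    ring
  have hvar0 : 0 ≤ varRho K h := by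
    rw [hvar]
    exact integral_nonneg fun x => sq_nonneg _
  have hW : ∫ x, w x ^ 2 ∂(rho K) = varRho K h := by
    rw [hvar]
    refine integral_congr_ae ?_
    filter_upwards [hwae] with x hx
    rw [hx]
  have hint' : ∫ x, phi z ψ₁ x * w x ∂(rho K) - ∫ x, phi y ψ₀ x * w x ∂(rho K) = varRho K h := by
    have i1 := integrable_continuous_mul hK (continuous_phi z ψ₁) hwmeas hwb
    have i2 := integrable_continuous_mul hK (continuous_phi y ψ₀) hwmeas hwb
    rw [← integral_sub i1 i2]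
    have i3 : ∫ x, (phi z ψ₁ x * w x - phi y ψ₀ x * w x) ∂(rho K) =
        ∫ x, (h x ^ 2 - m * h x) ∂(rho K) := by
      refine integral_congr_ae ?_
      filter_upwards [hwae] with x hx
      rw [hx]
      simp only [hdef]
      ring
    rw [i3, integral_sub hint2 (hint.const_mul _), integral_const_mul]
    simp only [varRho]
    rw [← hm]
    ring
  have hmain := integral_sub_mul_le hK hpm hpair c hR0 hR h₀ h₁ hwmeas hwb hw0
  rw [hint', hW] at hmain
  set V := varRho K h with hV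
  set S : ℝ := ∑ i, pm i * ‖z i - y i‖ ^ 2 with hS
  have hS0 : 0 ≤ S := Finset.sum_nonneg fun i _ =>
    mul_nonneg (hpm.pos i).le (by positivity)
  have hS' : ∑ i, pm i * ‖y i - z i‖ ^ 2 = S := by
    refine Finset.sum_congr rfl fun i _ => ?_
    rw [norm_sub_rev]
  rw [hS']
  rcases eq_or_lt_of_le hvar0 with h0 | hpos
  · rw [← h0]
    positivity
  · have hsq : 0 < Real.sqrt V := Real.sqrt_pos.mpr hpos
    have h1 : Real.sqrt V ≤ 100 * R * Real.sqrt S := by
      have e : V = Real.sqrt V * Real.sqrt V := (Real.mul_self_sqrt hvar0).symm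
      have e2 : 100 * R * Real.sqrt V * Real.sqrt S = Real.sqrt V * (100 * R * Real.sqrt S) := by ring
      rw [e2] at hmain
      nth_rewrite 1 [e] at hmain
      exact le_of_mul_le_mul_left hmain hsq
    have h2 := pow_le_pow_left₀ hsq.le h1 2
    rw [Real.sq_sqrt hvar0, mul_pow, Real.sq_sqrt hS0] at h2
    exact h2

end Path

end Crest.Agent.Lib.OTStab
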