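/-
S0109 (row 82, T7): the main estimate at a fixed discretisation scale.
-/
import Crest.Agent.Lib.OTStab.Final
import Crest.Agent.Lib.OTStab.Approx
import Crest.Agent.Lib.OTStab.GN
import Crest.Agent.Lib.OTStab.Var
import Crest.Agent.Lib.OTStab.Noble

set_option autoImplicit false

open MeasureTheory Set
open scoped ENNReal NNReal RealInnerProductSpace

namespace Crest.Agent.Lib.OTStab

variable {d : ℕ}

theorem ae_mem_of_optimal {K Y : Set (EE d)} (hY : IsCompact Y) {μ : Measure (EE d)} {T : EE d → EE d}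
    (hμ : Crest.AnalysisR.OT.IsProbabilityOn Y μ) (hT : Crest.AnalysisR.OT.IsOptimalMap (rho K) μ T) :
    ∀ᵐ x ∂(rho K), T x ∈ Y := by
  have hm : MeasurableSet Yᶜ := hY.isClosed.measurableSet.compl
  have h : (rho K) (T ⁻¹' Yᶜ) = 0 := by
    rw [← Measure.map_apply hT.1 hm, hT.2.1]
    exact hμ.2
  exact h

theorem integrable_sq_norm_sub {K : Set (EE d)} (hK : Body K) {f g : EE d → EE d}
    (hf : Measurable f) (hg : Measurable g) (L : ℝ) (hfL : ∀ᵐ x ∂(rho K), ‖f x‖ ≤ L)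
    (hgL : ∀ᵐ x ∂(rho K), ‖g x‖ ≤ L) : Integrable (fun x => ‖f x - g x‖ ^ 2) (rho K) := by
  have := rho_isProb hK
  refine Integrable.of_bound (((hf.sub hg).norm.pow_const 2).aestronglyMeasurable) ((L + L) ^ 2) ?_
  filter_upwards [hfL, hgL] with x h1 h2
  have h3 : ‖f x - g x‖ ≤ L + L := (norm_sub_le _ _).trans (add_le_add h1 h2)
  rw [Real.norm_of_nonneg (sq_nonneg _)]
  exact pow_le_pow_left₀ (norm_nonneg _) h3 2

theorem measurable_comp_sel {ι : Type*} [Finite ι] {s : EE d → ι} (hs : ∀ i, MeasurableSet (s ⁻¹' {i}))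
    (a : ι → EE d) : Measurable fun x => a (s x) := by
  let _ : MeasurableSpace ι := ⊤
  have : Measurable s := measurable_to_countable' hs
  exact (measurable_from_top (f := a)).comp this

theorem isSubgradOn_sel {ι : Type*} [Fintype ι] [Nonempty ι] (K : Set (EE d)) (a : ι → EE d) (ψ : ι → ℝ)
    {s : EE d → ι} (hs : ∀ x, x ∈ cell a ψ (s x)) : IsSubgradOn K (phi a ψ) (fun x => a (s x)) := by
  intro x _ x' _
  have h1 : aff a ψ (s x) x = phi a ψ x := (mem_cell_iff a ψ (s x) x).1 (hs x)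
  have h2 := aff_le_phi a ψ (s x) x'
  rw [← h1]
  simp only [aff] at h2 ⊢
  rw [inner_sub_left]
  linarith

theorem varRho_nonneg {K : Set (EE d)} (hK : Body K) {f : EE d → ℝ} (hf : Continuous f) :
    0 ≤ varRho K f := by
  have := rho_isProb hK
  obtain ⟨C, hC⟩ := hK.compact.exists_bound_of_continuousOn hf.continuousOn
  have hf1 : Integrable f (rho K) :=
    integrable_of_bound_on hK hf.aestronglyMeasurable C (fun x hx => by simpa using hC x hx)
  have hf2 : Integrable (fun x => f x ^ 2) (rho K) :=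
    integrable_of_bound_on hK (hf.pow 2).aestronglyMeasurable (C ^ 2) (fun x hx => by
      have h1 : ‖f x‖ ≤ C := hC x hx
      rw [abs_of_nonneg (sq_nonneg _)]
      have h2 : |f x| ≤ C := by simpa using h1
      calc f x ^ 2 = |f x| ^ 2 := (sq_abs _).symm
        _ ≤ C ^ 2 := pow_le_pow_left₀ (abs_nonneg _) h2 2)
  set m := ∫ x, f x ∂(rho K) with hm
  have h0 : 0 ≤ ∫ x, (f x - m) ^ 2 ∂(rho K) := integral_nonneg fun x => sq_nonneg _
  have h1 : ∫ x, (f x - m) ^ 2 ∂(rho K) = ∫ x, f x ^ 2 ∂(rho K) - m ^ 2 := by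
    have : (fun x => (f x - m) ^ 2) = fun x => f x ^ 2 - (2 * m * f x - m ^ 2) := by
      funext x
      ring
    have hi : Integrable (fun x => 2 * m * f x - m ^ 2) (rho K) :=
      (hf1.const_mul (2 * m)).sub (integrable_const _)
    rw [this, integral_sub hf2 hi,
      integral_sub (hf1.const_mul (2 * m)) (integrable_const _), integral_const_mul, integral_const]
    simp only [probReal_univ, one_smul, smul_eq_mul, one_mul, ← hm]
    ring
  simp only [varRho]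
  rw [← hm]
  linarith

/-- the main estimate at discretisation scale `η`. -/
theorem main_eta {K Y : Set (EE d)} (hK : Body K) (hY : IsCompact Y)
    {CA CG R L : ℝ} (hCG : 0 ≤ CG) (hR0 : 0 < R) (hR : ∀ x ∈ K, ‖x - (0 : EE d)‖ ≤ R)
    (hL : ∀ y ∈ Y, ‖y‖ ≤ L)
    (hA : ∀ (μ : Measure (EE d)) (T : EE d → EE d),
      Crest.AnalysisR.OT.IsProbabilityOn Y μ → Crest.AnalysisR.OT.IsOptimalMap (rho K) μ T →
      ∀ (J : Type) [Fintype J] (A : J → Set (EE d)) (a : J → EE d) (η : ℝ), 0 < η →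
      (∀ j, MeasurableSet (A j)) → Pairwise (Function.onFun Disjoint A) → μ (⋃ j, A j)ᶜ = 0 →
      (∀ j, a j ∈ Y) → Function.Injective a → (∀ j, ∀ y ∈ A j, ‖y - a j‖ ≤ η) →
      ∀ (pm : J → ℝ), Masses pm → (∀ j, pm j = (μ (A j)).toReal) →
      ∀ (ψ : J → ℝ), Solved K pm a (fun _ => 1) ψ →
      ∀ (s : EE d → J), (∀ j, MeasurableSet (s ⁻¹' {j})) → (∀ x, x ∈ cell a ψ (s x)) →
      ∫ x, ‖T x - a (s x)‖ ^ 2 ∂(rho K) ≤ CA * Real.sqrt η)
    (hG : ∀ (f g : EE d → ℝ) (Tf Tg : EE d → EE d),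
      Continuous f → Continuous g → Measurable Tf → Measurable Tg →
      IsSubgradOn K f Tf → IsSubgradOn K g Tg →
      (∀ x ∈ K, ‖Tf x‖ ≤ L) → (∀ x ∈ K, ‖Tg x‖ ≤ L) →
      ∫ x, ‖Tf x - Tg x‖ ^ 2 ∂(rho K) ≤ CG * (varRho K (fun x => g x - f x)) ^ (1 / 3 : ℝ))
    {μ ν : Measure (EE d)} (hμ : Crest.AnalysisR.OT.IsProbabilityOn Y μ)
    (hν : Crest.AnalysisR.OT.IsProbabilityOn Y ν) {Tμ Tν : EE d → EE d}
    (hTμ : Crest.AnalysisR.OT.IsOptimalMap (rho K) μ Tμ) (hTν : Crest.AnalysisR.OT.IsOptimalMap (rho K) ν Tν)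
    {π : Measure (EE d × EE d)} (hπ : Crest.AnalysisR.OT.IsPairCoupling μ ν π)
    (hcost : Crest.AnalysisR.OT.quadCost π ≠ ⊤) {η : ℝ} (hη : 0 < η) :
    ∫ x, ‖Tμ x - Tν x‖ ^ 2 ∂(rho K) ≤
      3 * (CA * Real.sqrt η + CG * ((100 * R) ^ 2 *
        (2 * (Crest.AnalysisR.OT.quadCost π).toReal + 8 * η ^ 2)) ^ (1 / 3 : ℝ) + CA * Real.sqrt η) := by
  classical
  have hρ := rho_isProb hK
  have hμp : IsProbabilityMeasure μ := hμ.1
  have hνp : IsProbabilityMeasure ν := hν.1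
  have hπp : IsProbabilityMeasure π := coupling_isProb hπ
  obtain ⟨n, A, a, hAm, hAd, hcov, haA, hclose⟩ := exists_partition hY hη
  have haY : ∀ j, a j ∈ Y := fun j => (haA j).2
  have hainj : Function.Injective a := by
    intro j l hjl
    by_contra hne
    have := Set.disjoint_left.1 (hAd hne) (haA j).1
    exact this (hjl ▸ (haA l).1)
  have hμ0 : μ (⋃ j, A j)ᶜ = 0 := measure_mono_null (compl_subset_compl.2 hcov) hμ.2
  have hν0 : ν (⋃ j, A j)ᶜ = 0 := measure_mono_null (compl_subset_compl.2 hcov) hν.2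
  have hπ0 : π (⋃ p : Fin n × Fin n, A p.1 ×ˢ A p.2)ᶜ = 0 := coupling_cover hπ hAm hμ0 hν0
  -- the index sets
  let Jμ := {j : Fin n // μ (A j) ≠ 0}
  let Jν := {j : Fin n // ν (A j) ≠ 0}
  let I := {p : Fin n × Fin n // π (A p.1 ×ˢ A p.2) ≠ 0}
  have : Nonempty Jμ := nonempty_pos_part μ hAm hμ0
  have : Nonempty Jν := nonempty_pos_part ν hAm hν0
  have hBm : ∀ p : Fin n × Fin n, MeasurableSet (A p.1 ×ˢ A p.2) := fun p => (hAm _).prod (hAm _)
  have : Nonempty I := nonempty_pos_part π hBm hπ0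
  let pμ : Jμ → ℝ := fun j => (μ (A j.1)).toReal
  let pν : Jν → ℝ := fun j => (ν (A j.1)).toReal
  let pI : I → ℝ := fun i => (π (A i.1.1 ×ˢ A i.1.2)).toReal
  have hpμ : Masses pμ := masses_pos_part μ hAm hAd hμ0
  have hpν : Masses pν := masses_pos_part ν hAm hAd hν0
  have hpI : Masses pI := masses_pos_part π hBm (pair_disjoint hAd) hπ0
  let aμ : Jμ → EE d := fun j => a j.1
  let aν : Jν → EE d := fun j => a j.1
  have haμ : Function.Injective aμ := fun j l h => Subtype.ext (hainj h)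
  have haν : Function.Injective aν := fun j l h => Subtype.ext (hainj h)
  obtain ⟨ψμ, hψμ⟩ := exists_isMinFn hK hpμ aμ (isDens_one hK)
  obtain ⟨ψν, hψν⟩ := exists_isMinFn hK hpν aν (isDens_one hK)
  have hsμ := solved_of_isMinFn hK hpμ haμ (isDens_one hK) hψμ
  have hsν := solved_of_isMinFn hK hpν haν (isDens_one hK) hψν
  obtain ⟨sμ, hsμm, hsμc⟩ := exists_sel aμ ψμ
  obtain ⟨sν, hsνm, hsνc⟩ := exists_sel aν ψν
  let Tf : EE d → EE d := fun x => aμ (sμ x)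
  let Tg : EE d → EE d := fun x => aν (sν x)
  have hTfm : Measurable Tf := measurable_comp_sel hsμm aμ
  have hTgm : Measurable Tg := measurable_comp_sel hsνm aν
  have hTfL : ∀ x, ‖Tf x‖ ≤ L := fun x => hL _ (haY _)
  have hTgL : ∀ x, ‖Tg x‖ ≤ L := fun x => hL _ (haY _)
  -- the two approximations
  have h1 : ∫ x, ‖Tμ x - Tf x‖ ^ 2 ∂(rho K) ≤ CA * Real.sqrt η :=
    hA μ Tμ hμ hTμ Jμ (fun j => A j.1) aμ η hη (fun j => hAm _) (fun j l h => hAd (fun e => h (Subtype.ext e)))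
      (null_compl_pos_part μ hAm hμ0) (fun j => haY _) haμ (fun j => hclose _) pμ hpμ (fun j => rfl) ψμ hsμ sμ
      hsμm hsμc
  have h3 : ∫ x, ‖Tν x - Tg x‖ ^ 2 ∂(rho K) ≤ CA * Real.sqrt η :=
    hA ν Tν hν hTν Jν (fun j => A j.1) aν η hη (fun j => hAm _) (fun j l h => hAd (fun e => h (Subtype.ext e)))
      (null_compl_pos_part ν hAm hν0) (fun j => haY _) haν (fun j => hclose _) pν hpν (fun j => rfl) ψν hsν sν
      hsνm hsνc
  -- labels
  let f : I → Jμ := fstLabel hπ hAm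
  let g : I → Jν := sndLabel hπ hAm
  have hfs : Function.Surjective f := fstLabel_surj hπ hAm hAd hν0
  have hgs : Function.Surjective g := sndLabel_surj hπ hAm hAd hμ0
  have hmin0 : IsMinFn K pI (aμ ∘ f) (fun _ => 1) (ψμ ∘ f) :=
    isMinFn_comp_surj hfs (fun i => hpI.pos i |>.le) (fun j => fstLabel_fibre hπ hAm hAd hν0 j) aμ hψμ
  have hmin1 : IsMinFn K pI (aν ∘ g) (fun _ => 1) (ψν ∘ g) :=
    isMinFn_comp_surj hgs (fun i => hpI.pos i |>.le) (fun j => sndLabel_fibre hπ hAm hAd hμ0 j) aν hψν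
  have hpair : Function.Injective (fun i : I => ((aμ ∘ f) i, (aν ∘ g) i)) := by
    intro i i' h
    have h1 : a i.1.1 = a i'.1.1 := congrArg Prod.fst h
    have h2 : a i.1.2 = a i'.1.2 := congrArg Prod.snd h
    exact Subtype.ext (Prod.ext (hainj h1) (hainj h2))
  have hvar := var_bound hK hpI hpair (0 : EE d) hR0 hR hmin0 hmin1
  have hphi0 : (fun x => phi (aμ ∘ f) (ψμ ∘ f) x) = phi aμ ψμ := funext (phi_comp_surj hfs aμ ψμ)
  have hphi1 : (fun x => phi (aν ∘ g) (ψν ∘ g) x) = phi aν ψν := funext (phi_comp_surj hgs aν ψν)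
  have hvar' : varRho K (fun x => phi aν ψν x - phi aμ ψμ x)
      ≤ (100 * R) ^ 2 * ∑ i, pI i * ‖(aμ ∘ f) i - (aν ∘ g) i‖ ^ 2 := by
    have e : (fun x => phi (aν ∘ g) (ψν ∘ g) x - phi (aμ ∘ f) (ψμ ∘ f) x)
        = fun x => phi aν ψν x - phi aμ ψμ x := by
      funext x
      rw [phi_comp_surj hfs aμ ψμ x, phi_comp_surj hgs aν ψν x]
    rw [← e]
    exact hvar
  have hcostb : ∑ i, pI i * ‖(aμ ∘ f) i - (aν ∘ g) i‖ ^ 2
      ≤ 2 * (Crest.AnalysisR.OT.quadCost π).toReal + 8 * η ^ 2 :=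
    discrete_cost_le hAm hAd hη hclose hcost
  have hsub_f := isSubgradOn_sel K aμ ψμ hsμc
  have hsub_g := isSubgradOn_sel K aν ψν hsνc
  have h2 := hG (phi aμ ψμ) (phi aν ψν) Tf Tg (continuous_phi _ _) (continuous_phi _ _) hTfm hTgm hsub_f hsub_g
    (fun x _ => hTfL x) (fun x _ => hTgL x)
  have hvar_nonneg : 0 ≤ varRho K (fun x => phi aν ψν x - phi aμ ψμ x) :=
    varRho_nonneg hK ((continuous_phi _ _).sub (continuous_phi _ _))
  have h2' : ∫ x, ‖Tf x - Tg x‖ ^ 2 ∂(rho K) ≤ CG * ((100 * R) ^ 2 *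
      (2 * (Crest.AnalysisR.OT.quadCost π).toReal + 8 * η ^ 2)) ^ (1 / 3 : ℝ) := by
    refine h2.trans (mul_le_mul_of_nonneg_left ?_ hCG)
    refine Real.rpow_le_rpow hvar_nonneg (hvar'.trans ?_) (by norm_num)
    exact mul_le_mul_of_nonneg_left hcostb (by positivity)
  -- a.e. bounds and the triangle inequality
  have hμY : ∀ᵐ x ∂(rho K), ‖Tμ x‖ ≤ L := by
    filter_upwards [ae_mem_of_optimal hY hμ hTμ] with x hx using hL _ hx
  have hνY : ∀ᵐ x ∂(rho K), ‖Tν x‖ ≤ L := by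
    filter_upwards [ae_mem_of_optimal hY hν hTν] with x hx using hL _ hx
  have hi0 := integrable_sq_norm_sub hK hTμ.1 hTν.1 L hμY hνY
  have hi1 := integrable_sq_norm_sub hK hTμ.1 hTfm L hμY (ae_of_all _ hTfL)
  have hi2 := integrable_sq_norm_sub hK hTfm hTgm L (ae_of_all _ hTfL) (ae_of_all _ hTgL)
  have hi3 := integrable_sq_norm_sub hK hTν.1 hTgm L hνY (ae_of_all _ hTgL)
  have htri : ∀ x, ‖Tμ x - Tν x‖ ^ 2 ≤
      3 * (‖Tμ x - Tf x‖ ^ 2 + ‖Tf x - Tg x‖ ^ 2 + ‖Tν x - Tg x‖ ^ 2) := by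
    intro x
    have e : Tμ x - Tν x = (Tμ x - Tf x) + (Tf x - Tg x) - (Tν x - Tg x) := by abel
    have h4 : ‖Tμ x - Tν x‖ ≤ ‖Tμ x - Tf x‖ + ‖Tf x - Tg x‖ + ‖Tν x - Tg x‖ := by
      rw [e]
      exact (norm_sub_le _ _).trans (add_le_add_left (norm_add_le _ _) _)
    have hn := norm_nonneg (Tμ x - Tν x)
    have hp := norm_nonneg (Tμ x - Tf x)
    have hq := norm_nonneg (Tf x - Tg x)
    have hr := norm_nonneg (Tν x - Tg x)
    have h5 := pow_le_pow_left₀ hn h4 2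
    nlinarith [sq_nonneg (‖Tμ x - Tf x‖ - ‖Tf x - Tg x‖), sq_nonneg (‖Tμ x - Tf x‖ - ‖Tν x - Tg x‖),
      sq_nonneg (‖Tf x - Tg x‖ - ‖Tν x - Tg x‖)]
  calc ∫ x, ‖Tμ x - Tν x‖ ^ 2 ∂(rho K)
      ≤ ∫ x, 3 * (‖Tμ x - Tf x‖ ^ 2 + ‖Tf x - Tg x‖ ^ 2 + ‖Tν x - Tg x‖ ^ 2) ∂(rho K) :=
        integral_mono hi0 (((hi1.add hi2).add hi3).const_mul 3) htri
    _ = 3 * (∫ x, ‖Tμ x - Tf x‖ ^ 2 ∂(rho K) + ∫ x, ‖Tf x - Tg x‖ ^ 2 ∂(rho K)
          + ∫ x, ‖Tν x - Tg x‖ ^ 2 ∂(rho K)) := by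
        have hi12 : Integrable (fun x => ‖Tμ x - Tf x‖ ^ 2 + ‖Tf x - Tg x‖ ^ 2) (rho K) := hi1.add hi2
        rw [integral_const_mul, integral_add hi12 hi3, integral_add hi1 hi2]
    _ ≤ _ := by
        gcongr

end Crest.Agent.Lib.OTStab
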